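import Mathlib

/-!
Definitions for the duality of metric entropy.
-/

namespace Vale.Agent.Lib.P126

variable {E : Type*}

/-- Covering number `N(A, B)`: the least number of translates `x + B` whose union contains `A`
(`sInf` over the natural numbers; for compact `A` and `B` with the origin in its interior the
set of admissible numbers is nonempty, see the nondegeneracy part of the main result). -/
noncomputable def covNum [AddCommGroup E] (A B : Set E) : ℕ :=
  sInf {m : ℕ | ∃ t : Finset E, t.card = m ∧ A ⊆ ⋃ x ∈ t, (fun b => x + b) '' B}

/-- The polar body `K° = {y | ⟨x, y⟩ ≤ 1 for all x ∈ K}`. -/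
def polarBody [NormedAddCommGroup E] [InnerProductSpace ℝ E] (K : Set E) : Set E :=
  {y | ∀ x ∈ K, inner ℝ x y ≤ 1}

/-- An origin-symmetric convex body: compact, convex, nonempty interior, `K = -K`. -/
def IsSymBody [NormedAddCommGroup E] [InnerProductSpace ℝ E] (K : Set E) : Prop :=
  IsCompact K ∧ Convex ℝ K ∧ (interior K).Nonempty ∧ ∀ x ∈ K, -x ∈ K

end Vale.Agent.Lib.P126
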