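import Mathlib

/-!
Combinatorial core: a pairwise separated family of integer valued functions on a finite set
strongly shatters many pairs `(A, s)`, encoded as finite subsets of `X × ℤ`.
-/

open Finset
open scoped Classical

namespace Vale.Agent.Lib.P126

variable {X : Type*} [Fintype X]

/-- `Shat fam G`: the family `fam` strongly shatters the set `G` of pairs (point, threshold):
every subset `E` of `G` is cut out by a member of `fam` with margin one on both sides. -/
def Shat (fam : Finset (X → ℤ)) (G : Finset (X × ℤ)) : Prop :=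
  ∀ E ⊆ G, ∃ f ∈ fam, (∀ p ∈ E, p.2 + 1 ≤ f p.1) ∧ (∀ p ∈ G, p ∉ E → f p.1 ≤ p.2 - 1)

/-- number of subsets of `U` shattered by `fam`. -/
noncomputable def shatCount (U : Finset (X × ℤ)) (fam : Finset (X → ℤ)) : ℕ :=
  (U.powerset.filter (Shat fam)).card

theorem Shat.mono {fam fam' : Finset (X → ℤ)} (h : fam ⊆ fam') {G : Finset (X × ℤ)}
    (hG : Shat fam G) : Shat fam' G := by
  intro E hE
  obtain ⟨f, hf, h1, h2⟩ := hG E hE
  exact ⟨f, h hf, h1, h2⟩

theorem shat_empty {fam : Finset (X → ℤ)} (h : fam.Nonempty) : Shat fam ∅ := by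
  intro E hE
  obtain ⟨f, hf⟩ := h
  refine ⟨f, hf, ?_, ?_⟩
  · intro p hp
    exact absurd (hE hp) (by simp)
  · intro p hp
    simp at hp

theorem one_le_shatCount (U : Finset (X × ℤ)) {fam : Finset (X → ℤ)} (h : fam.Nonempty) :
    1 ≤ shatCount U fam := by
  unfold shatCount
  apply Finset.card_pos.mpr
  exact ⟨∅, by simp [shat_empty h]⟩

/-- The key recursion: two subfamilies separated at the point `x` around the threshold `w`. -/
theorem count_add_le (U : Finset (X × ℤ)) {fam Hi Lo : Finset (X → ℤ)} (hHi : Hi ⊆ fam)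
    (hLo : Lo ⊆ fam) (x : X) (w : ℤ) (hU : (x, w) ∈ U)
    (h1 : ∀ f ∈ Hi, w + 1 ≤ f x) (h2 : ∀ f ∈ Lo, f x ≤ w - 1) :
    shatCount U Hi + shatCount U Lo ≤ shatCount U fam := by
  classical
  set SH := U.powerset.filter (Shat Hi) with hSH
  set SL := U.powerset.filter (Shat Lo) with hSL
  set SF := U.powerset.filter (Shat fam) with hSF
  have hnotH : ∀ G ∈ SH, (x, w) ∉ G := by
    intro G hG hmem
    have hG' := (Finset.mem_filter.mp hG).2
    obtain ⟨f, hf, -, h4⟩ := hG' ∅ (by simp)
    have := h4 (x, w) hmem (by simp)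
    have h5 := h1 f hf
    simp only at this
    omega
  have hnotL : ∀ G ∈ SL, (x, w) ∉ G := by
    intro G hG hmem
    have hG' := (Finset.mem_filter.mp hG).2
    obtain ⟨f, hf, h3, -⟩ := hG' {(x, w)} (by simpa using hmem)
    have := h3 (x, w) (by simp)
    have h5 := h2 f hf
    simp only at this
    omega
  have hunion : SH ∪ SL ⊆ SF := by
    intro G hG
    rcases Finset.mem_union.mp hG with hG | hG
    · have := Finset.mem_filter.mp hG
      exact Finset.mem_filter.mpr ⟨this.1, Shat.mono hHi this.2⟩
    · have := Finset.mem_filter.mp hG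
      exact Finset.mem_filter.mpr ⟨this.1, Shat.mono hLo this.2⟩
  have himage : (SH ∩ SL).image (insert (x, w)) ⊆ SF := by
    intro G' hG'
    obtain ⟨G, hG, rfl⟩ := Finset.mem_image.mp hG'
    obtain ⟨hGH, hGL⟩ := Finset.mem_inter.mp hG
    have hH := Finset.mem_filter.mp hGH
    have hL := Finset.mem_filter.mp hGL
    refine Finset.mem_filter.mpr ⟨?_, ?_⟩
    · rw [Finset.mem_powerset]
      exact Finset.insert_subset hU (Finset.mem_powerset.mp hH.1)
    · intro E hE
      by_cases hxw : (x, w) ∈ E
      · -- use `Hi`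
        have hsub : E.erase (x, w) ⊆ G := by
          intro p hp
          have hp' := Finset.mem_erase.mp hp
          have := hE hp'.2
          rcases Finset.mem_insert.mp this with h | h
          · exact absurd h hp'.1
          · exact h
        obtain ⟨f, hf, h3, h4⟩ := hH.2 _ hsub
        refine ⟨f, hHi hf, ?_, ?_⟩
        · intro p hp
          by_cases hpx : p = (x, w)
          · subst hpx
            exact h1 f hf
          · exact h3 p (Finset.mem_erase.mpr ⟨hpx, hp⟩)
        · intro p hp hpE
          have hpx : p ≠ (x, w) := fun h => hpE (h ▸ hxw)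
          have hpG : p ∈ G := by
            rcases Finset.mem_insert.mp hp with h | h
            · exact absurd h hpx
            · exact h
          apply h4 p hpG
          intro hh
          exact hpE (Finset.mem_erase.mp hh).2
      · -- use `Lo`
        have hsub : E ⊆ G := by
          intro p hp
          have := hE hp
          rcases Finset.mem_insert.mp this with h | h
          · exact absurd (h ▸ hp) hxw
          · exact h
        obtain ⟨f, hf, h3, h4⟩ := hL.2 E hsub
        refine ⟨f, hLo hf, h3, ?_⟩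
        intro p hp hpE
        rcases Finset.mem_insert.mp hp with h | h
        · subst h
          exact h2 f hf
        · exact h4 p h hpE
  have hdisj : Disjoint (SH ∪ SL) ((SH ∩ SL).image (insert (x, w))) := by
    rw [Finset.disjoint_left]
    intro G hG hG'
    obtain ⟨G0, _, rfl⟩ := Finset.mem_image.mp hG'
    rcases Finset.mem_union.mp hG with h | h
    · exact hnotH _ h (Finset.mem_insert_self _ _)
    · exact hnotL _ h (Finset.mem_insert_self _ _)
  have hinj : Set.InjOn (insert (x, w) : Finset (X × ℤ) → Finset (X × ℤ)) (SH ∩ SL : Finset _) := by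
    intro G1 h1' G2 h2' heq
    have h1'' := hnotH G1 (Finset.mem_inter.mp h1').1
    have h2'' := hnotH G2 (Finset.mem_inter.mp h2').1
    have := congrArg (fun S => Finset.erase S (x, w)) heq
    simpa [Finset.erase_insert h1'', Finset.erase_insert h2''] using this
  have hcard : (SH ∪ SL).card + (SH ∩ SL).card = SH.card + SL.card :=
    Finset.card_union_add_card_inter SH SL
  have hle : (SH ∪ SL).card + (SH ∩ SL).card ≤ SF.card := by
    rw [← Finset.card_image_of_injOn hinj, ← Finset.card_union_of_disjoint hdisj]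
    exact Finset.card_le_card (Finset.union_subset hunion himage)
  show SH.card + SL.card ≤ SF.card
  omega

/-- An elementary chain inequality for a finite sequence. -/
theorem chain_rpow (b : ℕ → ℝ) (γ : ℝ) (hγ : 0 ≤ γ) (Q : ℕ) (hb : ∀ i ≤ Q, 0 ≤ b i)
    (h : ∀ i < Q, b (i + 1) ^ γ ≤ b i) : ∀ i ≤ Q, b i ^ (γ ^ i) ≤ b 0 := by
  intro i
  induction i with
  | zero => intro _; simp
  | succ i ih =>
    intro hi
    have h1 := ih (by omega)
    have h2 := h i (by omega)
    have h3 : b (i + 1) ^ (γ ^ (i + 1)) = (b (i + 1) ^ γ) ^ (γ ^ i) := by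
      rw [← Real.rpow_mul (hb _ hi), pow_succ']
    rw [h3]
    refine le_trans ?_ h1
    exact Real.rpow_le_rpow (Real.rpow_nonneg (hb _ hi) _) h2 (pow_nonneg hγ _)

/-- The level lemma: a statistic `v` with a median `m` and a far tail above it admits a threshold
splitting the family well, measured by the concave exponent `γ`. -/
theorem level_lemma {α : Type*} (s : Finset α) (v : α → ℤ) (m : ℤ) (Q n : ℕ) (γ : ℝ)
    (hs : s.Nonempty) (hn : 1 ≤ n) (hγ0 : 0 < γ) (hγ1 : γ ≤ 1)
    (hγ : γ ^ Q * Real.log (4 * n) < Real.log 2)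
    (hmed : s.card ≤ 2 * (s.filter (fun f => v f ≤ m)).card)
    (hfar : s.card ≤ 4 * n * (s.filter (fun f => m + 1 + Q ≤ v f)).card) :
    ∃ w : ℤ, (s.filter (fun f => w + 1 ≤ v f)).Nonempty ∧ (s.filter (fun f => v f ≤ w - 1)).Nonempty ∧
      (s.card : ℝ) ^ γ ≤ ((s.filter (fun f => w + 1 ≤ v f)).card : ℝ) ^ γ +
        ((s.filter (fun f => v f ≤ w - 1)).card : ℝ) ^ γ := by
  classical
  have hcard : (0 : ℝ) < s.card := by exact_mod_cast hs.card_pos
  -- the tail sequence
  set b : ℕ → ℝ := fun i => ((s.filter (fun f => m + 1 + i ≤ v f)).card : ℝ) / s.card with hb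
  have hb0 : ∀ i, 0 ≤ b i := fun i => by positivity
  have hb_le : ∀ i, b i ≤ 1 := by
    intro i
    rw [hb]
    simp only
    rw [div_le_one hcard]
    exact_mod_cast Finset.card_filter_le _ _
  -- splitting cardinalities
  have hsplit : ∀ w : ℤ, ((s.filter (fun f => w ≤ v f)).card : ℝ) +
      ((s.filter (fun f => v f ≤ w - 1)).card : ℝ) = s.card := by
    intro w
    have h := Finset.card_filter_add_card_filter_not (s := s) (fun f => w ≤ v f)
    have h2 : s.filter (fun f => ¬ w ≤ v f) = s.filter (fun f => v f ≤ w - 1) := by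
      apply Finset.filter_congr
      intro f _
      constructor <;> intro h <;> omega
    rw [h2] at h
    exact_mod_cast h
  -- the first value is at most one half
  have hb_zero : b 0 ≤ 1 / 2 := by
    have h := hsplit (m + 1)
    have h3 : (s.filter (fun f => v f ≤ m + 1 - 1)) = s.filter (fun f => v f ≤ m) := by
      apply Finset.filter_congr
      intro f _
      constructor <;> intro h <;> omega
    rw [h3] at h
    have h4 : (s.card : ℝ) ≤ 2 * ((s.filter (fun f => v f ≤ m)).card : ℝ) := by exact_mod_cast hmed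
    simp only [hb]
    rw [div_le_iff₀ hcard]
    have h5 : (s.filter (fun f => m + 1 + ((0 : ℕ) : ℤ) ≤ v f)) = s.filter (fun f => m + 1 ≤ v f) := by
      apply Finset.filter_congr
      intro f _
      simp
    rw [h5]
    linarith
  -- the last value is at least 1/(4n)
  have hnpos : (0 : ℝ) < n := by exact_mod_cast hn
  have hb_Q : 1 / (4 * (n : ℝ)) ≤ b Q := by
    simp only [hb]
    rw [div_le_div_iff₀ (by positivity) hcard]
    have : (s.card : ℝ) ≤ 4 * n * ((s.filter (fun f => m + 1 + Q ≤ v f)).card : ℝ) := by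
      exact_mod_cast hfar
    linarith
  have hbQ_pos : 0 < b Q := lt_of_lt_of_le (by positivity) hb_Q
  -- the crucial index
  have hexists : ∃ i, i < Q ∧ b i ≤ b (i + 1) ^ γ := by
    by_contra hcon
    push Not at hcon
    have hchain := chain_rpow b γ hγ0.le Q (fun i _ => hb0 i) (fun i hi => (hcon i hi).le) Q le_rfl
    have h1 : (1 / (4 * (n : ℝ))) ^ (γ ^ Q) ≤ b Q ^ (γ ^ Q) :=
      Real.rpow_le_rpow (by positivity) hb_Q (pow_nonneg hγ0.le _)
    have h2 : (1 / 2 : ℝ) < (1 / (4 * (n : ℝ))) ^ (γ ^ Q) := by
      have h4n : (0 : ℝ) < 4 * n := by positivity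
      rw [Real.rpow_def_of_pos (by positivity)]
      have h5 : Real.log (1 / (4 * (n : ℝ))) = - Real.log (4 * n) := by
        rw [one_div, Real.log_inv]
      rw [h5]
      have h6 : (1 / 2 : ℝ) = Real.exp (- Real.log 2) := by
        rw [Real.exp_neg, Real.exp_log (by norm_num)]
        norm_num
      rw [h6, Real.exp_lt_exp]
      nlinarith [hγ]
    linarith
  obtain ⟨i, hiQ, hi⟩ := hexists
  refine ⟨m + 1 + i, ?_, ?_, ?_⟩
  · -- high side nonempty
    have hpos : 0 < (s.filter (fun f => m + 1 + Q ≤ v f)).card := by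
      have : 0 < b Q := hbQ_pos
      simp only [hb] at this
      by_contra h0
      have h00 : (s.filter (fun f => m + 1 + Q ≤ v f)).card = 0 := by omega
      rw [h00] at this
      simp at this
    obtain ⟨f, hf⟩ := Finset.card_pos.mp hpos
    have hf' := Finset.mem_filter.mp hf
    refine ⟨f, Finset.mem_filter.mpr ⟨hf'.1, ?_⟩⟩
    have : (i : ℤ) + 1 ≤ Q := by exact_mod_cast hiQ
    linarith [hf'.2]
  · -- low side nonempty
    have hpos : 0 < (s.filter (fun f => v f ≤ m)).card := by
      have := hs.card_pos
      omega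
    obtain ⟨f, hf⟩ := Finset.card_pos.mp hpos
    have hf' := Finset.mem_filter.mp hf
    refine ⟨f, Finset.mem_filter.mpr ⟨hf'.1, ?_⟩⟩
    have : (0 : ℤ) ≤ i := by positivity
    linarith [hf'.2]
  · -- the inequality
    set w : ℤ := m + 1 + i with hw
    set HH : ℝ := ((s.filter (fun f => w + 1 ≤ v f)).card : ℝ) with hHH
    set LL : ℝ := ((s.filter (fun f => v f ≤ w - 1)).card : ℝ) with hLL
    have hbi : b i = ((s.filter (fun f => w ≤ v f)).card : ℝ) / s.card := rfl
    have hbi1 : b (i + 1) = HH / s.card := by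
      simp only [hb, hHH, hw]
      congr 2
      refine Finset.card_bij (fun a _ => a) ?_ ?_ ?_
      · intro f hf
        have hf' := Finset.mem_filter.mp hf
        refine Finset.mem_filter.mpr ⟨hf'.1, ?_⟩
        have := hf'.2
        push_cast at this
        linarith
      · intro a _ b _ h
        exact h
      · intro f hf
        have hf' := Finset.mem_filter.mp hf
        refine ⟨f, Finset.mem_filter.mpr ⟨hf'.1, ?_⟩, rfl⟩
        have := hf'.2
        push_cast
        linarith
    have hsum := hsplit w
    -- fractions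
    set H : ℝ := HH / s.card with hH
    set Lf : ℝ := LL / s.card with hLf
    have hHnn : 0 ≤ H := by positivity
    have hLfnn : 0 ≤ Lf := by positivity
    have hLfle : Lf ≤ 1 := by
      rw [hLf, div_le_one hcard, hLL]
      exact_mod_cast Finset.card_filter_le _ _
    have hone : b i + Lf = 1 := by
      rw [hbi, hLf, ← add_div, hsum, div_self hcard.ne']
    have hLf_rpow : Lf ≤ Lf ^ γ := by
      rcases eq_or_lt_of_le hLfnn with h0 | h0
      · rw [← h0, Real.zero_rpow hγ0.ne']
      · calc Lf = Lf ^ (1 : ℝ) := (Real.rpow_one _).symm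
          _ ≤ Lf ^ γ := Real.rpow_le_rpow_of_exponent_ge h0 hLfle hγ1
    have hfrac : 1 ≤ H ^ γ + Lf ^ γ := by
      rw [hbi1] at hi
      linarith
    have hHH_eq : HH = H * s.card := by
      rw [hH]; field_simp
    have hLL_eq : LL = Lf * s.card := by
      rw [hLf]; field_simp
    rw [hHH_eq, hLL_eq, Real.mul_rpow hHnn hcard.le, Real.mul_rpow hLfnn hcard.le, ← add_mul]
    have hpow : 0 < (s.card : ℝ) ^ γ := Real.rpow_pos_of_pos hcard _
    nlinarith

/-- Existence of a median of an integer statistic on a nonempty finite set. -/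
theorem exists_median {α : Type*} (s : Finset α) (v : α → ℤ) (hs : s.Nonempty) :
    ∃ m : ℤ, s.card ≤ 2 * (s.filter (fun f => v f ≤ m)).card ∧
      s.card ≤ 2 * (s.filter (fun f => m ≤ v f)).card := by
  classical
  set S := s.image v with hS
  have hSne : S.Nonempty := hs.image v
  set P := S.filter (fun u => s.card ≤ 2 * (s.filter (fun f => v f ≤ u)).card) with hP
  have hPne : P.Nonempty := by
    refine ⟨S.max' hSne, Finset.mem_filter.mpr ⟨Finset.max'_mem _ _, ?_⟩⟩
    have : s.filter (fun f => v f ≤ S.max' hSne) = s := by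
      apply Finset.filter_true_of_mem
      intro f hf
      exact Finset.le_max' _ _ (Finset.mem_image_of_mem v hf)
    rw [this]
    omega
  set m := P.min' hPne with hm
  have hmP := Finset.mem_filter.mp (Finset.min'_mem P hPne)
  refine ⟨m, hmP.2, ?_⟩
  -- elements strictly below the median are few
  have hbelow : 2 * (s.filter (fun f => v f < m)).card ≤ s.card := by
    by_cases hne : (s.filter (fun f => v f < m)).Nonempty
    · obtain ⟨f0, hf0, hf0max⟩ := Finset.exists_max_image _ v hne
      have hf0' := Finset.mem_filter.mp hf0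
      have hnot : v f0 ∉ P := by
        intro hmem
        have := Finset.min'_le P _ hmem
        have h2 : v f0 < m := hf0'.2
        omega
      have hv0S : v f0 ∈ S := Finset.mem_image_of_mem v hf0'.1
      have hlt : ¬ s.card ≤ 2 * (s.filter (fun f => v f ≤ v f0)).card := by
        intro h
        exact hnot (Finset.mem_filter.mpr ⟨hv0S, h⟩)
      have hsub : s.filter (fun f => v f < m) ⊆ s.filter (fun f => v f ≤ v f0) := by
        intro f hf
        have hf' := Finset.mem_filter.mp hf
        exact Finset.mem_filter.mpr ⟨hf'.1, hf0max f hf⟩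
      have := Finset.card_le_card hsub
      omega
    · rw [Finset.not_nonempty_iff_eq_empty.mp hne]
      simp
  have hsplit := Finset.card_filter_add_card_filter_not (s := s) (fun f => m ≤ v f)
  have h2 : s.filter (fun f => ¬ m ≤ v f) = s.filter (fun f => v f < m) := by
    apply Finset.filter_congr
    intro f _
    exact not_le
  rw [h2] at hsplit
  omega

/-- The splitting step: a pairwise separated family of size at least two on `n` points
has a point and a threshold giving a good split. -/
theorem exists_split (fam : Finset (X → ℤ)) (Q : ℕ) (γ : ℝ) (hn : 1 ≤ Fintype.card X)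
    (hγ0 : 0 < γ) (hγ1 : γ ≤ 1)
    (hγ : γ ^ Q * Real.log (4 * (Fintype.card X : ℕ)) < Real.log 2)
    (h2 : 2 ≤ fam.card)
    (hsep : ∀ f ∈ fam, ∀ g ∈ fam, f ≠ g → ∃ x, (2 * (Q : ℤ) + 1) ≤ |f x - g x|) :
    ∃ (x : X) (w : ℤ), (fam.filter (fun f => w + 1 ≤ f x)).Nonempty ∧
      (fam.filter (fun f => f x ≤ w - 1)).Nonempty ∧
      (fam.card : ℝ) ^ γ ≤ ((fam.filter (fun f => w + 1 ≤ f x)).card : ℝ) ^ γ +
        ((fam.filter (fun f => f x ≤ w - 1)).card : ℝ) ^ γ := by
  classical
  have hne : fam.Nonempty := Finset.card_pos.mp (by omega)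
  -- medians
  choose med hmed1 hmed2 using fun x : X => exists_median fam (fun f => f x) hne
  set Up : X → Finset (X → ℤ) := fun x => fam.filter (fun f => med x + 1 + Q ≤ f x) with hUp
  set Dn : X → Finset (X → ℤ) := fun x => fam.filter (fun f => f x ≤ med x - 1 - Q) with hDn
  -- all but at most one function is far somewhere
  set Far : Finset (X → ℤ) := Finset.univ.biUnion (fun x => Up x ∪ Dn x) with hFar
  have hnonfar : (fam \ Far).card ≤ 1 := by
    rw [Finset.card_le_one]
    intro f hf g hg
    by_contra hfg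
    have hf' := Finset.mem_sdiff.mp hf
    have hg' := Finset.mem_sdiff.mp hg
    obtain ⟨x, hx⟩ := hsep f hf'.1 g hg'.1 hfg
    have hfnot : f ∉ Up x ∪ Dn x := fun h => hf'.2 (Finset.mem_biUnion.mpr ⟨x, Finset.mem_univ _, h⟩)
    have hgnot : g ∉ Up x ∪ Dn x := fun h => hg'.2 (Finset.mem_biUnion.mpr ⟨x, Finset.mem_univ _, h⟩)
    have hf1 : ¬ (med x + 1 + Q ≤ f x) := fun h =>
      hfnot (Finset.mem_union_left _ (Finset.mem_filter.mpr ⟨hf'.1, h⟩))
    have hf2 : ¬ (f x ≤ med x - 1 - Q) := fun h =>
      hfnot (Finset.mem_union_right _ (Finset.mem_filter.mpr ⟨hf'.1, h⟩))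
    have hg1 : ¬ (med x + 1 + Q ≤ g x) := fun h =>
      hgnot (Finset.mem_union_left _ (Finset.mem_filter.mpr ⟨hg'.1, h⟩))
    have hg2 : ¬ (g x ≤ med x - 1 - Q) := fun h =>
      hgnot (Finset.mem_union_right _ (Finset.mem_filter.mpr ⟨hg'.1, h⟩))
    have : |f x - g x| ≤ 2 * (Q : ℤ) := by
      rw [abs_le]
      constructor <;> omega
    omega
  have hFarcard : fam.card ≤ Far.card + 1 := by
    have h3 := Finset.card_le_card_sdiff_add_card (s := fam) (t := Far)
    omega
  have hFarle : Far.card ≤ ∑ x, ((Up x).card + (Dn x).card) := by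
    refine le_trans Finset.card_biUnion_le ?_
    apply Finset.sum_le_sum
    intro x _
    exact Finset.card_union_le _ _
  -- pigeonhole
  set n := Fintype.card X with hn'
  have hexists : ∃ x, fam.card ≤ 4 * n * (Up x).card ∨ fam.card ≤ 4 * n * (Dn x).card := by
    by_contra hcon
    push Not at hcon
    have hlt : ∀ x, 4 * n * (Up x).card < fam.card ∧ 4 * n * (Dn x).card < fam.card := hcon
    have h4 : 4 * n * Far.card ≤ ∑ x : X, (4 * n * (Up x).card + 4 * n * (Dn x).card) := by
      calc 4 * n * Far.card ≤ 4 * n * ∑ x, ((Up x).card + (Dn x).card) :=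
            Nat.mul_le_mul_left _ hFarle
        _ = ∑ x : X, (4 * n * (Up x).card + 4 * n * (Dn x).card) := by
            rw [Finset.mul_sum]
            apply Finset.sum_congr rfl
            intro x _
            ring
    have h5 : ∑ x : X, (4 * n * (Up x).card + 4 * n * (Dn x).card)
        ≤ ∑ _x : X, (2 * fam.card - 2) := by
      apply Finset.sum_le_sum
      intro x _
      have h6 := (hlt x).1
      have h7 := (hlt x).2
      omega
    rw [Finset.sum_const, Finset.card_univ, smul_eq_mul] at h5
    -- `4 n Far ≤ n (2 |fam| - 2)` and `|fam| - 1 ≤ Far`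
    have h8 : 4 * n * Far.card ≤ n * (2 * fam.card - 2) := le_trans h4 h5
    have h9 : 4 * Far.card ≤ 2 * fam.card - 2 := by
      have hnpos : 0 < n := hn
      have : n * (4 * Far.card) ≤ n * (2 * fam.card - 2) := by
        calc n * (4 * Far.card) = 4 * n * Far.card := by ring
          _ ≤ _ := h8
      exact Nat.le_of_mul_le_mul_left this hnpos
    omega
  obtain ⟨x, hx | hx⟩ := hexists
  · -- upper tail
    obtain ⟨w, h1, h3, h4⟩ := level_lemma fam (fun f => f x) (med x) Q n γ hne hn hγ0 hγ1 hγ
      (hmed1 x) hx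
    exact ⟨x, w, h1, h3, h4⟩
  · -- lower tail: apply the level lemma to the negated statistic
    have hfilter1 : ∀ u : ℤ, fam.filter (fun f => - f x ≤ - u) = fam.filter (fun f => u ≤ f x) := by
      intro u
      apply Finset.filter_congr
      intro f _
      constructor <;> intro h <;> omega
    have hmed' : fam.card ≤ 2 * (fam.filter (fun f => - f x ≤ - med x)).card := by
      rw [hfilter1]
      exact hmed2 x
    have hfar' : fam.card ≤ 4 * n * (fam.filter (fun f => - med x + 1 + Q ≤ - f x)).card := by
      have : fam.filter (fun f => - med x + 1 + Q ≤ - f x) = Dn x := by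
        apply Finset.filter_congr
        intro f _
        constructor <;> intro h <;> omega
      rw [this]
      exact hx
    obtain ⟨w, h1, h3, h4⟩ := level_lemma fam (fun f => - f x) (- med x) Q n γ hne hn hγ0 hγ1 hγ
      hmed' hfar'
    have e1 : fam.filter (fun f => w + 1 ≤ - f x) = fam.filter (fun f => f x ≤ (-w) - 1) := by
      apply Finset.filter_congr
      intro f _
      constructor <;> intro h <;> omega
    have e2 : fam.filter (fun f => - f x ≤ w - 1) = fam.filter (fun f => (-w) + 1 ≤ f x) := by
      apply Finset.filter_congr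
      intro f _
      constructor <;> intro h <;> omega
    simp only [e1, e2] at h1 h3 h4
    refine ⟨x, -w, h3, h1, ?_⟩
    linarith

/-- Main combinatorial theorem: `|fam| ^ γ ≤ number of shattered sets`. -/
theorem card_rpow_le_shatCount (Q : ℕ) (γ : ℝ) (hn : 1 ≤ Fintype.card X)
    (hγ0 : 0 < γ) (hγ1 : γ ≤ 1)
    (hγ : γ ^ Q * Real.log (4 * (Fintype.card X : ℕ)) < Real.log 2) (lo hi : ℤ)
    (U : Finset (X × ℤ)) (hU : ∀ x w, lo ≤ w → w ≤ hi → (x, w) ∈ U)
    (fam : Finset (X → ℤ)) (hne : fam.Nonempty) (hrange : ∀ f ∈ fam, ∀ x, lo ≤ f x ∧ f x ≤ hi)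
    (hsep : ∀ f ∈ fam, ∀ g ∈ fam, f ≠ g → ∃ x, (2 * (Q : ℤ) + 1) ≤ |f x - g x|) :
    (fam.card : ℝ) ^ γ ≤ shatCount U fam := by
  classical
  induction fam using Finset.strongInduction with
  | H fam ih =>
    by_cases h1 : fam.card ≤ 1
    · have hc : fam.card = 1 := le_antisymm h1 hne.card_pos
      rw [hc]
      simp only [Nat.cast_one, Real.one_rpow]
      exact_mod_cast one_le_shatCount U hne
    · have h2 : 2 ≤ fam.card := by omega
      obtain ⟨x, w, hH, hL, hineq⟩ := exists_split fam Q γ hn hγ0 hγ1 hγ h2 hsep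
      set Hi := fam.filter (fun f => w + 1 ≤ f x) with hHi
      set Lo := fam.filter (fun f => f x ≤ w - 1) with hLo
      have hHsub : Hi ⊆ fam := Finset.filter_subset _ _
      have hLsub : Lo ⊆ fam := Finset.filter_subset _ _
      obtain ⟨fH, hfH⟩ := hH
      obtain ⟨fL, hfL⟩ := hL
      have hfH' := Finset.mem_filter.mp hfH
      have hfL' := Finset.mem_filter.mp hfL
      have hHss : Hi ⊂ fam := by
        refine Finset.ssubset_iff_subset_ne.mpr ⟨hHsub, ?_⟩
        intro h
        have : fL ∈ Hi := h ▸ hfL'.1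
        have h3 := (Finset.mem_filter.mp this).2
        have h4 := hfL'.2
        omega
      have hLss : Lo ⊂ fam := by
        refine Finset.ssubset_iff_subset_ne.mpr ⟨hLsub, ?_⟩
        intro h
        have : fH ∈ Lo := h ▸ hfH'.1
        have h3 := (Finset.mem_filter.mp this).2
        have h4 := hfH'.2
        omega
      have ihH := ih Hi hHss ⟨fH, hfH⟩ (fun f hf => hrange f (hHsub hf))
        (fun f hf g hg => hsep f (hHsub hf) g (hHsub hg))
      have ihL := ih Lo hLss ⟨fL, hfL⟩ (fun f hf => hrange f (hLsub hf))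
        (fun f hf g hg => hsep f (hLsub hf) g (hLsub hg))
      have hwU : (x, w) ∈ U := by
        apply hU
        · have := (hrange fL hfL'.1 x).1
          have h4 := hfL'.2
          omega
        · have := (hrange fH hfH'.1 x).2
          have h4 := hfH'.2
          omega
      have hadd := count_add_le U hHsub hLsub x w hwU (fun f hf => (Finset.mem_filter.mp hf).2)
        (fun f hf => (Finset.mem_filter.mp hf).2)
      have hadd' : (shatCount U Hi : ℝ) + shatCount U Lo ≤ shatCount U fam := by
        exact_mod_cast hadd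
      linarith

/-- The number of subsets of size at most `d` of a finite set of size `P` is at most `(P+1)^d`. -/
theorem card_small_subsets_le {β : Type*} (U : Finset β) (d : ℕ) :
    (U.powerset.filter (fun G => G.card ≤ d)).card ≤ (U.card + 1) ^ d := by
  classical
  have key : ∀ d : ℕ, ∑ i ∈ Finset.range (d + 1), U.card.choose i ≤ (U.card + 1) ^ d := by
    intro d
    induction d with
    | zero => simp
    | succ d ih =>
      rw [Finset.sum_range_succ]
      have h1 : U.card.choose (d + 1) ≤ U.card ^ (d + 1) := Nat.choose_le_pow _ _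
      have h2 : U.card ^ (d + 1) ≤ (U.card + 1) ^ d * U.card := by
        rw [pow_succ]
        exact Nat.mul_le_mul_right _ (Nat.pow_le_pow_left (by omega) _)
      calc _ ≤ (U.card + 1) ^ d + (U.card + 1) ^ d * U.card := by omega
        _ = (U.card + 1) ^ (d + 1) := by ring
  have hsub : U.powerset.filter (fun G => G.card ≤ d) ⊆
      (Finset.range (d + 1)).biUnion (fun i => U.powersetCard i) := by
    intro G hG
    have hG' := Finset.mem_filter.mp hG
    refine Finset.mem_biUnion.mpr ⟨G.card, Finset.mem_range.mpr (by omega), ?_⟩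
    exact Finset.mem_powersetCard.mpr ⟨Finset.mem_powerset.mp hG'.1, rfl⟩
  refine le_trans (Finset.card_le_card hsub) (le_trans Finset.card_biUnion_le ?_)
  simp only [Finset.card_powersetCard]
  exact key d

end Vale.Agent.Lib.P126
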