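import Mathlib
import Vale.Agent.Lib.P126.Defs

/-!
Volume argument: a shattered family of points of `K` forces many translates of `L` in a cover of `K`.
-/

open MeasureTheory
open scoped Pointwise

namespace Vale.Agent.Lib.P126

variable {E : Type*} [NormedAddCommGroup E] [InnerProductSpace ℝ E]

/-- A sub-convex combination of points of a convex set containing the origin lies in the set. -/
theorem sum_smul_mem_of_abs_sum_le_one {ι : Type*} [Fintype ι] {K : Set E} (hKc : Convex ℝ K)
    (hKs : ∀ x ∈ K, -x ∈ K) (h0 : (0 : E) ∈ K) (x : ι → E) (hx : ∀ i, x i ∈ K) (a : ι → ℝ)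
    (ha : ∑ i, |a i| ≤ 1) : ∑ i, a i • x i ∈ K := by
  classical
  set W := ∑ i, |a i| with hW
  have hWnn : 0 ≤ W := Finset.sum_nonneg (fun i _ => abs_nonneg _)
  rcases eq_or_lt_of_le hWnn with hW0 | hWpos
  · have hall : ∀ i, a i = 0 := by
      intro i
      have := (Finset.sum_eq_zero_iff_of_nonneg (fun i _ => abs_nonneg (a i))).mp hW0.symm i
        (Finset.mem_univ _)
      exact abs_eq_zero.mp this
    simpa [hall] using h0
  · set x' : ι → E := fun i => if 0 ≤ a i then x i else - x i with hx'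
    have hx'K : ∀ i, x' i ∈ K := by
      intro i
      simp only [hx']
      split_ifs
      · exact hx i
      · exact hKs _ (hx i)
    have hcomb : ∑ i, (|a i| / W) • x' i ∈ K := by
      apply hKc.sum_mem
      · intro i _
        positivity
      · rw [← Finset.sum_div, ← hW, div_self hWpos.ne']
      · intro i _
        exact hx'K i
    have hscale := hKc.smul_mem_of_zero_mem h0 hcomb ⟨hWnn, ha⟩
    have heq : W • ∑ i, (|a i| / W) • x' i = ∑ i, a i • x i := by
      rw [Finset.smul_sum]
      apply Finset.sum_congr rfl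
      intro i _
      rw [smul_smul]
      have h2 : W * (|a i| / W) = |a i| := by field_simp
      rw [h2]
      simp only [hx']
      split_ifs with h
      · rw [abs_of_nonneg h]
      · rw [abs_of_neg (not_le.mp h)]
        simp
    rwa [heq] at hscale

/-- The volume argument. -/
theorem pow_le_card_of_shatter {ι : Type*} [Fintype ι] [DecidableEq ι] {K L : Set E}
    (hKc : Convex ℝ K) (hKs : ∀ x ∈ K, -x ∈ K) (h0 : (0 : E) ∈ K)
    (t : Finset E) (hcov : K ⊆ ⋃ c ∈ t, (fun b => c + b) '' L)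
    (x : ι → E) (hx : ∀ i, x i ∈ K) (δ : ℝ) (hδ : 0 < δ)
    (hsh : ∀ S : Finset ι, ∃ z : E, (∀ l ∈ L, ∀ l' ∈ L, inner ℝ (l - l') z ≤ 2) ∧
      (∀ i ∈ S, δ ≤ inner ℝ (x i) z) ∧ (∀ i, i ∉ S → inner ℝ (x i) z ≤ -δ)) :
    (δ / 2) ^ (Fintype.card ι) ≤ (t.card : ℝ) := by
  classical
  set B : Set (ι → ℝ) := {a | ∑ i, |a i| ≤ 1} with hB
  set u : (ι → ℝ) → E := fun a => ∑ i, a i • x i with hu
  set r : ℝ := 2 / δ with hr
  have hrpos : 0 < r := by positivity
  -- the diameter bound
  have hdiam : ∀ c ∈ t, ∀ a a' : ι → ℝ, u a ∈ (fun b => c + b) '' L → u a' ∈ (fun b => c + b) '' L →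
      ∑ i, |a i - a' i| ≤ r := by
    intro c _ a a' ha ha'
    obtain ⟨l, hl, hlc⟩ := ha
    obtain ⟨l', hl', hlc'⟩ := ha'
    obtain ⟨z, hz, hz1, hz2⟩ := hsh (Finset.univ.filter (fun i => 0 ≤ a i - a' i))
    have hdiff : u a - u a' = l - l' := by
      simp only at hlc hlc'
      rw [← hlc, ← hlc']
      abel
    have h1 : inner ℝ (u a - u a') z = ∑ i, (a i - a' i) * inner ℝ (x i) z := by
      simp only [hu]
      rw [← Finset.sum_sub_distrib, sum_inner]
      apply Finset.sum_congr rfl
      intro i _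
      rw [← sub_smul, real_inner_smul_left]
    have h2 : ∀ i, δ * |a i - a' i| ≤ (a i - a' i) * inner ℝ (x i) z := by
      intro i
      by_cases hi : 0 ≤ a i - a' i
      · have := hz1 i (Finset.mem_filter.mpr ⟨Finset.mem_univ _, hi⟩)
        rw [abs_of_nonneg hi]
        nlinarith
      · have := hz2 i (fun h => hi (Finset.mem_filter.mp h).2)
        rw [abs_of_neg (not_le.mp hi)]
        nlinarith [not_le.mp hi]
    have h3 : δ * ∑ i, |a i - a' i| ≤ 2 := by
      calc δ * ∑ i, |a i - a' i| = ∑ i, δ * |a i - a' i| := Finset.mul_sum _ _ _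
        _ ≤ ∑ i, (a i - a' i) * inner ℝ (x i) z := Finset.sum_le_sum (fun i _ => h2 i)
        _ = inner ℝ (u a - u a') z := h1.symm
        _ = inner ℝ (l - l') z := by rw [hdiff]
        _ ≤ 2 := hz l hl l' hl'
    rw [hr, le_div_iff₀ hδ]
    linarith
  -- measure
  let μ : Measure (ι → ℝ) := volume
  have hBtop : μ B ≠ ⊤ := by
    have hsub : B ⊆ Metric.closedBall (0 : ι → ℝ) 1 := by
      intro a ha
      rw [mem_closedBall_zero_iff, pi_norm_le_iff_of_nonneg zero_le_one]
      intro i
      rw [Real.norm_eq_abs]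
      refine le_trans ?_ ha
      exact Finset.single_le_sum (f := fun i => |a i|) (fun i _ => abs_nonneg _) (Finset.mem_univ i)
    exact ne_top_of_le_ne_top (measure_closedBall_lt_top).ne (measure_mono hsub)
  have hBpos : μ B ≠ 0 := by
    have hopen : IsOpen {a : ι → ℝ | ∑ i, |a i| < 1} := by
      apply isOpen_lt
      · fun_prop
      · fun_prop
    have hne : ({a : ι → ℝ | ∑ i, |a i| < 1}).Nonempty := ⟨0, by simp⟩
    have hpos := hopen.measure_pos μ hne
    have hsub : {a : ι → ℝ | ∑ i, |a i| < 1} ⊆ B := by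
      intro a ha
      have ha' : ∑ i, |a i| < 1 := ha
      show ∑ i, |a i| ≤ 1
      exact ha'.le
    exact (lt_of_lt_of_le hpos (measure_mono hsub)).ne'
  -- each piece has small measure
  set P : E → Set (ι → ℝ) := fun c => {a | a ∈ B ∧ u a ∈ (fun b => c + b) '' L} with hP
  have hcover : B ⊆ ⋃ c ∈ t, P c := by
    intro a ha
    have huK : u a ∈ K := sum_smul_mem_of_abs_sum_le_one hKc hKs h0 x hx a ha
    have := hcov huK
    simp only [Set.mem_iUnion] at this ⊢
    obtain ⟨c, hc, hcu⟩ := this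
    exact ⟨c, hc, ha, hcu⟩
  have hpiece : ∀ c ∈ t, μ (P c) ≤ ENNReal.ofReal (r ^ Fintype.card ι) * μ B := by
    intro c hc
    by_cases hne : (P c).Nonempty
    · obtain ⟨a0, ha0⟩ := hne
      have hsub : P c ⊆ (fun h => (-a0) + h) ⁻¹' (r • B) := by
        intro a ha
        simp only [Set.mem_preimage]
        rw [Set.mem_smul_set]
        refine ⟨r⁻¹ • (-a0 + a), ?_, ?_⟩
        · have hd := hdiam c hc a a0 ha.2 ha0.2
          show ∑ i, |(r⁻¹ • (-a0 + a)) i| ≤ 1
          have heq : ∀ i, |(r⁻¹ • (-a0 + a)) i| = r⁻¹ * |a i - a0 i| := by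
            intro i
            simp only [Pi.smul_apply, Pi.add_apply, Pi.neg_apply, smul_eq_mul]
            rw [abs_mul, abs_of_pos (inv_pos.mpr hrpos)]
            congr 2
            ring
          simp only [heq]
          rw [← Finset.mul_sum, inv_mul_le_iff₀ hrpos, mul_one]
          exact hd
        · rw [smul_smul, mul_inv_cancel₀ hrpos.ne', one_smul]
      calc μ (P c) ≤ μ ((fun h => (-a0) + h) ⁻¹' (r • B)) := measure_mono hsub
        _ = μ (r • B) := measure_preimage_add μ (-a0) (r • B)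
        _ = ENNReal.ofReal (r ^ Fintype.card ι) * μ B := by
            rw [Measure.addHaar_smul, Module.finrank_fintype_fun_eq_card,
              abs_of_pos (by positivity)]
    · rw [Set.not_nonempty_iff_eq_empty.mp hne]
      simp
  have htotal : μ B ≤ (t.card : ENNReal) * (ENNReal.ofReal (r ^ Fintype.card ι) * μ B) := by
    calc μ B ≤ μ (⋃ c ∈ t, P c) := measure_mono hcover
      _ ≤ ∑ c ∈ t, μ (P c) := measure_biUnion_finset_le _ _
      _ ≤ ∑ _c ∈ t, (ENNReal.ofReal (r ^ Fintype.card ι) * μ B) := Finset.sum_le_sum hpiece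
      _ = (t.card : ENNReal) * (ENNReal.ofReal (r ^ Fintype.card ι) * μ B) := by
          rw [Finset.sum_const, nsmul_eq_mul]
  have hone : (1 : ENNReal) ≤ (t.card : ENNReal) * ENNReal.ofReal (r ^ Fintype.card ι) := by
    rw [← mul_assoc] at htotal
    have h1 : 1 * μ B ≤ ((t.card : ENNReal) * ENNReal.ofReal (r ^ Fintype.card ι)) * μ B := by
      rwa [one_mul]
    exact (ENNReal.mul_le_mul_iff_left hBpos hBtop).mp h1
  have hreal : (1 : ℝ) ≤ (t.card : ℝ) * r ^ Fintype.card ι := by
    have h2 : (t.card : ENNReal) * ENNReal.ofReal (r ^ Fintype.card ι)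
        = ENNReal.ofReal ((t.card : ℝ) * r ^ Fintype.card ι) := by
      rw [ENNReal.ofReal_mul (by positivity), ENNReal.ofReal_natCast]
    rw [h2] at hone
    exact ENNReal.one_le_ofReal.mp hone
  have hr' : r = (δ / 2)⁻¹ := by
    rw [hr]
    field_simp
  rw [hr', inv_pow] at hreal
  have hpospow : 0 < (δ / 2) ^ Fintype.card ι := by positivity
  calc (δ / 2) ^ Fintype.card ι = 1 * (δ / 2) ^ Fintype.card ι := by ring
    _ ≤ ((t.card : ℝ) * ((δ / 2) ^ Fintype.card ι)⁻¹) * (δ / 2) ^ Fintype.card ι :=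
        mul_le_mul_of_nonneg_right hreal hpospow.le
    _ = t.card := by field_simp

end Vale.Agent.Lib.P126
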