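import Mathlib
import Vale.Agent.Lib.P126.Defs
import Vale.Agent.Lib.P126.Shatter
import Vale.Agent.Lib.P126.Volume

/-!
The geometric pipeline: from a covering of `K` by translates of `L` to a bound for the
separated families in `L°`, measured on the (recentred) centers of the covering.
-/

open scoped Pointwise

namespace Vale.Agent.Lib.P126

variable {E : Type*} [NormedAddCommGroup E] [InnerProductSpace ℝ E]

theorem abs_inner_le_one_of_mem_polar {L : Set E} (hLs : ∀ x ∈ L, -x ∈ L) {l y : E} (hl : l ∈ L)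
    (hy : y ∈ polarBody L) : |inner ℝ l y| ≤ 1 := by
  rw [abs_le]
  constructor
  · have := hy (-l) (hLs l hl)
    rw [inner_neg_left] at this
    linarith
  · exact hy l hl

/-- Every point of `K` has small pairing with `L°`. -/
theorem abs_inner_le_card {K L : Set E} (hKc : Convex ℝ K) (hKs : ∀ x ∈ K, -x ∈ K)
    (hLs : ∀ x ∈ L, -x ∈ L) (t : Finset E) (hcov : K ⊆ ⋃ c ∈ t, (fun b => c + b) '' L)
    {x y : E} (hx : x ∈ K) (hy : y ∈ polarBody L) : |inner ℝ x y| ≤ t.card := by
  classical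
  set M := t.card with hM
  have hMpos : 0 < M := by
    have := hcov hx
    simp only [Set.mem_iUnion] at this
    obtain ⟨c, hc, _⟩ := this
    exact Finset.card_pos.mpr ⟨c, hc⟩
  have hMR : (0 : ℝ) < M := by exact_mod_cast hMpos
  -- the points
  set τ : ℕ → ℝ := fun i => -1 + 2 * i / M with hτ
  have hpt : ∀ i ∈ Finset.range (M + 1), τ i • x ∈ K := by
    intro i hi
    have hi' : (i : ℝ) ≤ M := by
      have := Finset.mem_range.mp hi
      exact_mod_cast Nat.lt_succ_iff.mp this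
    have hcomb := hKc (hKs x hx) hx (a := 1 - (i : ℝ) / M) (b := (i : ℝ) / M)
      (by
        have : (i : ℝ) / M ≤ 1 := (div_le_one hMR).mpr hi'
        linarith)
      (by positivity) (by ring)
    have heq : (1 - (i : ℝ) / M) • (-x) + ((i : ℝ) / M) • x = τ i • x := by
      simp only [hτ, smul_neg]
      rw [← sub_eq_neg_add, ← sub_smul]
      congr 1
      field_simp
      ring
    rwa [heq] at hcomb
  have hchoice : ∀ i ∈ Finset.range (M + 1), ∃ c ∈ t, τ i • x ∈ (fun b => c + b) '' L := by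
    intro i hi
    have := hcov (hpt i hi)
    simp only [Set.mem_iUnion] at this
    obtain ⟨c, hc, h⟩ := this
    exact ⟨c, hc, h⟩
  choose! c hc hcmem using hchoice
  have hcard : t.card < (Finset.range (M + 1)).card := by
    simp [hM]
  obtain ⟨i, hi, j, hj, hij, hcij⟩ :=
    Finset.exists_ne_map_eq_of_card_lt_of_maps_to hcard (f := c) (fun i hi => hc i hi)
  obtain ⟨l, hl, hlc⟩ := hcmem i hi
  obtain ⟨l', hl', hlc'⟩ := hcmem j hj
  simp only at hlc hlc'
  rw [hcij] at hlc
  have hdiff : (τ i - τ j) • x = l - l' := by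
    rw [sub_smul, ← hlc, ← hlc']
    abel
  have hin : (τ i - τ j) * inner ℝ x y = inner ℝ l y - inner ℝ l' y := by
    rw [← inner_sub_left, ← hdiff, real_inner_smul_left]
  have h1 := abs_inner_le_one_of_mem_polar hLs hl hy
  have h2 := abs_inner_le_one_of_mem_polar hLs hl' hy
  have h3 : |τ i - τ j| * |inner ℝ x y| ≤ 2 := by
    rw [← abs_mul, hin]
    calc |inner ℝ l y - inner ℝ l' y| ≤ |inner ℝ l y| + |inner ℝ l' y| := abs_sub _ _
      _ ≤ 2 := by linarith
  have hτdiff : |τ i - τ j| = 2 * |(i : ℝ) - j| / M := by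
    simp only [hτ]
    have : -1 + 2 * (i : ℝ) / M - (-1 + 2 * (j : ℝ) / M) = 2 * ((i : ℝ) - j) / M := by ring
    rw [this, abs_div, abs_mul, abs_of_pos hMR]
    norm_num
  have hij' : (1 : ℝ) ≤ |(i : ℝ) - j| := by
    have : (i : ℤ) ≠ j := by exact_mod_cast hij
    have h4 : (1 : ℤ) ≤ |(i : ℤ) - j| := Int.one_le_abs (sub_ne_zero.mpr this)
    exact_mod_cast h4
  rw [hτdiff] at h3
  have h5 : 2 * 1 / (M : ℝ) * |inner ℝ x y| ≤ 2 * |(i : ℝ) - j| / M * |inner ℝ x y| := by
    apply mul_le_mul_of_nonneg_right _ (abs_nonneg _)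
    apply div_le_div_of_nonneg_right _ hMR.le
    linarith
  have h6 : 2 * 1 / (M : ℝ) * |inner ℝ x y| ≤ 2 := le_trans h5 h3
  rw [div_mul_eq_mul_div, div_le_iff₀ hMR] at h6
  linarith

/-- Discretisation at mesh eight. -/
noncomputable def discr (D : Finset E) (y : E) : D → ℤ := fun p => ⌊inner ℝ (p : E) y / 8⌋

theorem floor_sep {u v : ℝ} {Q : ℕ} (h : 8 * (2 * (Q : ℝ) + 1) ≤ |u - v|) :
    (2 * (Q : ℤ) + 1) ≤ |⌊u / 8⌋ - ⌊v / 8⌋| := by
  have key : ∀ a b : ℝ, 8 * (2 * (Q : ℝ) + 1) ≤ a - b → (2 * (Q : ℤ) + 1) ≤ ⌊a / 8⌋ - ⌊b / 8⌋ := by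
    intro a b hab
    have h1 : a / 8 < ⌊a / 8⌋ + 1 := Int.lt_floor_add_one _
    have h2 : (⌊b / 8⌋ : ℝ) ≤ b / 8 := Int.floor_le _
    have h3 : ((2 * (Q : ℤ) : ℤ) : ℝ) < ((⌊a / 8⌋ - ⌊b / 8⌋ : ℤ) : ℝ) := by
      push_cast
      linarith
    have h4 : (2 * (Q : ℤ) : ℤ) < ⌊a / 8⌋ - ⌊b / 8⌋ := by exact_mod_cast h3
    omega
  rcases le_total 0 (u - v) with h0 | h0
  · rw [abs_of_nonneg h0] at h
    exact le_trans (key u v h) (le_abs_self _)
  · rw [abs_of_nonpos h0] at h
    have := key v u (by linarith)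
    calc _ ≤ ⌊v / 8⌋ - ⌊u / 8⌋ := this
      _ = -(⌊u / 8⌋ - ⌊v / 8⌋) := by ring
      _ ≤ _ := neg_le_abs _

/-- A separated family: elements of `L°` pairwise far on the points of `D`. -/
def IsSepFamily (L : Set E) (D : Finset E) (Q : ℕ) (A : Finset E) : Prop :=
  (∀ y ∈ A, y ∈ polarBody L) ∧
    ∀ y ∈ A, ∀ y' ∈ A, y ≠ y' → ∃ p ∈ D, 8 * (2 * (Q : ℝ) + 1) ≤ |inner ℝ p y - inner ℝ p y'|

open scoped Classical in
/-- The heart of the argument: a separated family is small. -/
theorem sep_family_bound {K L : Set E} (hKc : Convex ℝ K) (hKs : ∀ x ∈ K, -x ∈ K)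
    (h0 : (0 : E) ∈ K) (hLs : ∀ x ∈ L, -x ∈ L)
    (t : Finset E) (hcov : K ⊆ ⋃ c ∈ t, (fun b => c + b) '' L)
    (D : Finset E) (hD : ∀ p ∈ D, p ∈ K) (hDne : D.Nonempty) (Q : ℕ) (γ : ℝ)
    (hγ0 : 0 < γ) (hγ1 : γ ≤ 1) (hγ : γ ^ Q * Real.log (4 * (D.card : ℕ)) < Real.log 2)
    (A : Finset E) (hA : A.Nonempty) (hsep : IsSepFamily L D Q A) :
    (A.card : ℝ) ^ γ ≤ (((D.card * (2 * t.card + 1) + 1 : ℕ) : ℝ)) ^ (Nat.log 2 t.card) := by
  classical
  set M := t.card with hM
  -- the family of discretised functions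
  set fam : Finset (D → ℤ) := A.image (discr D) with hfam
  have hcardX : Fintype.card D = D.card := Fintype.card_coe D
  have hfamne : fam.Nonempty := hA.image _
  have hsep' : ∀ f ∈ fam, ∀ g ∈ fam, f ≠ g → ∃ x, (2 * (Q : ℤ) + 1) ≤ |f x - g x| := by
    intro f hf g hg hfg
    obtain ⟨y, hy, rfl⟩ := Finset.mem_image.mp hf
    obtain ⟨y', hy', rfl⟩ := Finset.mem_image.mp hg
    have hne : y ≠ y' := fun h => hfg (by rw [h])
    obtain ⟨p, hp, hpsep⟩ := hsep.2 y hy y' hy' hne
    exact ⟨⟨p, hp⟩, floor_sep hpsep⟩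
  have hinj : Set.InjOn (discr D) (A : Set E) := by
    intro y hy y' hy' heq
    by_contra hne
    obtain ⟨p, hp, hpsep⟩ := hsep.2 y hy y' hy' hne
    have := floor_sep hpsep
    have h2 : discr D y ⟨p, hp⟩ = discr D y' ⟨p, hp⟩ := by rw [heq]
    simp only [discr] at h2
    rw [h2] at this
    simp at this
    have hQ : (0 : ℤ) ≤ Q := by positivity
    omega
  have hfamcard : fam.card = A.card := Finset.card_image_of_injOn hinj
  -- range
  have hrange : ∀ f ∈ fam, ∀ x, -(M : ℤ) ≤ f x ∧ f x ≤ M := by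
    intro f hf x
    obtain ⟨y, hy, rfl⟩ := Finset.mem_image.mp hf
    have h1 := abs_inner_le_card hKc hKs hLs t hcov (hD x.1 x.2) (hsep.1 y hy)
    rw [abs_le] at h1
    have hMnn : (0 : ℝ) ≤ M := by positivity
    constructor
    · apply Int.le_floor.mpr
      push_cast
      rw [le_div_iff₀ (by norm_num)]
      nlinarith [h1.1]
    · have h2 := Int.floor_le (inner ℝ (x : E) y / 8)
      have h3 : ((⌊inner ℝ (x : E) y / 8⌋ : ℤ) : ℝ) ≤ M := by
        refine le_trans h2 ?_
        rw [div_le_iff₀ (by norm_num)]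
        nlinarith [h1.2]
      show ⌊inner ℝ (x : E) y / 8⌋ ≤ (M : ℤ)
      exact_mod_cast h3
  set U : Finset (D × ℤ) := (Finset.univ : Finset D) ×ˢ Finset.Icc (-(M : ℤ)) M with hU
  have hUmem : ∀ x w, -(M : ℤ) ≤ w → w ≤ M → (x, w) ∈ U := by
    intro x w h1 h2
    exact Finset.mem_product.mpr ⟨Finset.mem_univ _, Finset.mem_Icc.mpr ⟨h1, h2⟩⟩
  have hUcard : U.card = D.card * (2 * M + 1) := by
    rw [hU, Finset.card_product, Finset.card_univ, hcardX, Int.card_Icc]
    congr 1
    omega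
  have hn : 1 ≤ Fintype.card D := by
    rw [hcardX]
    exact hDne.card_pos
  have hγ' : γ ^ Q * Real.log (4 * (Fintype.card D : ℕ)) < Real.log 2 := by
    rw [hcardX]
    exact hγ
  have hmain := card_rpow_le_shatCount (X := D) Q γ hn hγ0 hγ1 hγ' (-(M : ℤ)) M U hUmem fam hfamne
    hrange hsep'
  rw [hfamcard] at hmain
  refine le_trans hmain ?_
  -- every shattered set is small
  have hsmall : ∀ G ∈ U.powerset, Shat fam G → G.card ≤ Nat.log 2 M := by
    intro G _ hG
    have hpow : (2 : ℝ) ^ G.card ≤ M := by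
      have hshat : ∀ S : Finset G, ∃ z : E, (∀ l ∈ L, ∀ l' ∈ L, inner ℝ (l - l') z ≤ 2) ∧
          (∀ i ∈ S, (4 : ℝ) ≤ inner ℝ ((i.1.1 : D) : E) z) ∧
          (∀ i, i ∉ S → inner ℝ ((i.1.1 : D) : E) z ≤ -4) := by
        intro S
        set SS : Finset (D × ℤ) := S.map (Function.Embedding.subtype _) with hSS
        have hSSsub : SS ⊆ G := by
          intro p hp
          obtain ⟨i, _, rfl⟩ := Finset.mem_map.mp hp
          exact i.2
        have hmemSS : ∀ i : G, i.1 ∈ SS ↔ i ∈ S := by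
          intro i
          rw [hSS, Finset.mem_map]
          constructor
          · rintro ⟨j, hj, hji⟩
            have : j = i := Subtype.ext hji
            rwa [← this]
          · intro h
            exact ⟨i, h, rfl⟩
        obtain ⟨f1, hf1, h11, h12⟩ := hG SS hSSsub
        obtain ⟨f2, hf2, h21, h22⟩ := hG (G.filter (fun p => p ∉ SS)) (Finset.filter_subset _ _)
        obtain ⟨y1, hy1, rfl⟩ := Finset.mem_image.mp hf1
        obtain ⟨y2, hy2, rfl⟩ := Finset.mem_image.mp hf2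
        have hy1L := hsep.1 y1 hy1
        have hy2L := hsep.1 y2 hy2
        refine ⟨(1 / 2 : ℝ) • (y1 - y2), ?_, ?_, ?_⟩
        · intro l hl l' hl'
          have h1 := abs_inner_le_one_of_mem_polar hLs hl hy1L
          have h2 := abs_inner_le_one_of_mem_polar hLs hl hy2L
          have h3 := abs_inner_le_one_of_mem_polar hLs hl' hy1L
          have h4 := abs_inner_le_one_of_mem_polar hLs hl' hy2L
          rw [abs_le] at h1 h2 h3 h4
          rw [real_inner_smul_right, inner_sub_right, inner_sub_left, inner_sub_left]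
          linarith [h1.1, h1.2, h2.1, h2.2, h3.1, h3.2, h4.1, h4.2]
        · intro i hi
          have hiS := (hmemSS i).mpr hi
          have h1 := h11 i.1 hiS
          have h2 : discr D y2 i.1.1 ≤ i.1.2 - 1 := by
            apply h22 i.1 i.2
            intro h
            exact (Finset.mem_filter.mp h).2 hiS
          simp only [discr] at h1 h2
          have h3 : ((i.1.2 + 1 : ℤ) : ℝ) ≤ inner ℝ (i.1.1 : E) y1 / 8 :=
            Int.le_floor.mp h1
          have h4 : inner ℝ (i.1.1 : E) y2 / 8 < ((i.1.2 - 1 + 1 : ℤ) : ℝ) :=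
            Int.floor_lt.mp (by omega)
          push_cast at h3 h4
          rw [real_inner_smul_right, inner_sub_right]
          linarith
        · intro i hi
          have hiS : i.1 ∉ SS := fun h => hi ((hmemSS i).mp h)
          have h1 : discr D y1 i.1.1 ≤ i.1.2 - 1 := h12 i.1 i.2 hiS
          have h2 : i.1.2 + 1 ≤ discr D y2 i.1.1 := h21 i.1 (Finset.mem_filter.mpr ⟨i.2, hiS⟩)
          simp only [discr] at h1 h2
          have h3 : ((i.1.2 + 1 : ℤ) : ℝ) ≤ inner ℝ (i.1.1 : E) y2 / 8 :=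
            Int.le_floor.mp h2
          have h4 : inner ℝ (i.1.1 : E) y1 / 8 < ((i.1.2 - 1 + 1 : ℤ) : ℝ) :=
            Int.floor_lt.mp (by omega)
          push_cast at h3 h4
          rw [real_inner_smul_right, inner_sub_right]
          linarith
      have := pow_le_card_of_shatter hKc hKs h0 t hcov (ι := G)
        (fun i => ((i.1.1 : D) : E)) (fun i => hD _ i.1.1.2) 4 (by norm_num) hshat
      rw [Fintype.card_coe] at this
      norm_num at this
      exact this
    have hpow' : 2 ^ G.card ≤ M := by exact_mod_cast hpow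
    exact Nat.le_log_of_pow_le (by norm_num) hpow'
  have hcount : shatCount U fam ≤ (U.card + 1) ^ Nat.log 2 M := by
    refine le_trans ?_ (card_small_subsets_le U (Nat.log 2 M))
    apply Finset.card_le_card
    intro G hG
    have hG' := Finset.mem_filter.mp hG
    exact Finset.mem_filter.mpr ⟨hG'.1, hsmall G hG'.1 hG'.2⟩
  rw [hUcard] at hcount
  exact_mod_cast hcount

end Vale.Agent.Lib.P126
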