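import Mathlib
import Vale.Agent.Lib.P126.Geom

/-!
The main one-sided inequality.
-/

open scoped Pointwise

namespace Vale.Agent.Lib.P126

variable {E : Type*} [NormedAddCommGroup E] [InnerProductSpace ℝ E]

theorem zero_mem_interior_of_sym {K : Set E} (hKc : Convex ℝ K) (hKi : (interior K).Nonempty)
    (hKs : ∀ x ∈ K, -x ∈ K) : (0 : E) ∈ interior K := by
  obtain ⟨u, hu⟩ := hKi
  have hnegK : (fun x : E => -x) ⁻¹' K = K := by
    ext x
    constructor
    · intro h
      have := hKs _ h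
      simpa using this
    · intro h
      exact hKs _ h
  have hu' : -u ∈ interior K := by
    have h1 : (fun x : E => -x) ⁻¹' (interior K) ⊆ interior K := by
      apply interior_maximal
      · intro x hx
        have : -x ∈ K := interior_subset hx
        have h2 := hKs _ this
        simpa using h2
      · exact (isOpen_interior).preimage continuous_neg
    apply h1
    simpa using hu
  have h := hKc.interior.midpoint_mem hu hu'
  simpa using h

/-- Finite covers exist and the covering number is attained. -/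
theorem exists_cover_card_eq {K L : Set E} (hKcomp : IsCompact K) (hL : (0 : E) ∈ interior L) :
    ∃ t : Finset E, t.card = covNum K L ∧ K ⊆ ⋃ c ∈ t, (fun b => c + b) '' L := by
  have hne : ({m : ℕ | ∃ t : Finset E, t.card = m ∧ K ⊆ ⋃ x ∈ t, (fun b => x + b) '' L}).Nonempty := by
    have hnhds : ∀ x ∈ K, (fun b => x + b) '' L ∈ nhds x := by
      intro x _
      have h1 : (fun b => b - x) ⁻¹' L ∈ nhds x := by
        apply ContinuousAt.preimage_mem_nhds (by fun_prop)
        simpa using mem_interior_iff_mem_nhds.mp hL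
      filter_upwards [h1] with y hy
      exact ⟨y - x, hy, by simp⟩
    obtain ⟨t, ht⟩ := hKcomp.elim_nhds_subcover' (fun x _ => (fun b => x + b) '' L) hnhds
    classical
    refine ⟨(t.image Subtype.val).card, t.image Subtype.val, rfl, ?_⟩
    intro z hz
    have := ht hz
    simp only [Set.mem_iUnion] at this ⊢
    obtain ⟨x, hx, hzx⟩ := this
    exact ⟨x.1, Finset.mem_image_of_mem _ hx, hzx⟩
  exact Nat.sInf_mem hne

/-- Recentring the covering at points of `K`. -/
theorem exists_recentred {K L : Set E} (h0 : (0 : E) ∈ K) (t : Finset E)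
    (hcov : K ⊆ ⋃ c ∈ t, (fun b => c + b) '' L) :
    ∃ D : Finset E, D.card ≤ t.card ∧ D.Nonempty ∧ (∀ p ∈ D, p ∈ K) ∧
      ∀ x ∈ K, ∃ q ∈ D, ∃ l ∈ L, ∃ l' ∈ L, x - q = l - l' := by
  classical
  set p : E → E := fun c => if h : ∃ z ∈ K, z ∈ (fun b => c + b) '' L then h.choose else 0 with hp
  have hpK : ∀ c, p c ∈ K := by
    intro c
    simp only [hp]
    split_ifs with h
    · exact h.choose_spec.1
    · exact h0
  refine ⟨t.image p, Finset.card_image_le, ?_, ?_, ?_⟩
  · have := hcov h0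
    simp only [Set.mem_iUnion] at this
    obtain ⟨c, hc, _⟩ := this
    exact ⟨p c, Finset.mem_image_of_mem _ hc⟩
  · intro q hq
    obtain ⟨c, _, rfl⟩ := Finset.mem_image.mp hq
    exact hpK c
  · intro x hx
    have := hcov hx
    simp only [Set.mem_iUnion] at this
    obtain ⟨c, hc, hxc⟩ := this
    have hex : ∃ z ∈ K, z ∈ (fun b => c + b) '' L := ⟨x, hx, hxc⟩
    have hpc : p c = hex.choose := by
      simp only [hp]
      rw [dif_pos hex]
    have hpc2 : p c ∈ (fun b => c + b) '' L := by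
      rw [hpc]
      exact hex.choose_spec.2
    obtain ⟨l, hl, hlx⟩ := hxc
    obtain ⟨l', hl', hlp⟩ := hpc2
    refine ⟨p c, Finset.mem_image_of_mem _ hc, l, hl, l', hl', ?_⟩
    simp only at hlx hlp
    rw [← hlx, ← hlp]
    abel

/-- The parameter `γ` used throughout. -/
noncomputable def gam (M Q : ℕ) : ℝ := (Real.log 2 / Real.log (8 * M)) ^ (1 / (Q : ℝ))

theorem gam_spec {M Q : ℕ} (hM : 1 ≤ M) (hQ : 1 ≤ Q) :
    0 < gam M Q ∧ gam M Q ≤ 1 ∧ ∀ D : ℕ, 1 ≤ D → D ≤ M →
      (gam M Q) ^ Q * Real.log (4 * (D : ℕ)) < Real.log 2 := by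
  have hMR : (1 : ℝ) ≤ M := by exact_mod_cast hM
  have hQR : (0 : ℝ) < Q := by exact_mod_cast hQ
  have hlog2 : 0 < Real.log 2 := Real.log_pos (by norm_num)
  have hlog8 : 0 < Real.log (8 * M) := Real.log_pos (by linarith)
  have hle : Real.log 2 ≤ Real.log (8 * M) := Real.log_le_log (by norm_num) (by linarith)
  have hbase : 0 < Real.log 2 / Real.log (8 * M) := div_pos hlog2 hlog8
  have hbase1 : Real.log 2 / Real.log (8 * M) ≤ 1 := (div_le_one hlog8).mpr hle
  refine ⟨Real.rpow_pos_of_pos hbase _, Real.rpow_le_one hbase.le hbase1 (by positivity), ?_⟩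
  intro D hD hDM
  have hpow : (gam M Q) ^ Q = Real.log 2 / Real.log (8 * M) := by
    unfold gam
    rw [← Real.rpow_natCast, ← Real.rpow_mul hbase.le, one_div, inv_mul_cancel₀ hQR.ne', Real.rpow_one]
  rw [hpow]
  have hDR : (1 : ℝ) ≤ D := by exact_mod_cast hD
  have hDMR : (D : ℝ) ≤ M := by exact_mod_cast hDM
  have hlt : Real.log (4 * (D : ℝ)) < Real.log (8 * M) :=
    Real.log_lt_log (by linarith) (by linarith)
  rw [div_mul_eq_mul_div, div_lt_iff₀ hlog8]
  exact mul_lt_mul_of_pos_left hlt hlog2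

/-- The numerical consequence of `|A|^γ ≤ N^d`. -/
theorem log_card_le {A D M Q : ℕ} (hA : 1 ≤ A) (hM : 3 ≤ M) (hQ : 1 ≤ Q) (hDM : D ≤ M)
    (h : (A : ℝ) ^ (gam M Q) ≤ (((D * (2 * M + 1) + 1 : ℕ) : ℝ)) ^ (Nat.log 2 M)) :
    Real.log A ≤ (3 / Real.log 2) * (Real.log (8 * M) / Real.log 2) ^ (1 / (Q : ℝ))
      * (Real.log M) ^ 2 := by
  have hM1 : 1 ≤ M := by omega
  obtain ⟨hγ0, _, _⟩ := gam_spec hM1 hQ
  have hAR : (0 : ℝ) < A := by exact_mod_cast hA
  have hMR : (3 : ℝ) ≤ M := by exact_mod_cast hM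
  have hlog2 : 0 < Real.log 2 := Real.log_pos (by norm_num)
  have hlogM : 0 < Real.log M := Real.log_pos (by linarith)
  have hlog8 : 0 < Real.log (8 * M) := Real.log_pos (by linarith)
  -- the bound on the base
  have hN : ((D * (2 * M + 1) + 1 : ℕ) : ℝ) ≤ (M : ℝ) ^ 3 := by
    have hDR : (D : ℝ) ≤ M := by exact_mod_cast hDM
    push_cast
    have h1 : (D : ℝ) * (2 * M + 1) ≤ M * (2 * M + 1) :=
      mul_le_mul_of_nonneg_right hDR (by positivity)
    nlinarith [mul_nonneg (sub_nonneg.mpr hMR) (sub_nonneg.mpr hMR), sq_nonneg ((M : ℝ))]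
  have hNpos : (0 : ℝ) < ((D * (2 * M + 1) + 1 : ℕ) : ℝ) := by positivity
  have hd : (Nat.log 2 M : ℝ) * Real.log 2 ≤ Real.log M := by
    have h1 : 2 ^ Nat.log 2 M ≤ M := Nat.pow_log_le_self 2 (by omega)
    have h2 : ((2 : ℝ)) ^ Nat.log 2 M ≤ M := by exact_mod_cast h1
    have h3 := Real.log_le_log (by positivity) h2
    rwa [Real.log_pow] at h3
  -- take logarithms
  have hlog := Real.log_le_log (Real.rpow_pos_of_pos hAR _) h
  rw [Real.log_rpow hAR, Real.log_pow] at hlog
  have hlogN : Real.log ((D * (2 * M + 1) + 1 : ℕ) : ℝ) ≤ 3 * Real.log M := by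
    have := Real.log_le_log hNpos hN
    rwa [Real.log_pow] at this
  have h1 : gam M Q * Real.log A ≤ (Real.log M / Real.log 2) * (3 * Real.log M) := by
    refine le_trans hlog ?_
    have hlogNnn : 0 ≤ Real.log ((D * (2 * M + 1) + 1 : ℕ) : ℝ) := by
      apply Real.log_natCast_nonneg
    apply mul_le_mul _ hlogN hlogNnn (by positivity)
    rw [le_div_iff₀ hlog2]
    exact hd
  -- divide by γ
  have hbase : 0 < Real.log 2 / Real.log (8 * M) := div_pos hlog2 hlog8
  have hinv : (gam M Q)⁻¹ = (Real.log (8 * M) / Real.log 2) ^ (1 / (Q : ℝ)) := by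
    unfold gam
    rw [← Real.inv_rpow hbase.le, inv_div]
  have h2 : Real.log A ≤ (gam M Q)⁻¹ * ((Real.log M / Real.log 2) * (3 * Real.log M)) := by
    rw [← div_eq_inv_mul, le_div_iff₀ hγ0]
    linarith
  rw [hinv] at h2
  refine le_trans h2 (le_of_eq ?_)
  field_simp

/-- The general form of the main inequality. -/
theorem main_general {K L : Set E} (hK : IsSymBody K) (hL : IsSymBody L) {Q : ℕ} (hQ : 1 ≤ Q) :
    1 ≤ covNum (polarBody L) ((16 * (Q : ℝ) + 12) • polarBody K) ∧
    (covNum K L < 12 → covNum (polarBody L) ((16 * (Q : ℝ) + 12) • polarBody K) = 1) ∧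
    Real.log (covNum (polarBody L) ((16 * (Q : ℝ) + 12) • polarBody K)) ≤
      (3 / Real.log 2) * (Real.log (8 * (covNum K L : ℕ)) / Real.log 2) ^ (1 / (Q : ℝ))
        * (Real.log (covNum K L)) ^ 2 := by
  classical
  obtain ⟨hKcomp, hKc, hKi, hKs⟩ := hK
  obtain ⟨hLcomp, hLc, hLi, hLs⟩ := hL
  have h0K : (0 : E) ∈ K := interior_subset (zero_mem_interior_of_sym hKc hKi hKs)
  have h0L : (0 : E) ∈ interior L := zero_mem_interior_of_sym hLc hLi hLs
  obtain ⟨t, htcard, hcov⟩ := exists_cover_card_eq hKcomp h0L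
  set M := covNum K L with hM
  have hMpos : 1 ≤ M := by
    have := hcov h0K
    simp only [Set.mem_iUnion] at this
    obtain ⟨c, hc, _⟩ := this
    rw [← htcard]
    exact Finset.card_pos.mpr ⟨c, hc⟩
  obtain ⟨D, hDcard, hDne, hDK, hDcov⟩ := exists_recentred h0K t hcov
  have hDM : D.card ≤ M := by omega
  obtain ⟨hγ0, hγ1, hγ⟩ := gam_spec hMpos hQ
  -- bound for separated families
  have hQR : (1 : ℝ) ≤ Q := by exact_mod_cast hQ
  have hbound : ∀ A : Finset E, IsSepFamily L D Q A → A.Nonempty →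
      (A.card : ℝ) ^ (gam M Q) ≤ (((D.card * (2 * M + 1) + 1 : ℕ) : ℝ)) ^ (Nat.log 2 M) := by
    intro A hA hAne
    have := sep_family_bound hKc hKs h0K hLs t hcov D hDK hDne Q (gam M Q) hγ0 hγ1
      (hγ D.card hDne.card_pos hDM) A hAne hA
    rwa [htcard] at this
  -- a bound on the cardinalities
  obtain ⟨B, hB⟩ : ∃ B : ℕ, ∀ A : Finset E, IsSepFamily L D Q A → A.card ≤ B := by
    set Y : ℝ := (((D.card * (2 * M + 1) + 1 : ℕ) : ℝ)) ^ (Nat.log 2 M) with hY
    refine ⟨⌈Y ^ (gam M Q)⁻¹⌉₊, ?_⟩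
    intro A hA
    by_cases hAne : A.Nonempty
    · have h1 := hbound A hA hAne
      have h2 : (A.card : ℝ) ≤ Y ^ (gam M Q)⁻¹ := by
        have hcardnn : (0 : ℝ) ≤ A.card := by positivity
        have := Real.rpow_le_rpow (Real.rpow_nonneg hcardnn _) h1 (inv_nonneg.mpr hγ0.le)
        rwa [← Real.rpow_mul hcardnn, mul_inv_cancel₀ hγ0.ne', Real.rpow_one] at this
      have h3 : (A.card : ℝ) ≤ (⌈Y ^ (gam M Q)⁻¹⌉₊ : ℝ) := le_trans h2 (Nat.le_ceil _)
      exact_mod_cast h3
    · rw [Finset.not_nonempty_iff_eq_empty.mp hAne]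
      simp
  -- a maximal separated family
  have hSnonempty : ({k : ℕ | ∃ A : Finset E, IsSepFamily L D Q A ∧ A.card = k}).Nonempty :=
    ⟨0, ∅, ⟨by simp, by simp⟩, rfl⟩
  have hSbdd : BddAbove ({k : ℕ | ∃ A : Finset E, IsSepFamily L D Q A ∧ A.card = k}) := by
    refine ⟨B, ?_⟩
    rintro k ⟨A, hA, rfl⟩
    exact hB A hA
  obtain ⟨A, hA, hAcard⟩ := Nat.sSup_mem hSnonempty hSbdd
  have hAmax : ∀ A' : Finset E, IsSepFamily L D Q A' → A'.card ≤ A.card := by
    intro A' hA'
    rw [hAcard]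
    exact le_csSup hSbdd ⟨A', hA', rfl⟩
  set a : ℝ := 16 * (Q : ℝ) + 12 with ha
  have hapos : 0 < a := by positivity
  -- the covering of the polar
  have hcovP : polarBody L ⊆ ⋃ y ∈ A, (fun b => y + b) '' (a • polarBody K) := by
    intro y hy
    by_cases hyA : y ∈ A
    · simp only [Set.mem_iUnion]
      refine ⟨y, hyA, 0, ?_, by simp⟩
      rw [Set.mem_smul_set]
      refine ⟨0, ?_, by simp⟩
      intro x _
      simp
    · -- maximality: `y` is close to some element of `A`
      have hnot : ¬ IsSepFamily L D Q (insert y A) := by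
        intro h
        have := hAmax _ h
        rw [Finset.card_insert_of_notMem hyA] at this
        omega
      have hexists : ∃ y' ∈ A, ∀ p ∈ D, |inner ℝ p y - inner ℝ p y'| < 8 * (2 * (Q : ℝ) + 1) := by
        by_contra hcon
        push Not at hcon
        apply hnot
        refine ⟨?_, ?_⟩
        · intro z hz
          rcases Finset.mem_insert.mp hz with h1 | h1
          · rw [h1]; exact hy
          · exact hA.1 z h1
        · intro z hz z' hz' hne
          rcases Finset.mem_insert.mp hz with h1 | h1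
          · rcases Finset.mem_insert.mp hz' with h2 | h2
            · exact absurd (h1.trans h2.symm) hne
            · rw [h1]; exact hcon z' h2
          · rcases Finset.mem_insert.mp hz' with h2 | h2
            · obtain ⟨p, hp, hpe⟩ := hcon z h1
              refine ⟨p, hp, ?_⟩
              rw [h2, abs_sub_comm]; exact hpe
            · exact hA.2 z h1 z' h2 hne
      obtain ⟨y', hy'A, hclose⟩ := hexists
      simp only [Set.mem_iUnion]
      refine ⟨y', hy'A, y - y', ?_, by simp⟩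
      rw [Set.mem_smul_set]
      refine ⟨a⁻¹ • (y - y'), ?_, ?_⟩
      · intro x hx
        obtain ⟨q, hq, l, hl, l', hl', hxq⟩ := hDcov x hx
        have hy'L := hA.1 y' hy'A
        have h1 := abs_inner_le_one_of_mem_polar hLs hl hy
        have h2 := abs_inner_le_one_of_mem_polar hLs hl hy'L
        have h3 := abs_inner_le_one_of_mem_polar hLs hl' hy
        have h4 := abs_inner_le_one_of_mem_polar hLs hl' hy'L
        rw [abs_le] at h1 h2 h3 h4
        have h5 := abs_lt.mp (hclose q hq)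
        have hx' : x = q + (l - l') := by rw [← hxq]; abel
        rw [real_inner_smul_right, inv_mul_le_iff₀ hapos, mul_one, hx', inner_add_left,
          inner_sub_left, inner_sub_right, inner_sub_right, inner_sub_right]
        rw [ha]
        linarith [h1.1, h1.2, h2.1, h2.2, h3.1, h3.2, h4.1, h4.2, h5.1, h5.2]
      · rw [smul_smul, mul_inv_cancel₀ hapos.ne', one_smul]
  -- nondegeneracy
  set N := covNum (polarBody L) (a • polarBody K) with hN
  have hNle : N ≤ A.card := Nat.sInf_le ⟨A, rfl, hcovP⟩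
  have hN1 : 1 ≤ N := by
    have hmem := Nat.sInf_mem (s := {m : ℕ | ∃ t : Finset E, t.card = m ∧
      polarBody L ⊆ ⋃ x ∈ t, (fun b => x + b) '' (a • polarBody K)}) ⟨A.card, A, rfl, hcovP⟩
    obtain ⟨t', ht', hcov'⟩ := hmem
    have h00 : (0 : E) ∈ polarBody L := by
      intro x _
      simp
    have := hcov' h00
    simp only [Set.mem_iUnion] at this
    obtain ⟨c, hc, _⟩ := this
    have hpos := Finset.card_pos.mpr ⟨c, hc⟩
    rw [ht'] at hpos
    exact hpos
  have hAne : 1 ≤ A.card := le_trans hN1 hNle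
  have hsmall : M < 12 → A.card = 1 := by
    intro hM3
    have hcard1 : A.card ≤ 1 := by
      rw [Finset.card_le_one]
      intro y hy y' hy'
      by_contra hne
      obtain ⟨p, hp, hpsep⟩ := hA.2 y hy y' hy' hne
      have h1 := abs_inner_le_card hKc hKs hLs t hcov (hDK p hp) (hA.1 y hy)
      have h2 := abs_inner_le_card hKc hKs hLs t hcov (hDK p hp) (hA.1 y' hy')
      rw [htcard] at h1 h2
      have h3 : |inner ℝ p y - inner ℝ p y'| ≤ 2 * M := by
        calc _ ≤ |inner ℝ p y| + |inner ℝ p y'| := abs_sub _ _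
          _ ≤ _ := by linarith
      have hM' : (M : ℝ) ≤ 11 := by
        have : M ≤ 11 := by omega
        exact_mod_cast this
      linarith
    omega
  refine ⟨hN1, fun h => le_antisymm (by rw [← hsmall h]; exact hNle) hN1, ?_⟩
  have hlogN : Real.log N ≤ Real.log A.card := by
    apply Real.log_le_log (by exact_mod_cast hN1)
    exact_mod_cast hNle
  refine le_trans hlogN ?_
  have hMR : (1 : ℝ) ≤ M := by exact_mod_cast hMpos
  have hlog2 : 0 < Real.log 2 := Real.log_pos (by norm_num)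
  by_cases hM3 : M < 12
  · -- no separated pairs
    rw [hsmall hM3]
    simp only [Nat.cast_one, Real.log_one]
    have h8 : 0 ≤ Real.log (8 * (M : ℝ)) / Real.log 2 := by
      apply div_nonneg _ hlog2.le
      apply Real.log_nonneg
      linarith
    positivity
  · have hM12 : 12 ≤ M := by omega
    have := log_card_le (A := A.card) (D := D.card) (M := M) (Q := Q) hAne (by omega) hQ hDM
      (hbound A hA (Finset.card_pos.mp hAne))
    exact this

/-- A numerical inequality for the power form. -/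
theorem numeric_power {M Q : ℕ} (hM : 12 ≤ M) (hQ : 1 ≤ Q) :
    (3 / Real.log 2) * (Real.log (8 * (M : ℕ)) / Real.log 2) ^ (1 / (Q : ℝ)) * (Real.log M) ^ 2 ≤
      12 * (Real.log M) ^ (2 + 1 / (Q : ℝ)) := by
  have hMR : (12 : ℝ) ≤ M := by exact_mod_cast hM
  have hL2 : 0.6931471803 < Real.log 2 := Real.log_two_gt_d9
  have hL2pos : 0 < Real.log 2 := by linarith
  set s := Real.log M with hs
  have hs35 : 7 * Real.log 2 ≤ 2 * s := by
    have h1 : ((2 : ℝ) ^ 7) ≤ (M : ℝ) ^ 2 := by nlinarith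
    have h2 := Real.log_le_log (by positivity) h1
    rw [Real.log_pow, Real.log_pow] at h2
    push_cast at h2
    linarith
  have hspos : 0 < s := by nlinarith
  have hlog8 : Real.log (8 * (M : ℝ)) = 3 * Real.log 2 + s := by
    rw [Real.log_mul (by norm_num) (by linarith), hs]
    have : (8 : ℝ) = 2 ^ 3 := by norm_num
    rw [this, Real.log_pow]
    push_cast
    ring
  set c : ℝ := 13 / (7 * Real.log 2) with hc
  have hc1 : 1 ≤ c := by
    rw [hc, le_div_iff₀ (by positivity)]
    have : Real.log 2 < 0.6931471808 := Real.log_two_lt_d9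
    linarith
  have hcpos : 0 < c := by linarith
  have hbase : Real.log (8 * (M : ℝ)) / Real.log 2 ≤ c * s := by
    rw [hlog8, div_le_iff₀ hL2pos, hc]
    have h3 : 13 / (7 * Real.log 2) * s * Real.log 2 = 13 / 7 * s := by field_simp
    rw [h3]
    linarith
  have hbasenn : 0 ≤ Real.log (8 * (M : ℝ)) / Real.log 2 := by
    rw [hlog8]
    positivity
  have hexp0 : 0 ≤ 1 / (Q : ℝ) := by positivity
  have hexp1 : 1 / (Q : ℝ) ≤ 1 := by
    rw [div_le_one (by exact_mod_cast hQ)]
    exact_mod_cast hQ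
  have hpow1 : (Real.log (8 * (M : ℝ)) / Real.log 2) ^ (1 / (Q : ℝ)) ≤ c * s ^ (1 / (Q : ℝ)) := by
    calc (Real.log (8 * (M : ℝ)) / Real.log 2) ^ (1 / (Q : ℝ))
        ≤ (c * s) ^ (1 / (Q : ℝ)) := Real.rpow_le_rpow hbasenn hbase hexp0
      _ = c ^ (1 / (Q : ℝ)) * s ^ (1 / (Q : ℝ)) := Real.mul_rpow hcpos.le hspos.le
      _ ≤ c ^ (1 : ℝ) * s ^ (1 / (Q : ℝ)) := by
          apply mul_le_mul_of_nonneg_right _ (by positivity)
          exact Real.rpow_le_rpow_of_exponent_le hc1 hexp1
      _ = c * s ^ (1 / (Q : ℝ)) := by rw [Real.rpow_one]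
  have hsplit : s ^ (2 + 1 / (Q : ℝ)) = s ^ 2 * s ^ (1 / (Q : ℝ)) := by
    rw [Real.rpow_add hspos, Real.rpow_two]
  rw [hsplit]
  have hcoef : 3 / Real.log 2 * c ≤ 12 := by
    rw [hc]
    have h5 : 3 / Real.log 2 * (13 / (7 * Real.log 2)) = 39 / (7 * (Real.log 2) ^ 2) := by
      field_simp
      ring
    rw [h5, div_le_iff₀ (by positivity)]
    nlinarith
  have hP : 0 < s ^ (1 / (Q : ℝ)) := Real.rpow_pos_of_pos hspos _
  have hA : 0 ≤ 3 / Real.log 2 := by positivity
  have hS2 : 0 ≤ s ^ 2 := by positivity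
  calc 3 / Real.log 2 * (Real.log (8 * (M : ℝ)) / Real.log 2) ^ (1 / (Q : ℝ)) * s ^ 2
      ≤ 3 / Real.log 2 * (c * s ^ (1 / (Q : ℝ))) * s ^ 2 := by
        apply mul_le_mul_of_nonneg_right _ hS2
        exact mul_le_mul_of_nonneg_left hpow1 hA
    _ = (3 / Real.log 2 * c) * (s ^ 2 * s ^ (1 / (Q : ℝ))) := by ring
    _ ≤ 12 * (s ^ 2 * s ^ (1 / (Q : ℝ))) :=
        mul_le_mul_of_nonneg_right hcoef (by positivity)

/-- The power form. -/
theorem main_power {K L : Set E} (hK : IsSymBody K) (hL : IsSymBody L) {Q : ℕ} (hQ : 1 ≤ Q) :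
    1 ≤ covNum (polarBody L) ((16 * (Q : ℝ) + 12) • polarBody K) ∧
    Real.log (covNum (polarBody L) ((16 * (Q : ℝ) + 12) • polarBody K)) ≤
      12 * (Real.log (covNum K L)) ^ (2 + 1 / (Q : ℝ)) := by
  obtain ⟨h1, h2, h3⟩ := main_general hK hL hQ
  refine ⟨h1, ?_⟩
  by_cases hM : covNum K L < 12
  · rw [h2 hM]
    simp only [Nat.cast_one, Real.log_one]
    have : 0 ≤ Real.log (covNum K L) := Real.log_natCast_nonneg _
    positivity
  · exact le_trans h3 (numeric_power (by omega) hQ)

end Vale.Agent.Lib.P126
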