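import Mathlib
import Vale.Agent.Lib.P126.Core

/-!
Polars of symmetric bodies, the bipolar theorem and the two sided statement.
-/

open scoped Pointwise

namespace Vale.Agent.Lib.P126

variable {E : Type*} [NormedAddCommGroup E] [InnerProductSpace ℝ E]

theorem isClosed_polarBody (K : Set E) : IsClosed (polarBody K) := by
  have : polarBody K = ⋂ x ∈ K, {y | inner ℝ x y ≤ 1} := by
    ext y
    simp [polarBody]
  rw [this]
  apply isClosed_biInter
  intro x _
  exact isClosed_le (by fun_prop) continuous_const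

theorem convex_polarBody (K : Set E) : Convex ℝ (polarBody K) := by
  intro y hy y' hy' a b ha hb hab x hx
  rw [inner_add_right, real_inner_smul_right, real_inner_smul_right]
  have h1 := hy x hx
  have h2 := hy' x hx
  nlinarith

theorem neg_mem_polarBody {K : Set E} (hKs : ∀ x ∈ K, -x ∈ K) {y : E} (hy : y ∈ polarBody K) :
    -y ∈ polarBody K := by
  intro x hx
  rw [inner_neg_right, ← inner_neg_left]
  exact hy _ (hKs x hx)

theorem isSymBody_polar [FiniteDimensional ℝ E] {K : Set E} (hK : IsSymBody K) :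
    IsSymBody (polarBody K) := by
  obtain ⟨hKcomp, hKc, hKi, hKs⟩ := hK
  have h0 : (0 : E) ∈ interior K := zero_mem_interior_of_sym hKc hKi hKs
  have : ProperSpace E := FiniteDimensional.proper_real E
  refine ⟨?_, convex_polarBody K, ?_, fun y hy => neg_mem_polarBody hKs hy⟩
  · -- compactness
    apply Metric.isCompact_of_isClosed_isBounded (isClosed_polarBody K)
    obtain ⟨r, hr, hball⟩ := Metric.isOpen_iff.mp isOpen_interior 0 h0
    refine (Metric.isBounded_closedBall (x := (0 : E)) (r := 2 / r)).subset ?_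
    intro y hy
    rw [mem_closedBall_zero_iff]
    by_cases hy0 : y = 0
    · rw [hy0, norm_zero]
      positivity
    · have hypos : 0 < ‖y‖ := norm_pos_iff.mpr hy0
      have hmem : (r / 2 / ‖y‖) • y ∈ K := by
        apply interior_subset
        apply hball
        rw [mem_ball_zero_iff, norm_smul, Real.norm_eq_abs, abs_of_pos (by positivity)]
        field_simp
        linarith
      have := hy _ hmem
      rw [real_inner_smul_left, real_inner_self_eq_norm_sq] at this
      have h2 : r / 2 / ‖y‖ * ‖y‖ ^ 2 = r / 2 * ‖y‖ := by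
        field_simp
      rw [h2] at this
      rw [le_div_iff₀ hr]
      linarith
  · -- nonempty interior
    obtain ⟨R, hR⟩ := hKcomp.isBounded.subset_closedBall (0 : E)
    set R' := max R 1 with hR'
    have hR'pos : 0 < R' := lt_of_lt_of_le zero_lt_one (le_max_right _ _)
    refine ⟨0, ?_⟩
    rw [mem_interior]
    refine ⟨Metric.ball 0 (1 / R'), ?_, Metric.isOpen_ball, by simpa using hR'pos⟩
    intro y hy x hx
    have hx' : ‖x‖ ≤ R' := by
      have := hR hx
      rw [mem_closedBall_zero_iff] at this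
      exact le_trans this (le_max_left _ _)
    have hy' : ‖y‖ < 1 / R' := by
      simpa using hy
    calc inner ℝ x y ≤ ‖x‖ * ‖y‖ := real_inner_le_norm x y
      _ ≤ R' * ‖y‖ := mul_le_mul_of_nonneg_right hx' (norm_nonneg _)
      _ ≤ R' * (1 / R') := mul_le_mul_of_nonneg_left hy'.le hR'pos.le
      _ = 1 := by field_simp

theorem isSymBody_smul [FiniteDimensional ℝ E] {K : Set E} (hK : IsSymBody K) {c : ℝ} (hc : 0 < c) :
    IsSymBody (c • K) := by
  obtain ⟨hKcomp, hKc, hKi, hKs⟩ := hK
  refine ⟨hKcomp.smul c, hKc.smul c, ?_, ?_⟩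
  · rw [interior_smul₀ hc.ne']
    exact hKi.smul_set
  · rintro _ ⟨x, hx, rfl⟩
    exact ⟨-x, hKs x hx, by simp⟩

theorem polar_smul (S : Set E) {c : ℝ} (hc : 0 < c) :
    polarBody (c • S) = c⁻¹ • polarBody S := by
  ext y
  constructor
  · intro hy
    rw [Set.mem_inv_smul_set_iff₀ hc.ne']
    intro x hx
    have := hy (c • x) (Set.smul_mem_smul_set hx)
    rw [real_inner_smul_left] at this
    rw [real_inner_smul_right]
    exact this
  · intro hy
    rw [Set.mem_inv_smul_set_iff₀ hc.ne'] at hy
    rintro _ ⟨x, hx, rfl⟩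
    have := hy x hx
    rw [real_inner_smul_right] at this
    rw [real_inner_smul_left]
    exact this

/-- The bipolar theorem for closed convex sets containing the origin. -/
theorem bipolar [FiniteDimensional ℝ E] {K : Set E} (hcl : IsClosed K) (hc : Convex ℝ K)
    (h0 : (0 : E) ∈ K) : polarBody (polarBody K) = K := by
  have : CompleteSpace E := FiniteDimensional.complete ℝ E
  ext x
  constructor
  · intro hx
    by_contra hxK
    obtain ⟨f, u, hf1, hf2⟩ := geometric_hahn_banach_closed_point hc hcl hxK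
    have hu : 0 < u := by
      have := hf1 0 h0
      simpa using this
    set w : E := (InnerProductSpace.toDual ℝ E).symm f with hw
    have hfw : ∀ z, f z = inner ℝ w z := by
      intro z
      rw [hw, InnerProductSpace.toDual_symm_apply]
    have hy : u⁻¹ • w ∈ polarBody K := by
      intro k hk
      rw [real_inner_smul_right, real_inner_comm, ← hfw, inv_mul_le_iff₀ hu, mul_one]
      exact (hf1 k hk).le
    have := hx _ hy
    rw [real_inner_smul_left, inv_mul_le_iff₀ hu, mul_one, ← hfw] at this
    linarith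
  · intro hx y hy
    rw [real_inner_comm]
    exact hy x hx

theorem covNum_subset_smul {A B : Set E} {c : ℝ} (hc : c ≠ 0) :
    {m : ℕ | ∃ t : Finset E, t.card = m ∧ A ⊆ ⋃ x ∈ t, (fun b => x + b) '' B} ⊆
      {m : ℕ | ∃ t : Finset E, t.card = m ∧ (c • A) ⊆ ⋃ x ∈ t, (fun b => x + b) '' (c • B)} := by
  classical
  rintro m ⟨t, rfl, hcov⟩
  refine ⟨t.image (fun x => c • x), ?_, ?_⟩
  · exact Finset.card_image_of_injective _ (smul_right_injective E hc)
  · rintro _ ⟨a, ha, rfl⟩
    have := hcov ha
    simp only [Set.mem_iUnion] at this ⊢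
    obtain ⟨x, hx, b, hb, hab⟩ := this
    refine ⟨c • x, Finset.mem_image_of_mem _ hx, c • b, Set.smul_mem_smul_set hb, ?_⟩
    simp only at hab ⊢
    rw [← hab, smul_add]

theorem covNum_smul (A B : Set E) {c : ℝ} (hc : c ≠ 0) : covNum (c • A) (c • B) = covNum A B := by
  unfold covNum
  congr 1
  apply Set.Subset.antisymm
  · have := covNum_subset_smul (A := c • A) (B := c • B) (inv_ne_zero hc)
    rwa [smul_smul, smul_smul, inv_mul_cancel₀ hc, one_smul, one_smul] at this
  · exact covNum_subset_smul hc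

/-- The two sided main theorem. -/
theorem main_two_sided [FiniteDimensional ℝ E] {K L : Set E} (hK : IsSymBody K) (hL : IsSymBody L)
    {Q : ℕ} (hQ : 1 ≤ Q) :
    Real.log (covNum (polarBody L) ((16 * (Q : ℝ) + 12) • polarBody K)) ≤
        12 * (Real.log (covNum K L)) ^ (2 + 1 / (Q : ℝ)) ∧
    Real.log (covNum K L) ≤
        12 * (Real.log (covNum (polarBody L) ((16 * (Q : ℝ) + 12)⁻¹ • polarBody K))) ^
          (2 + 1 / (Q : ℝ)) := by
  refine ⟨(main_power hK hL hQ).2, ?_⟩
  set a : ℝ := 16 * (Q : ℝ) + 12 with ha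
  have hapos : 0 < a := by positivity
  have hK' : IsSymBody (polarBody L) := isSymBody_polar hL
  have hL' : IsSymBody (a⁻¹ • polarBody K) := isSymBody_smul (isSymBody_polar hK) (inv_pos.mpr hapos)
  have h := (main_power hK' hL' hQ).2
  have hbipK : polarBody (polarBody K) = K :=
    bipolar hK.1.isClosed hK.2.1 (interior_subset (zero_mem_interior_of_sym hK.2.1 hK.2.2.1 hK.2.2.2))
  have hbipL : polarBody (polarBody L) = L :=
    bipolar hL.1.isClosed hL.2.1 (interior_subset (zero_mem_interior_of_sym hL.2.1 hL.2.2.1 hL.2.2.2))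
  have e1 : polarBody (a⁻¹ • polarBody K) = a • K := by
    rw [polar_smul _ (inv_pos.mpr hapos), inv_inv, hbipK]
  rw [e1, hbipL, covNum_smul K L hapos.ne'] at h
  exact h

theorem one_le_covNum {K L : Set E} (hK : IsSymBody K) (hL : IsSymBody L) : 1 ≤ covNum K L := by
  obtain ⟨hKcomp, hKc, hKi, hKs⟩ := hK
  obtain ⟨_, hLc, hLi, hLs⟩ := hL
  have h0K : (0 : E) ∈ K := interior_subset (zero_mem_interior_of_sym hKc hKi hKs)
  have h0L : (0 : E) ∈ interior L := zero_mem_interior_of_sym hLc hLi hLs
  obtain ⟨t, htcard, hcov⟩ := exists_cover_card_eq hKcomp h0L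
  have := hcov h0K
  simp only [Set.mem_iUnion] at this
  obtain ⟨c, hc, _⟩ := this
  rw [← htcard]
  exact Finset.card_pos.mpr ⟨c, hc⟩

end Vale.Agent.Lib.P126
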