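import Mathlib
import Vale.Agent.Lib.P126.Dual

/-!
The multi-scale version: bounds linear in `log N(K, L)` with a factor polylogarithmic in the number
of points of a set `D` whose symmetric convex hull approximates `K` up to `L`.
-/

open scoped Pointwise

namespace Vale.Agent.Lib.P126

variable {E : Type*} [NormedAddCommGroup E] [InnerProductSpace ℝ E]

/-- A shattered set projects injectively to the points. -/
theorem Shat.card_le {X : Type*} [Fintype X] {fam : Finset (X → ℤ)} {G : Finset (X × ℤ)}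
    (hG : Shat fam G) : G.card ≤ Fintype.card X := by
  classical
  have hinj : Set.InjOn (Prod.fst : X × ℤ → X) (G : Set (X × ℤ)) := by
    rintro ⟨x, τ⟩ h1 ⟨x', τ'⟩ h2 heq
    simp only at heq
    subst heq
    by_contra hne
    have h1' : (x, τ) ∈ G := h1
    have h2' : (x, τ') ∈ G := h2
    have hne' : (x, τ) ≠ (x, τ') := hne
    obtain ⟨f, _, h3, h4⟩ := hG {(x, τ)} (by simpa using h1')
    have h5 := h3 (x, τ) (by simp)
    have h6 := h4 (x, τ') h2' (by simpa using hne'.symm)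
    obtain ⟨f', _, h3', h4'⟩ := hG {(x, τ')} (by simpa using h2')
    have h5' := h3' (x, τ') (by simp)
    have h6' := h4' (x, τ) h1' (by simpa using hne')
    simp only at h5 h6 h5' h6'
    omega
  calc G.card = (G.image Prod.fst).card := (Finset.card_image_of_injOn hinj).symm
    _ ≤ Fintype.card X := Finset.card_le_univ _

/-- Separation on the points of `D` at scale `ρ`. -/
def SepOn (D : Finset E) (ρ : ℝ) (A : Finset E) : Prop :=
  ∀ y ∈ A, ∀ y' ∈ A, y ≠ y' → ∃ p ∈ D, ρ ≤ |inner ℝ p y - inner ℝ p y'|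

theorem floor_sep' {u v μ : ℝ} {Q : ℕ} (hμ : 0 < μ) (h : μ * (2 * (Q : ℝ) + 1) ≤ |u - v|) :
    (2 * (Q : ℤ) + 1) ≤ |⌊u / μ⌋ - ⌊v / μ⌋| := by
  have key : ∀ a b : ℝ, μ * (2 * (Q : ℝ) + 1) ≤ a - b → (2 * (Q : ℤ) + 1) ≤ ⌊a / μ⌋ - ⌊b / μ⌋ := by
    intro a b hab
    have h1 : a / μ < ⌊a / μ⌋ + 1 := Int.lt_floor_add_one _
    have h2 : (⌊b / μ⌋ : ℝ) ≤ b / μ := Int.floor_le _
    have h0 : 2 * (Q : ℝ) + 1 ≤ a / μ - b / μ := by
      rw [← sub_div, le_div_iff₀ hμ]
      linarith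
    have h3 : ((2 * (Q : ℤ) : ℤ) : ℝ) < ((⌊a / μ⌋ - ⌊b / μ⌋ : ℤ) : ℝ) := by
      push_cast
      linarith
    have h4 : (2 * (Q : ℤ) : ℤ) < ⌊a / μ⌋ - ⌊b / μ⌋ := by exact_mod_cast h3
    omega
  rcases le_total 0 (u - v) with h0 | h0
  · rw [abs_of_nonneg h0] at h
    exact le_trans (key u v h) (le_abs_self _)
  · rw [abs_of_nonpos h0] at h
    have := key v u (by linarith)
    calc _ ≤ ⌊v / μ⌋ - ⌊u / μ⌋ := this
      _ = -(⌊u / μ⌋ - ⌊v / μ⌋) := by ring
      _ ≤ _ := neg_le_abs _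

open scoped Classical in
/-- Discretised separated families are small: the centred form at general mesh `μ`. -/
theorem sep_family_bound_centred {K L : Set E} (hKc : Convex ℝ K) (hKs : ∀ x ∈ K, -x ∈ K)
    (h0 : (0 : E) ∈ K) (hLs : ∀ x ∈ L, -x ∈ L)
    (t : Finset E) (hcov : K ⊆ ⋃ c ∈ t, (fun b => c + b) '' L)
    (D : Finset E) (hD : ∀ p ∈ D, p ∈ K) (hDne : D.Nonempty) (Q : ℕ) (γ : ℝ)
    (hγ0 : 0 < γ) (hγ1 : γ ≤ 1) (hγ : γ ^ Q * Real.log (4 * (D.card : ℕ)) < Real.log 2)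
    (μ : ℝ) (hμ : 8 ≤ μ) (c : E) (r : ℕ) (d : ℕ)
    (hd : ∀ k : ℕ, (μ / 4) ^ k ≤ (t.card : ℝ) → k ≤ D.card → k ≤ d)
    (A : Finset E) (hA : A.Nonempty) (hAL : ∀ y ∈ A, y ∈ polarBody L)
    (hAr : ∀ y ∈ A, ∀ p ∈ D, |inner ℝ p y - inner ℝ p c| ≤ r * μ)
    (hsep : SepOn D (μ * (2 * (Q : ℝ) + 1)) A) :
    (A.card : ℝ) ^ γ ≤ (((D.card * (2 * r + 1) + 1 : ℕ) : ℝ)) ^ d := by
  classical
  have hμpos : 0 < μ := by linarith
  set disc : E → D → ℤ := fun y p => ⌊(inner ℝ (p : E) y - inner ℝ (p : E) c) / μ⌋ with hdisc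
  set fam : Finset (D → ℤ) := A.image disc with hfam
  have hcardX : Fintype.card D = D.card := Fintype.card_coe D
  have hfamne : fam.Nonempty := hA.image _
  have hdiff : ∀ (p : E) (y y' : E), (inner ℝ p y - inner ℝ p c) - (inner ℝ p y' - inner ℝ p c)
      = inner ℝ p y - inner ℝ p y' := by
    intro p y y'
    ring
  have hsep' : ∀ f ∈ fam, ∀ g ∈ fam, f ≠ g → ∃ x, (2 * (Q : ℤ) + 1) ≤ |f x - g x| := by
    intro f hf g hg hfg
    obtain ⟨y, hy, rfl⟩ := Finset.mem_image.mp hf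
    obtain ⟨y', hy', rfl⟩ := Finset.mem_image.mp hg
    have hne : y ≠ y' := fun h => hfg (by rw [h])
    obtain ⟨p, hp, hpsep⟩ := hsep y hy y' hy' hne
    refine ⟨⟨p, hp⟩, floor_sep' hμpos ?_⟩
    rw [hdiff]
    exact hpsep
  have hinj : Set.InjOn disc (A : Set E) := by
    intro y hy y' hy' heq
    by_contra hne
    obtain ⟨p, hp, hpsep⟩ := hsep y hy y' hy' hne
    have h1 : (2 * (Q : ℤ) + 1) ≤
        |⌊(inner ℝ p y - inner ℝ p c) / μ⌋ - ⌊(inner ℝ p y' - inner ℝ p c) / μ⌋| :=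
      floor_sep' hμpos (by rw [hdiff]; exact hpsep)
    have h2 : disc y ⟨p, hp⟩ = disc y' ⟨p, hp⟩ := by rw [heq]
    simp only [hdisc] at h2
    rw [h2] at h1
    simp at h1
    have hQ : (0 : ℤ) ≤ Q := by positivity
    omega
  have hfamcard : fam.card = A.card := Finset.card_image_of_injOn hinj
  have hrange : ∀ f ∈ fam, ∀ x, -(r : ℤ) ≤ f x ∧ f x ≤ r := by
    intro f hf x
    obtain ⟨y, hy, rfl⟩ := Finset.mem_image.mp hf
    have h1 := hAr y hy x.1 x.2
    rw [abs_le] at h1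
    have hrnn : (0 : ℝ) ≤ r := by positivity
    constructor
    · apply Int.le_floor.mpr
      push_cast
      rw [le_div_iff₀ hμpos]
      linarith [h1.1]
    · have h2 := Int.floor_le ((inner ℝ (x : E) y - inner ℝ (x : E) c) / μ)
      have h3 : ((⌊(inner ℝ (x : E) y - inner ℝ (x : E) c) / μ⌋ : ℤ) : ℝ) ≤ r := by
        refine le_trans h2 ?_
        rw [div_le_iff₀ hμpos]
        exact h1.2
      show ⌊(inner ℝ (x : E) y - inner ℝ (x : E) c) / μ⌋ ≤ (r : ℤ)
      exact_mod_cast h3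
  set U : Finset (D × ℤ) := (Finset.univ : Finset D) ×ˢ Finset.Icc (-(r : ℤ)) r with hU
  have hUmem : ∀ x w, -(r : ℤ) ≤ w → w ≤ r → (x, w) ∈ U := by
    intro x w h1 h2
    exact Finset.mem_product.mpr ⟨Finset.mem_univ _, Finset.mem_Icc.mpr ⟨h1, h2⟩⟩
  have hUcard : U.card = D.card * (2 * r + 1) := by
    rw [hU, Finset.card_product, Finset.card_univ, hcardX, Int.card_Icc]
    congr 1
    omega
  have hn : 1 ≤ Fintype.card D := by
    rw [hcardX]
    exact hDne.card_pos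
  have hγ' : γ ^ Q * Real.log (4 * (Fintype.card D : ℕ)) < Real.log 2 := by
    rw [hcardX]
    exact hγ
  have hmain := card_rpow_le_shatCount (X := D) Q γ hn hγ0 hγ1 hγ' (-(r : ℤ)) r U hUmem fam hfamne
    hrange hsep'
  rw [hfamcard] at hmain
  refine le_trans hmain ?_
  have hsmall : ∀ G ∈ U.powerset, Shat fam G → G.card ≤ d := by
    intro G _ hG
    have hGD : G.card ≤ D.card := by
      have := Shat.card_le hG
      rwa [hcardX] at this
    apply hd G.card _ hGD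
    have hshat : ∀ S : Finset G, ∃ z : E, (∀ l ∈ L, ∀ l' ∈ L, inner ℝ (l - l') z ≤ 2) ∧
        (∀ i ∈ S, (μ / 2) ≤ inner ℝ ((i.1.1 : D) : E) z) ∧
        (∀ i, i ∉ S → inner ℝ ((i.1.1 : D) : E) z ≤ -(μ / 2)) := by
      intro S
      set SS : Finset (D × ℤ) := S.map (Function.Embedding.subtype _) with hSS
      have hSSsub : SS ⊆ G := by
        intro p hp
        obtain ⟨i, _, rfl⟩ := Finset.mem_map.mp hp
        exact i.2
      have hmemSS : ∀ i : G, i.1 ∈ SS ↔ i ∈ S := by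
        intro i
        rw [hSS, Finset.mem_map]
        constructor
        · rintro ⟨j, hj, hji⟩
          have : j = i := Subtype.ext hji
          rwa [← this]
        · intro h
          exact ⟨i, h, rfl⟩
      obtain ⟨f1, hf1, h11, h12⟩ := hG SS hSSsub
      obtain ⟨f2, hf2, h21, h22⟩ := hG (G.filter (fun p => p ∉ SS)) (Finset.filter_subset _ _)
      obtain ⟨y1, hy1, rfl⟩ := Finset.mem_image.mp hf1
      obtain ⟨y2, hy2, rfl⟩ := Finset.mem_image.mp hf2
      have hy1L := hAL y1 hy1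
      have hy2L := hAL y2 hy2
      refine ⟨(1 / 2 : ℝ) • (y1 - y2), ?_, ?_, ?_⟩
      · intro l hl l' hl'
        have h1 := abs_inner_le_one_of_mem_polar hLs hl hy1L
        have h2 := abs_inner_le_one_of_mem_polar hLs hl hy2L
        have h3 := abs_inner_le_one_of_mem_polar hLs hl' hy1L
        have h4 := abs_inner_le_one_of_mem_polar hLs hl' hy2L
        rw [abs_le] at h1 h2 h3 h4
        rw [real_inner_smul_right, inner_sub_right, inner_sub_left, inner_sub_left]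
        linarith [h1.1, h1.2, h2.1, h2.2, h3.1, h3.2, h4.1, h4.2]
      · intro i hi
        have hiS := (hmemSS i).mpr hi
        have h1 := h11 i.1 hiS
        have h2 : disc y2 i.1.1 ≤ i.1.2 - 1 := by
          apply h22 i.1 i.2
          intro h
          exact (Finset.mem_filter.mp h).2 hiS
        simp only [hdisc] at h1 h2
        have h3 : ((i.1.2 + 1 : ℤ) : ℝ) ≤ (inner ℝ (i.1.1 : E) y1 - inner ℝ (i.1.1 : E) c) / μ :=
          Int.le_floor.mp h1
        have h4 : (inner ℝ (i.1.1 : E) y2 - inner ℝ (i.1.1 : E) c) / μ < ((i.1.2 - 1 + 1 : ℤ) : ℝ) :=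
          Int.floor_lt.mp (by omega)
        push_cast at h3 h4
        rw [le_div_iff₀ hμpos] at h3
        rw [div_lt_iff₀ hμpos] at h4
        rw [real_inner_smul_right, inner_sub_right]
        nlinarith
      · intro i hi
        have hiS : i.1 ∉ SS := fun h => hi ((hmemSS i).mp h)
        have h1 : disc y1 i.1.1 ≤ i.1.2 - 1 := h12 i.1 i.2 hiS
        have h2 : i.1.2 + 1 ≤ disc y2 i.1.1 := h21 i.1 (Finset.mem_filter.mpr ⟨i.2, hiS⟩)
        simp only [hdisc] at h1 h2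
        have h3 : ((i.1.2 + 1 : ℤ) : ℝ) ≤ (inner ℝ (i.1.1 : E) y2 - inner ℝ (i.1.1 : E) c) / μ :=
          Int.le_floor.mp h2
        have h4 : (inner ℝ (i.1.1 : E) y1 - inner ℝ (i.1.1 : E) c) / μ < ((i.1.2 - 1 + 1 : ℤ) : ℝ) :=
          Int.floor_lt.mp (by omega)
        push_cast at h3 h4
        rw [le_div_iff₀ hμpos] at h3
        rw [div_lt_iff₀ hμpos] at h4
        rw [real_inner_smul_right, inner_sub_right]
        nlinarith
    have := pow_le_card_of_shatter hKc hKs h0 t hcov (ι := G)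
      (fun i => ((i.1.1 : D) : E)) (fun i => hD _ i.1.1.2) (μ / 2) (by positivity) hshat
    rw [Fintype.card_coe] at this
    have e : μ / 2 / 2 = μ / 4 := by ring
    rwa [e] at this
  have hcount : shatCount U fam ≤ (U.card + 1) ^ d := by
    refine le_trans ?_ (card_small_subsets_le U d)
    apply Finset.card_le_card
    intro G hG
    have hG' := Finset.mem_filter.mp hG
    exact Finset.mem_filter.mpr ⟨hG'.1, hsmall G hG'.1 hG'.2⟩
  rw [hUcard] at hcount
  exact_mod_cast hcount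

theorem exists_max_card {P : Finset E → Prop} (h0 : P ∅) (B : ℕ) (hB : ∀ A, P A → A.card ≤ B) :
    ∃ A, P A ∧ ∀ A', P A' → A'.card ≤ A.card := by
  have hSnonempty : ({k : ℕ | ∃ A : Finset E, P A ∧ A.card = k}).Nonempty := ⟨0, ∅, h0, rfl⟩
  have hSbdd : BddAbove ({k : ℕ | ∃ A : Finset E, P A ∧ A.card = k}) := by
    refine ⟨B, ?_⟩
    rintro k ⟨A, hA, rfl⟩
    exact hB A hA
  obtain ⟨A, hA, hAcard⟩ := Nat.sSup_mem hSnonempty hSbdd
  refine ⟨A, hA, ?_⟩
  intro A' hA'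
  rw [hAcard]
  exact le_csSup hSbdd ⟨A', hA', rfl⟩

/-- One step of the chain: a ball on `D` is covered by few balls of the next finer radius. -/
theorem level_cover {K L : Set E} (hKc : Convex ℝ K) (hKs : ∀ x ∈ K, -x ∈ K)
    (h0 : (0 : E) ∈ K) (hLs : ∀ x ∈ L, -x ∈ L)
    (t : Finset E) (hcov : K ⊆ ⋃ c ∈ t, (fun b => c + b) '' L)
    (D : Finset E) (hD : ∀ p ∈ D, p ∈ K) (hDne : D.Nonempty) (Q : ℕ) (γ : ℝ)
    (hγ0 : 0 < γ) (hγ1 : γ ≤ 1) (hγ : γ ^ Q * Real.log (4 * (D.card : ℕ)) < Real.log 2)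
    (μ : ℝ) (hμ : 8 ≤ μ) (c : E) (r : ℕ) (d : ℕ)
    (hd : ∀ k : ℕ, (μ / 4) ^ k ≤ (t.card : ℝ) → k ≤ D.card → k ≤ d)
    (R : ℝ) (hR : R ≤ r * μ) :
    ∃ A : Finset E, (∀ y ∈ A, y ∈ polarBody L) ∧
      (∀ y ∈ polarBody L, (∀ p ∈ D, |inner ℝ p y - inner ℝ p c| < R) →
        ∃ y' ∈ A, ∀ p ∈ D, |inner ℝ p y - inner ℝ p y'| < μ * (2 * (Q : ℝ) + 1)) ∧
      (A.Nonempty → (A.card : ℝ) ^ γ ≤ (((D.card * (2 * r + 1) + 1 : ℕ) : ℝ)) ^ d) := by
  classical
  set P : Finset E → Prop := fun A => (∀ y ∈ A, y ∈ polarBody L) ∧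
    (∀ y ∈ A, ∀ p ∈ D, |inner ℝ p y - inner ℝ p c| < R) ∧
    SepOn D (μ * (2 * (Q : ℝ) + 1)) A with hP
  have hbound : ∀ A, P A → A.Nonempty →
      (A.card : ℝ) ^ γ ≤ (((D.card * (2 * r + 1) + 1 : ℕ) : ℝ)) ^ d := by
    intro A hA hAne
    exact sep_family_bound_centred hKc hKs h0 hLs t hcov D hD hDne Q γ hγ0 hγ1 hγ μ hμ c r d hd A hAne
      hA.1 (fun y hy p hp => le_trans (le_of_lt (hA.2.1 y hy p hp)) hR) hA.2.2
  obtain ⟨B, hB⟩ : ∃ B : ℕ, ∀ A, P A → A.card ≤ B := by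
    set Y : ℝ := (((D.card * (2 * r + 1) + 1 : ℕ) : ℝ)) ^ d with hY
    refine ⟨⌈Y ^ γ⁻¹⌉₊, ?_⟩
    intro A hA
    by_cases hAne : A.Nonempty
    · have h1 := hbound A hA hAne
      have h2 : (A.card : ℝ) ≤ Y ^ γ⁻¹ := by
        have hcardnn : (0 : ℝ) ≤ A.card := by positivity
        have := Real.rpow_le_rpow (Real.rpow_nonneg hcardnn _) h1 (inv_nonneg.mpr hγ0.le)
        rwa [← Real.rpow_mul hcardnn, mul_inv_cancel₀ hγ0.ne', Real.rpow_one] at this
      have h3 : (A.card : ℝ) ≤ (⌈Y ^ γ⁻¹⌉₊ : ℝ) := le_trans h2 (Nat.le_ceil _)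
      exact_mod_cast h3
    · rw [Finset.not_nonempty_iff_eq_empty.mp hAne]
      simp
  have hP0 : P ∅ := ⟨by simp, by simp, by simp [SepOn]⟩
  obtain ⟨A, hA, hAmax⟩ := exists_max_card hP0 B hB
  refine ⟨A, hA.1, ?_, hbound A hA⟩
  intro y hy hyc
  by_cases hyA : y ∈ A
  · refine ⟨y, hyA, ?_⟩
    intro p _
    simp only [sub_self, abs_zero]
    have hμpos : 0 < μ := by linarith
    positivity
  · have hnot : ¬ P (insert y A) := by
      intro h
      have := hAmax _ h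
      rw [Finset.card_insert_of_notMem hyA] at this
      omega
    by_contra hcon
    push Not at hcon
    apply hnot
    refine ⟨?_, ?_, ?_⟩
    · intro z hz
      rcases Finset.mem_insert.mp hz with h1 | h1
      · rw [h1]; exact hy
      · exact hA.1 z h1
    · intro z hz
      rcases Finset.mem_insert.mp hz with h1 | h1
      · rw [h1]; exact hyc
      · exact hA.2.1 z h1
    · intro z hz z' hz' hne
      rcases Finset.mem_insert.mp hz with h1 | h1
      · rcases Finset.mem_insert.mp hz' with h2 | h2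
        · exact absurd (h1.trans h2.symm) hne
        · rw [h1]; exact hcon z' h2
      · rcases Finset.mem_insert.mp hz' with h2 | h2
        · obtain ⟨p, hp, hpe⟩ := hcon z h1
          refine ⟨p, hp, ?_⟩
          rw [h2, abs_sub_comm]; exact hpe
        · exact hA.2.2 z h1 z' h2 hne

/-- The mesh at level `i`. -/
noncomputable def mesh (i : ℕ) : ℝ := (8 : ℝ) ^ (2 ^ i)

theorem mesh_succ (i : ℕ) : mesh (i + 1) = mesh i * mesh i := by
  unfold mesh
  rw [pow_succ 2 i, pow_mul, sq]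

theorem eight_le_mesh (i : ℕ) : 8 ≤ mesh i := by
  unfold mesh
  calc (8 : ℝ) = 8 ^ 1 := by norm_num
    _ ≤ 8 ^ (2 ^ i) := pow_le_pow_right₀ (by norm_num) Nat.one_le_two_pow

/-- A real bound on the logarithm of the cardinality from the power bound. -/
theorem log_card_le_of_rpow {A Y d : ℕ} {γ : ℝ} (hγ0 : 0 < γ) (hY : 1 ≤ Y)
    (h : (A : ℝ) ^ γ ≤ (Y : ℝ) ^ d) : Real.log A ≤ γ⁻¹ * (d * Real.log Y) := by
  rcases Nat.eq_zero_or_pos A with h0 | h0
  · subst h0
    simp only [Nat.cast_zero, Real.log_zero]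
    have : 0 ≤ Real.log Y := Real.log_natCast_nonneg _
    positivity
  · have hAR : (0 : ℝ) < A := by exact_mod_cast h0
    have hlog := Real.log_le_log (Real.rpow_pos_of_pos hAR _) h
    rw [Real.log_rpow hAR, Real.log_pow] at hlog
    rw [← div_eq_inv_mul, le_div_iff₀ hγ0]
    linarith

/-- The chain of coverings down to the finest level. -/
theorem chain_cover {K L : Set E} (hKc : Convex ℝ K) (hKs : ∀ x ∈ K, -x ∈ K)
    (h0 : (0 : E) ∈ K) (hLs : ∀ x ∈ L, -x ∈ L)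
    (t : Finset E) (hcov : K ⊆ ⋃ c ∈ t, (fun b => c + b) '' L)
    (D : Finset E) (hD : ∀ p ∈ D, p ∈ K) (hDne : D.Nonempty) (Q : ℕ) (γ : ℝ)
    (hγ0 : 0 < γ) (hγ1 : γ ≤ 1) (hγ : γ ^ Q * Real.log (4 * (D.card : ℕ)) < Real.log 2)
    (d : ℕ → ℕ)
    (hd : ∀ i k : ℕ, (mesh i / 4) ^ k ≤ (t.card : ℝ) → k ≤ D.card → k ≤ d i)
    (J : ℕ) (hJ : (t.card : ℝ) < mesh J) :
    ∀ j i : ℕ, i + j = J → ∃ C : Finset E, C.Nonempty ∧ (∀ c ∈ C, c ∈ polarBody L) ∧
      (∀ y ∈ polarBody L, ∃ c ∈ C, ∀ p ∈ D,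
        |inner ℝ p y - inner ℝ p c| < mesh i * (2 * (Q : ℝ) + 1)) ∧
      Real.log C.card ≤ ∑ k ∈ Finset.Ico i J, γ⁻¹ * ((d k : ℝ) *
        Real.log ((D.card * (2 * ((2 * Q + 1) * 8 ^ (2 ^ k)) + 1) + 1 : ℕ) : ℝ)) := by
  classical
  intro j
  induction j with
  | zero =>
    intro i hi
    have hiJ : i = J := by omega
    subst hiJ
    refine ⟨{0}, by simp, ?_, ?_, ?_⟩
    · intro c hc
      rw [Finset.mem_singleton] at hc
      subst hc
      intro x _
      simp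
    · intro y hy
      refine ⟨0, by simp, ?_⟩
      intro p hp
      simp only [inner_zero_right, sub_zero]
      have h1 := abs_inner_le_card hKc hKs hLs t hcov (hD p hp) hy
      have h8 := eight_le_mesh i
      have : mesh i * 1 ≤ mesh i * (2 * (Q : ℝ) + 1) := by
        apply mul_le_mul_of_nonneg_left _ (by linarith)
        have : (0 : ℝ) ≤ Q := by positivity
        linarith
      linarith
    · simp
  | succ j ih =>
    intro i hi
    obtain ⟨C, hCne, hCL, hCcov, hClog⟩ := ih (i + 1) (by omega)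
    have hiJ : i < J := by omega
    set r : ℕ := (2 * Q + 1) * 8 ^ (2 ^ i) with hr
    have hrcast : ((r : ℕ) : ℝ) = (2 * (Q : ℝ) + 1) * mesh i := by
      rw [hr]
      unfold mesh
      push_cast
      ring
    have hRle : mesh (i + 1) * (2 * (Q : ℝ) + 1) ≤ r * mesh i := by
      rw [hrcast, mesh_succ]
      apply le_of_eq
      ring
    choose A hAL hAcov hAcard using fun c : E =>
      level_cover hKc hKs h0 hLs t hcov D hD hDne Q γ hγ0 hγ1 hγ (mesh i) (eight_le_mesh i) c r (d i)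
        (hd i) _ hRle
    set C' := C.biUnion A with hC'
    set B : ℝ := γ⁻¹ * ((d i : ℝ) *
        Real.log ((D.card * (2 * r + 1) + 1 : ℕ) : ℝ)) with hB
    have hAlog : ∀ c, Real.log (A c).card ≤ B := by
      intro c
      by_cases hne : (A c).Nonempty
      · exact log_card_le_of_rpow hγ0 (by omega) (hAcard c hne)
      · rw [Finset.not_nonempty_iff_eq_empty.mp hne]
        simp only [Finset.card_empty, Nat.cast_zero, Real.log_zero]
        have : 0 ≤ Real.log ((D.card * (2 * r + 1) + 1 : ℕ) : ℝ) := Real.log_natCast_nonneg _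
        rw [hB]
        positivity
    have hBnn : 0 ≤ B := by
      have : 0 ≤ Real.log ((D.card * (2 * r + 1) + 1 : ℕ) : ℝ) := Real.log_natCast_nonneg _
      rw [hB]
      positivity
    have hAcardle : ∀ c, ((A c).card : ℝ) ≤ Real.exp B := by
      intro c
      by_cases hne : (A c).Nonempty
      · have hpos : (0 : ℝ) < (A c).card := by exact_mod_cast hne.card_pos
        have := Real.exp_le_exp.mpr (hAlog c)
        rwa [Real.exp_log hpos] at this
      · rw [Finset.not_nonempty_iff_eq_empty.mp hne]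
        simp only [Finset.card_empty, Nat.cast_zero]
        exact (Real.exp_pos _).le
    have hC'card : (C'.card : ℝ) ≤ C.card * Real.exp B := by
      have h1 : C'.card ≤ ∑ c ∈ C, (A c).card := Finset.card_biUnion_le
      have h2 : (C'.card : ℝ) ≤ ∑ c ∈ C, ((A c).card : ℝ) := by exact_mod_cast h1
      refine le_trans h2 ?_
      calc ∑ c ∈ C, ((A c).card : ℝ) ≤ ∑ _c ∈ C, Real.exp B :=
            Finset.sum_le_sum (fun c _ => hAcardle c)
        _ = C.card * Real.exp B := by rw [Finset.sum_const, nsmul_eq_mul]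
    have hcover : ∀ y ∈ polarBody L, ∃ c ∈ C', ∀ p ∈ D,
        |inner ℝ p y - inner ℝ p c| < mesh i * (2 * (Q : ℝ) + 1) := by
      intro y hy
      obtain ⟨c, hc, hcy⟩ := hCcov y hy
      obtain ⟨y', hy', hyy'⟩ := hAcov c y hy hcy
      exact ⟨y', Finset.mem_biUnion.mpr ⟨c, hc, hy'⟩, hyy'⟩
    have hC'ne : C'.Nonempty := by
      obtain ⟨y', hy', _⟩ := hcover 0 (by intro x _; simp)
      exact ⟨y', hy'⟩
    refine ⟨C', hC'ne, ?_, hcover, ?_⟩
    · intro c hc
      obtain ⟨c0, _, hc0⟩ := Finset.mem_biUnion.mp hc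
      exact hAL c0 c hc0
    · have hCpos : (0 : ℝ) < C.card := by exact_mod_cast hCne.card_pos
      have hC'pos : (0 : ℝ) < C'.card := by exact_mod_cast hC'ne.card_pos
      have h1 : Real.log C'.card ≤ Real.log C.card + B := by
        have := Real.log_le_log hC'pos hC'card
        rwa [Real.log_mul hCpos.ne' (Real.exp_pos _).ne', Real.log_exp] at this
      have hsum : ∑ k ∈ Finset.Ico i J, γ⁻¹ * ((d k : ℝ) *
          Real.log ((D.card * (2 * ((2 * Q + 1) * 8 ^ (2 ^ k)) + 1) + 1 : ℕ) : ℝ))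
          = B + ∑ k ∈ Finset.Ico (i + 1) J, γ⁻¹ * ((d k : ℝ) *
          Real.log ((D.card * (2 * ((2 * Q + 1) * 8 ^ (2 ^ k)) + 1) + 1 : ℕ) : ℝ)) := by
        rw [Finset.sum_eq_sum_Ico_succ_bot hiJ]
      rw [hsum]
      linarith

end Vale.Agent.Lib.P126
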