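import Mathlib
import Vale.Agent.Lib.P126.Chain

/-!
Numerics of the chain and the polylogarithmic duality theorem.
-/

open scoped Pointwise

namespace Vale.Agent.Lib.P126

theorem sum_min_geom (K J : ℕ) :
    ∑ j ∈ Finset.range J, min (1 : ℝ) ((2 : ℝ) ^ K * (1 / 2) ^ j) ≤ K + 2 := by
  by_cases h : J ≤ K
  · calc ∑ j ∈ Finset.range J, min (1 : ℝ) ((2 : ℝ) ^ K * (1 / 2) ^ j)
        ≤ ∑ _j ∈ Finset.range J, (1 : ℝ) := Finset.sum_le_sum (fun j _ => min_le_left _ _)
      _ = J := by simp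
      _ ≤ K := by exact_mod_cast h
      _ ≤ K + 2 := by linarith
  · obtain ⟨J', rfl⟩ : ∃ J', J = K + J' := ⟨J - K, by omega⟩
    rw [Finset.sum_range_add]
    have h1 : ∑ j ∈ Finset.range K, min (1 : ℝ) ((2 : ℝ) ^ K * (1 / 2) ^ j) ≤ K := by
      calc ∑ j ∈ Finset.range K, min (1 : ℝ) ((2 : ℝ) ^ K * (1 / 2) ^ j)
          ≤ ∑ _j ∈ Finset.range K, (1 : ℝ) := Finset.sum_le_sum (fun j _ => min_le_left _ _)
        _ = K := by simp
    have h2 : ∑ x ∈ Finset.range J', min (1 : ℝ) ((2 : ℝ) ^ K * (1 / 2) ^ (K + x)) ≤ 2 := by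
      calc ∑ x ∈ Finset.range J', min (1 : ℝ) ((2 : ℝ) ^ K * (1 / 2) ^ (K + x))
          ≤ ∑ x ∈ Finset.range J', (1 / 2 : ℝ) ^ x := by
            apply Finset.sum_le_sum
            intro x _
            refine le_trans (min_le_right _ _) (le_of_eq ?_)
            rw [pow_add, ← mul_assoc, ← mul_pow]
            norm_num
        _ ≤ 2 := sum_geometric_two_le _
    linarith

/-- The number of levels where the factor `m 2^k` is large is small. -/
theorem sum_min_mul (m ν J K : ℕ) (hmK : m ≤ 2 ^ K) (hJ : 1 ≤ J → 2 ^ (J - 1) ≤ ν) :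
    ∑ k ∈ Finset.range J, min ((m : ℝ) * 2 ^ k) (ν : ℝ) ≤ ν * (K + 2) := by
  classical
  rw [← Finset.sum_range_reflect]
  have hbound : ∀ j ∈ Finset.range J, min ((m : ℝ) * 2 ^ (J - 1 - j)) (ν : ℝ) ≤
      ν * min (1 : ℝ) ((2 : ℝ) ^ K * (1 / 2) ^ j) := by
    intro j hj
    have hjJ := Finset.mem_range.mp hj
    have hνnn : (0 : ℝ) ≤ ν := by positivity
    rw [mul_min_of_nonneg _ _ hνnn, mul_one]
    apply le_min (min_le_right _ _)
    refine le_trans (min_le_left _ _) ?_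
    have h1 : ((2 : ℝ) ^ (J - 1)) ≤ ν := by exact_mod_cast hJ (by omega)
    have h2 : (m : ℝ) ≤ 2 ^ K := by exact_mod_cast hmK
    have h3 : (2 : ℝ) ^ (J - 1 - j) * 2 ^ j = 2 ^ (J - 1) := by
      rw [← pow_add]
      congr 1
      omega
    have h4 : (2 : ℝ) ^ (J - 1 - j) = 2 ^ (J - 1) * (1 / 2) ^ j := by
      rw [← h3, mul_assoc, ← mul_pow]
      norm_num
    rw [h4]
    have h5 : (0 : ℝ) ≤ (1 / 2) ^ j := by positivity
    calc (m : ℝ) * (2 ^ (J - 1) * (1 / 2) ^ j) ≤ 2 ^ K * (ν * (1 / 2) ^ j) := by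
          apply mul_le_mul h2 _ (by positivity) (by positivity)
          exact mul_le_mul_of_nonneg_right h1 h5
      _ = ν * (2 ^ K * (1 / 2) ^ j) := by ring
  calc ∑ j ∈ Finset.range J, min ((m : ℝ) * 2 ^ (J - 1 - j)) (ν : ℝ)
      ≤ ∑ j ∈ Finset.range J, (ν : ℝ) * min (1 : ℝ) ((2 : ℝ) ^ K * (1 / 2) ^ j) :=
        Finset.sum_le_sum hbound
    _ = ν * ∑ j ∈ Finset.range J, min (1 : ℝ) ((2 : ℝ) ^ K * (1 / 2) ^ j) := by
        rw [Finset.mul_sum]
    _ ≤ ν * (K + 2) := mul_le_mul_of_nonneg_left (sum_min_geom K J) (by positivity)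

/-- The numerical sum of the chain. -/
theorem chain_sum_bound (m ν Q J : ℕ) (hm : 1 ≤ m) (hJ : 1 ≤ J → 2 ^ (J - 1) ≤ ν) :
    ∑ k ∈ Finset.range J, ((min m (ν / 2 ^ k) : ℕ) : ℝ) *
        Real.log ((m * (2 * ((2 * Q + 1) * 8 ^ (2 ^ k)) + 1) + 1 : ℕ) : ℝ) ≤
      ν * (2 * Real.log (4 * ((Q : ℝ) + 1) * m) + 3 * Real.log m + 9 * Real.log 2) := by
  set Λ := Real.log (4 * ((Q : ℝ) + 1) * m) with hΛ
  set ℓ := Real.log 2 with hℓ
  have hℓpos : 0 < ℓ := Real.log_pos (by norm_num)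
  have hmR : (1 : ℝ) ≤ m := by exact_mod_cast hm
  have hQR : (0 : ℝ) ≤ Q := by positivity
  have hΛnn : 0 ≤ Λ := by
    apply Real.log_nonneg
    nlinarith
  -- one term
  have hterm : ∀ k, ((min m (ν / 2 ^ k) : ℕ) : ℝ) *
        Real.log ((m * (2 * ((2 * Q + 1) * 8 ^ (2 ^ k)) + 1) + 1 : ℕ) : ℝ) ≤
      (ν : ℝ) * (1 / 2) ^ k * Λ + 3 * ℓ * min ((m : ℝ) * 2 ^ k) (ν : ℝ) := by
    intro k
    have hmesh : (8 : ℝ) ≤ (8 : ℝ) ^ (2 ^ k) := by
      calc (8 : ℝ) = 8 ^ 1 := by norm_num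
        _ ≤ 8 ^ (2 ^ k) := pow_le_pow_right₀ (by norm_num) Nat.one_le_two_pow
    have hY : (((m * (2 * ((2 * Q + 1) * 8 ^ (2 ^ k)) + 1) + 1 : ℕ) : ℝ)) ≤
        (4 * ((Q : ℝ) + 1) * m) * (8 : ℝ) ^ (2 ^ k) := by
      push_cast
      set μ := (8 : ℝ) ^ (2 ^ k) with hμ
      have h1 : (m : ℝ) * (2 * ((2 * (Q : ℝ) + 1) * μ) + 1) + 1 ≤ m * ((2 * (2 * (Q : ℝ) + 1) + 1) * μ) := by
        have : (m : ℝ) * 1 + 1 ≤ m * (1 * μ) := by nlinarith
        nlinarith
      have h2 : (m : ℝ) * ((2 * (2 * (Q : ℝ) + 1) + 1) * μ) ≤ 4 * ((Q : ℝ) + 1) * m * μ := by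
        have : 0 ≤ (m : ℝ) * μ := by positivity
        nlinarith
      linarith
    have hYpos : (0 : ℝ) < ((m * (2 * ((2 * Q + 1) * 8 ^ (2 ^ k)) + 1) + 1 : ℕ) : ℝ) := by positivity
    have hlogY : Real.log ((m * (2 * ((2 * Q + 1) * 8 ^ (2 ^ k)) + 1) + 1 : ℕ) : ℝ) ≤
        Λ + 3 * ℓ * 2 ^ k := by
      have h1 := Real.log_le_log hYpos hY
      rw [Real.log_mul (by positivity) (by positivity), Real.log_pow] at h1
      have h8 : Real.log 8 = 3 * ℓ := by
        rw [hℓ, show (8 : ℝ) = 2 ^ 3 by norm_num, Real.log_pow]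
        norm_num
      rw [h8, Nat.cast_pow, Nat.cast_ofNat] at h1
      linarith
    have hd1 : ((min m (ν / 2 ^ k) : ℕ) : ℝ) ≤ (ν : ℝ) * (1 / 2) ^ k := by
      have h1 : ((min m (ν / 2 ^ k) : ℕ) : ℝ) ≤ ((ν / 2 ^ k : ℕ) : ℝ) := by
        exact_mod_cast min_le_right _ _
      refine le_trans h1 (le_trans Nat.cast_div_le ?_)
      push_cast
      rw [one_div, inv_pow, div_eq_mul_inv]
    have hd2 : ((min m (ν / 2 ^ k) : ℕ) : ℝ) * 2 ^ k ≤ min ((m : ℝ) * 2 ^ k) (ν : ℝ) := by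
      apply le_min
      · apply mul_le_mul_of_nonneg_right _ (by positivity)
        exact_mod_cast min_le_left _ _
      · have h1 : (min m (ν / 2 ^ k)) * 2 ^ k ≤ ν :=
          le_trans (Nat.mul_le_mul_right _ (min_le_right _ _)) (Nat.div_mul_le_self _ _)
        exact_mod_cast h1
    have hdnn : (0 : ℝ) ≤ ((min m (ν / 2 ^ k) : ℕ) : ℝ) := by positivity
    calc ((min m (ν / 2 ^ k) : ℕ) : ℝ) *
          Real.log ((m * (2 * ((2 * Q + 1) * 8 ^ (2 ^ k)) + 1) + 1 : ℕ) : ℝ)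
        ≤ ((min m (ν / 2 ^ k) : ℕ) : ℝ) * (Λ + 3 * ℓ * 2 ^ k) :=
          mul_le_mul_of_nonneg_left hlogY hdnn
      _ = ((min m (ν / 2 ^ k) : ℕ) : ℝ) * Λ + 3 * ℓ * (((min m (ν / 2 ^ k) : ℕ) : ℝ) * 2 ^ k) := by ring
      _ ≤ (ν : ℝ) * (1 / 2) ^ k * Λ + 3 * ℓ * min ((m : ℝ) * 2 ^ k) (ν : ℝ) := by
          apply add_le_add
          · exact mul_le_mul_of_nonneg_right hd1 hΛnn
          · exact mul_le_mul_of_nonneg_left hd2 (by positivity)
  -- sum
  set K := Nat.clog 2 m with hK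
  have hmK : m ≤ 2 ^ K := Nat.le_pow_clog (by norm_num) m
  have hKlog : (K : ℝ) * ℓ ≤ Real.log m + ℓ := by
    rcases Nat.lt_or_ge 1 m with h1 | h1
    · have h2 : 2 ^ (K - 1) < m := by
        have := Nat.pow_pred_clog_lt_self (b := 2) (by norm_num) h1
        simpa using this
      have hKpos : 1 ≤ K := Nat.clog_pos (by norm_num) (by omega)
      have h3 : ((2 : ℝ) ^ (K - 1)) ≤ m := by exact_mod_cast h2.le
      have h4 := Real.log_le_log (by positivity) h3
      rw [Real.log_pow] at h4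
      have h5 : ((K - 1 : ℕ) : ℝ) = K - 1 := by
        rw [Nat.cast_sub hKpos]
        simp
      rw [h5] at h4
      linarith
    · have h2 : m = 1 := by omega
      subst h2
      simp [hK]
      positivity
  have hs1 : ∑ k ∈ Finset.range J, (ν : ℝ) * (1 / 2) ^ k * Λ ≤ 2 * ν * Λ := by
    rw [← Finset.sum_mul, ← Finset.mul_sum]
    have := sum_geometric_two_le J
    have hν : (0 : ℝ) ≤ ν := by positivity
    apply mul_le_mul_of_nonneg_right _ hΛnn
    nlinarith
  have hs2 := sum_min_mul m ν J K hmK hJ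
  have hνnn : (0 : ℝ) ≤ ν := by positivity
  calc ∑ k ∈ Finset.range J, ((min m (ν / 2 ^ k) : ℕ) : ℝ) *
        Real.log ((m * (2 * ((2 * Q + 1) * 8 ^ (2 ^ k)) + 1) + 1 : ℕ) : ℝ)
      ≤ ∑ k ∈ Finset.range J, ((ν : ℝ) * (1 / 2) ^ k * Λ + 3 * ℓ * min ((m : ℝ) * 2 ^ k) (ν : ℝ)) :=
        Finset.sum_le_sum (fun k _ => hterm k)
    _ = ∑ k ∈ Finset.range J, (ν : ℝ) * (1 / 2) ^ k * Λ +
          3 * ℓ * ∑ k ∈ Finset.range J, min ((m : ℝ) * 2 ^ k) (ν : ℝ) := by
        rw [Finset.sum_add_distrib, Finset.mul_sum]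
    _ ≤ 2 * ν * Λ + 3 * ℓ * (ν * (K + 2)) := by
        apply add_le_add hs1
        exact mul_le_mul_of_nonneg_left hs2 (by positivity)
    _ = ν * (2 * Λ + 3 * (K * ℓ) + 6 * ℓ) := by ring
    _ ≤ ν * (2 * Λ + 3 * Real.log m + 9 * ℓ) := by
        apply mul_le_mul_of_nonneg_left _ hνnn
        linarith

variable {E : Type*} [NormedAddCommGroup E] [InnerProductSpace ℝ E]

/-- Polylogarithmic duality with absolute scale. -/
theorem main_polylog {K L : Set E} (hK : IsSymBody K) (hL : IsSymBody L) {Q : ℕ} (hQ : 1 ≤ Q)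
    (D : Finset E) (hDK : ∀ p ∈ D, p ∈ K)
    (hDcov : K ⊆ convexHull ℝ ((D : Set E) ∪ -(D : Set E)) + (2 : ℝ) • L) :
    Real.log (covNum (polarBody L) ((16 * (Q : ℝ) + 12) • polarBody K)) ≤
      5 * (Real.logb 2 (8 * (D.card : ℝ))) ^ (1 / (Q : ℝ)) *
        Real.logb 2 (8 * ((Q : ℝ) + 1) * (D.card : ℝ)) * Real.log (covNum K L) := by
  classical
  obtain ⟨hKcomp, hKc, hKi, hKs⟩ := hK
  obtain ⟨hLcomp, hLc, hLi, hLs⟩ := hL
  have h0K : (0 : E) ∈ K := interior_subset (zero_mem_interior_of_sym hKc hKi hKs)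
  have h0L : (0 : E) ∈ interior L := zero_mem_interior_of_sym hLc hLi hLs
  obtain ⟨t, htcard, hcov⟩ := exists_cover_card_eq hKcomp h0L
  set M := covNum K L with hM
  have hMpos : 1 ≤ M := by
    have := hcov h0K
    simp only [Set.mem_iUnion] at this
    obtain ⟨c, hc, _⟩ := this
    rw [← htcard]
    exact Finset.card_pos.mpr ⟨c, hc⟩
  -- `D` is nonempty
  have hDne : D.Nonempty := by
    by_contra hne
    rw [Finset.not_nonempty_iff_eq_empty] at hne
    have := hDcov h0K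
    subst hne
    simp at this
  set m := D.card with hm
  have hm1 : 1 ≤ m := hDne.card_pos
  have hmR : (1 : ℝ) ≤ m := by exact_mod_cast hm1
  obtain ⟨hγ0, hγ1, hγ⟩ := gam_spec (M := m) (Q := Q) hm1 hQ
  set γ := gam m Q with hγdef
  have hγ' : γ ^ Q * Real.log (4 * (D.card : ℕ)) < Real.log 2 := hγ m hm1 le_rfl
  set ν := Nat.log 2 M with hν
  set d : ℕ → ℕ := fun i => min m (ν / 2 ^ i) with hd
  have hdspec : ∀ i k : ℕ, (mesh i / 4) ^ k ≤ (t.card : ℝ) → k ≤ D.card → k ≤ d i := by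
    intro i k h1 h2
    apply le_min h2
    rw [htcard] at h1
    have h3 : (2 : ℝ) ^ (2 ^ i) ≤ mesh i / 4 := by
      unfold mesh
      rw [show (8 : ℝ) = 2 ^ 3 by norm_num, ← pow_mul, le_div_iff₀ (by norm_num)]
      have h4 : (2 : ℝ) ^ (2 ^ i) * 4 = 2 ^ (2 ^ i + 2) := by
        rw [pow_add]
        norm_num
      rw [h4]
      apply pow_le_pow_right₀ (by norm_num)
      have : 1 ≤ 2 ^ i := Nat.one_le_two_pow
      omega
    have h4 : ((2 : ℝ) ^ (2 ^ i)) ^ k ≤ M :=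
      le_trans (pow_le_pow_left₀ (by positivity) h3 k) h1
    rw [← pow_mul] at h4
    have h5 : 2 ^ (2 ^ i * k) ≤ M := by exact_mod_cast h4
    have h6 : 2 ^ i * k ≤ ν := Nat.le_log_of_pow_le (by norm_num) h5
    rw [Nat.le_div_iff_mul_le (by positivity)]
    linarith
  -- number of levels
  set J := Nat.clog 2 (ν + 1) with hJdef
  have hJ : (t.card : ℝ) < mesh J := by
    rw [htcard]
    have h1 : M < 2 ^ (ν + 1) := Nat.lt_pow_succ_log_self (by norm_num) M
    have h2 : ν + 1 ≤ 2 ^ J := Nat.le_pow_clog (by norm_num) _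
    have h3 : (M : ℝ) < 2 ^ (ν + 1) := by exact_mod_cast h1
    have h4 : (2 : ℝ) ^ (ν + 1) ≤ mesh J := by
      unfold mesh
      rw [show (8 : ℝ) = 2 ^ 3 by norm_num, ← pow_mul]
      apply pow_le_pow_right₀ (by norm_num)
      omega
    linarith
  have hJν : 1 ≤ J → 2 ^ (J - 1) ≤ ν := by
    intro hJ1
    have hν1 : 1 < ν + 1 := by
      by_contra hcon
      have : ν = 0 := by omega
      have hJ0 : J = 0 := by
        rw [hJdef, this]
        simp
      omega
    have := Nat.pow_pred_clog_lt_self (b := 2) (by norm_num) hν1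
    have h2 : 2 ^ (J - 1) < ν + 1 := by simpa [hJdef] using this
    omega
  -- the chain
  obtain ⟨C, hCne, hCL, hCcov, hClog⟩ := chain_cover hKc hKs h0K hLs t hcov D hDK hDne Q γ hγ0 hγ1 hγ'
    d hdspec J hJ J 0 (by omega)
  -- the covering of the polar
  set a : ℝ := 16 * (Q : ℝ) + 12 with ha
  have hapos : 0 < a := by positivity
  have hcovP : polarBody L ⊆ ⋃ c ∈ C, (fun b => c + b) '' (a • polarBody K) := by
    intro y hy
    obtain ⟨c, hc, hcy⟩ := hCcov y hy
    simp only [Set.mem_iUnion]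
    refine ⟨c, hc, y - c, ?_, by simp⟩
    rw [Set.mem_smul_set]
    refine ⟨a⁻¹ • (y - c), ?_, ?_⟩
    · intro x hx
      have hmesh0 : mesh 0 = 8 := by simp [mesh]
      rw [hmesh0] at hcy
      obtain ⟨u, hu, v, hv, huv⟩ := Set.mem_add.mp (hDcov hx)
      obtain ⟨l, hl, hlv⟩ := Set.mem_smul_set.mp hv
      have hcL := hCL c hc
      have hU : u ∈ {w : E | inner ℝ w (y - c) ≤ 8 * (2 * (Q : ℝ) + 1)} := by
        have hconv : Convex ℝ {w : E | inner ℝ w (y - c) ≤ 8 * (2 * (Q : ℝ) + 1)} := by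
          intro w hw w' hw' α β hα hβ hαβ
          simp only [Set.mem_ofPred_eq] at hw hw' ⊢
          rw [inner_add_left, real_inner_smul_left, real_inner_smul_left]
          have h1 : α * inner ℝ w (y - c) ≤ α * (8 * (2 * (Q : ℝ) + 1)) :=
            mul_le_mul_of_nonneg_left hw hα
          have h2 : β * inner ℝ w' (y - c) ≤ β * (8 * (2 * (Q : ℝ) + 1)) :=
            mul_le_mul_of_nonneg_left hw' hβ
          calc _ ≤ α * (8 * (2 * (Q : ℝ) + 1)) + β * (8 * (2 * (Q : ℝ) + 1)) := add_le_add h1 h2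
            _ = (α + β) * (8 * (2 * (Q : ℝ) + 1)) := by ring
            _ = _ := by rw [hαβ, one_mul]
        refine convexHull_min ?_ hconv hu
        intro w hw
        simp only [Set.mem_ofPred_eq]
        rcases hw with hw | hw
        · have := abs_lt.mp (hcy w hw)
          rw [inner_sub_right]
          linarith [this.2]
        · have hw' : -w ∈ (D : Set E) := hw
          have := abs_lt.mp (hcy (-w) hw')
          rw [inner_neg_left, inner_neg_left] at this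
          rw [inner_sub_right]
          linarith [this.1]
      have hU' : inner ℝ u (y - c) ≤ 8 * (2 * (Q : ℝ) + 1) := hU
      have h1 := abs_inner_le_one_of_mem_polar hLs hl hy
      have h2 := abs_inner_le_one_of_mem_polar hLs hl hcL
      rw [abs_le] at h1 h2
      have h3 : inner ℝ l (y - c) = inner ℝ l y - inner ℝ l c := inner_sub_right _ _ _
      rw [real_inner_smul_right, inv_mul_le_iff₀ hapos, mul_one, ← huv, inner_add_left, ← hlv,
        real_inner_smul_left, h3]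
      rw [ha]
      linarith [h1.1, h1.2, h2.1, h2.2]
    · rw [smul_smul, mul_inv_cancel₀ hapos.ne', one_smul]
  set N := covNum (polarBody L) (a • polarBody K) with hN
  have hNle : N ≤ C.card := Nat.sInf_le ⟨C, rfl, hcovP⟩
  have hlogN : Real.log N ≤ Real.log C.card := by
    rcases Nat.eq_zero_or_pos N with h00 | hNpos
    · rw [h00]
      simp only [Nat.cast_zero, Real.log_zero]
      exact Real.log_natCast_nonneg _
    · apply Real.log_le_log (by exact_mod_cast hNpos)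
      exact_mod_cast hNle
  refine le_trans hlogN (le_trans hClog ?_)
  -- numerics
  have hsum := chain_sum_bound m ν Q J hm1 hJν
  have hlog2 : 0 < Real.log 2 := Real.log_pos (by norm_num)
  have hνs : (ν : ℝ) * Real.log 2 ≤ Real.log M := by
    have h1 : 2 ^ ν ≤ M := Nat.pow_log_le_self 2 (by omega)
    have h2 : ((2 : ℝ)) ^ ν ≤ M := by exact_mod_cast h1
    have h3 := Real.log_le_log (by positivity) h2
    rwa [Real.log_pow] at h3
  have hsnn : 0 ≤ Real.log M := Real.log_natCast_nonneg _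
  have hQR : (0 : ℝ) ≤ Q := by positivity
  have hQ1 : (1 : ℝ) ≤ (Q : ℝ) + 1 := by linarith
  have hlogm : 0 ≤ Real.log m := Real.log_nonneg hmR
  have hlogQ : 0 ≤ Real.log ((Q : ℝ) + 1) := Real.log_nonneg hQ1
  have hgaminv : γ⁻¹ = (Real.logb 2 (8 * (m : ℝ))) ^ (1 / (Q : ℝ)) := by
    have hbase : 0 < Real.log 2 / Real.log (8 * m) := by
      apply div_pos hlog2
      apply Real.log_pos
      linarith
    rw [hγdef]
    unfold gam
    rw [← Real.inv_rpow hbase.le, inv_div]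
    rfl
  -- rewrite the sum with `Ico 0 J = range J`
  have hsum' : ∑ k ∈ Finset.Ico 0 J, γ⁻¹ * ((d k : ℝ) *
        Real.log ((D.card * (2 * ((2 * Q + 1) * 8 ^ (2 ^ k)) + 1) + 1 : ℕ) : ℝ)) ≤
      γ⁻¹ * (ν * (2 * Real.log (4 * ((Q : ℝ) + 1) * m) + 3 * Real.log m + 9 * Real.log 2)) := by
    rw [← Finset.mul_sum]
    apply mul_le_mul_of_nonneg_left _ (inv_nonneg.mpr hγ0.le)
    rw [← Finset.range_eq_Ico]
    exact hsum
  refine le_trans hsum' ?_
  -- final algebra
  have hlog4 : Real.log (4 * ((Q : ℝ) + 1) * m) = 2 * Real.log 2 + Real.log ((Q : ℝ) + 1) + Real.log m := by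
    rw [Real.log_mul (by positivity) (by positivity), Real.log_mul (by norm_num) (by positivity)]
    rw [show (4 : ℝ) = 2 ^ 2 by norm_num, Real.log_pow]
    norm_num
  have hlogb : Real.logb 2 (8 * ((Q : ℝ) + 1) * (m : ℝ)) =
      (3 * Real.log 2 + Real.log ((Q : ℝ) + 1) + Real.log m) / Real.log 2 := by
    unfold Real.logb
    rw [Real.log_mul (by positivity) (by positivity), Real.log_mul (by norm_num) (by positivity)]
    rw [show (8 : ℝ) = 2 ^ 3 by norm_num, Real.log_pow]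
    norm_num
  set Γ := (Real.logb 2 (8 * (m : ℝ))) ^ (1 / (Q : ℝ)) with hΓ
  have hΓnn : 0 ≤ Γ := by
    rw [← hgaminv]
    exact (inv_pos.mpr hγ0).le
  rw [hgaminv, hlog4, hlogb]
  set ℓ := Real.log 2 with hℓ
  set A := Real.log ((Q : ℝ) + 1) with hA
  set B := Real.log m with hB
  set s := Real.log M with hs
  have hνle : (ν : ℝ) ≤ s / ℓ := by
    rw [le_div_iff₀ hlog2]
    exact hνs
  have hkey : (ν : ℝ) * (2 * (2 * ℓ + A + B) + 3 * B + 9 * ℓ) ≤
      5 * ((3 * ℓ + A + B) / ℓ) * s := by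
    have h1 : (0 : ℝ) ≤ 2 * (2 * ℓ + A + B) + 3 * B + 9 * ℓ := by positivity
    calc (ν : ℝ) * (2 * (2 * ℓ + A + B) + 3 * B + 9 * ℓ)
        ≤ s / ℓ * (2 * (2 * ℓ + A + B) + 3 * B + 9 * ℓ) := mul_le_mul_of_nonneg_right hνle h1
      _ ≤ s / ℓ * (5 * (3 * ℓ + A + B)) := by
          apply mul_le_mul_of_nonneg_left _ (by positivity)
          nlinarith
      _ = 5 * ((3 * ℓ + A + B) / ℓ) * s := by
          field_simp
  calc Γ * ((ν : ℝ) * (2 * (2 * ℓ + A + B) + 3 * B + 9 * ℓ))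
      ≤ Γ * (5 * ((3 * ℓ + A + B) / ℓ) * s) := mul_le_mul_of_nonneg_left hkey hΓnn
    _ = 5 * Γ * ((3 * ℓ + A + B) / ℓ) * s := by ring

/-- The dual inequality, from the bipolar theorem. -/
theorem main_polylog_dual [FiniteDimensional ℝ E] {K L : Set E} (hK : IsSymBody K) (hL : IsSymBody L)
    {Q : ℕ} (hQ : 1 ≤ Q) (D : Finset E) (hDL : ∀ p ∈ D, p ∈ polarBody L)
    (hDcov : polarBody L ⊆ convexHull ℝ ((D : Set E) ∪ -(D : Set E)) +
      (2 : ℝ) • ((16 * (Q : ℝ) + 12)⁻¹ • polarBody K)) :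
    Real.log (covNum K L) ≤
      5 * (Real.logb 2 (8 * (D.card : ℝ))) ^ (1 / (Q : ℝ)) *
        Real.logb 2 (8 * ((Q : ℝ) + 1) * (D.card : ℝ)) *
        Real.log (covNum (polarBody L) ((16 * (Q : ℝ) + 12)⁻¹ • polarBody K)) := by
  set a : ℝ := 16 * (Q : ℝ) + 12 with ha
  have hapos : 0 < a := by positivity
  have hK' : IsSymBody (polarBody L) := isSymBody_polar hL
  have hL' : IsSymBody (a⁻¹ • polarBody K) := isSymBody_smul (isSymBody_polar hK) (inv_pos.mpr hapos)
  have h := main_polylog hK' hL' hQ D hDL hDcov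
  have hbipK : polarBody (polarBody K) = K :=
    bipolar hK.1.isClosed hK.2.1 (interior_subset (zero_mem_interior_of_sym hK.2.1 hK.2.2.1 hK.2.2.2))
  have hbipL : polarBody (polarBody L) = L :=
    bipolar hL.1.isClosed hL.2.1 (interior_subset (zero_mem_interior_of_sym hL.2.1 hL.2.2.1 hL.2.2.2))
  have e1 : polarBody (a⁻¹ • polarBody K) = a • K := by
    rw [polar_smul _ (inv_pos.mpr hapos), inv_inv, hbipK]
  rw [e1, hbipL, covNum_smul K L hapos.ne'] at h
  exact h

/-- Polar of a finite symmetric generating set. -/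
theorem polar_polar_finset [FiniteDimensional ℝ E] (F : Finset E) (hF : F.Nonempty) :
    polarBody (polarBody ((F : Set E) ∪ -(F : Set E))) = convexHull ℝ ((F : Set E) ∪ -(F : Set E)) := by
  classical
  set S : Set E := (F : Set E) ∪ -(F : Set E) with hS
  have hfin : S.Finite := (F.finite_toSet).union (F.finite_toSet.neg)
  have hcomp : IsCompact (convexHull ℝ S) := hfin.isCompact_convexHull ℝ
  have hconv : Convex ℝ (convexHull ℝ S) := convex_convexHull ℝ S
  have h0 : (0 : E) ∈ convexHull ℝ S := by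
    obtain ⟨x, hx⟩ := hF
    have h1 : x ∈ convexHull ℝ S := subset_convexHull ℝ S (Or.inl hx)
    have h2 : -x ∈ convexHull ℝ S := subset_convexHull ℝ S (Or.inr (by simpa using hx))
    have := hconv.midpoint_mem h1 h2
    simpa using this
  have hpol : polarBody (convexHull ℝ S) = polarBody S := by
    ext y
    constructor
    · intro hy x hx
      exact hy x (subset_convexHull ℝ S hx)
    · intro hy
      have hcv : Convex ℝ {w : E | inner ℝ w y ≤ 1} := by
        intro w hw w' hw' α β hα hβ hαβ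
        simp only [Set.mem_ofPred_eq] at hw hw' ⊢
        rw [inner_add_left, real_inner_smul_left, real_inner_smul_left]
        nlinarith
      have hsub := convexHull_min (s := S) (fun x hx => hy x hx) hcv
      intro x hx
      exact hsub hx
  rw [← hpol]
  exact bipolar hcomp.isClosed hconv h0

/-- Symmetric polytopes: both inequalities. -/
theorem main_polytopes [FiniteDimensional ℝ E] {K L : Set E} (hK : IsSymBody K) (hL : IsSymBody L)
    {Q : ℕ} (hQ : 1 ≤ Q) (D F : Finset E) (hFne : F.Nonempty)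
    (hDK : K = convexHull ℝ ((D : Set E) ∪ -(D : Set E)))
    (hFL : L = polarBody ((F : Set E) ∪ -(F : Set E))) :
    Real.log (covNum (polarBody L) ((16 * (Q : ℝ) + 12) • polarBody K)) ≤
      5 * (Real.logb 2 (8 * (D.card : ℝ))) ^ (1 / (Q : ℝ)) *
        Real.logb 2 (8 * ((Q : ℝ) + 1) * (D.card : ℝ)) * Real.log (covNum K L) ∧
    Real.log (covNum K L) ≤
      5 * (Real.logb 2 (8 * (F.card : ℝ))) ^ (1 / (Q : ℝ)) *
        Real.logb 2 (8 * ((Q : ℝ) + 1) * (F.card : ℝ)) *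
        Real.log (covNum (polarBody L) ((16 * (Q : ℝ) + 12)⁻¹ • polarBody K)) := by
  have hapos : 0 < 16 * (Q : ℝ) + 12 := by positivity
  have h0L : (0 : E) ∈ L := interior_subset (zero_mem_interior_of_sym hL.2.1 hL.2.2.1 hL.2.2.2)
  have hPK : IsSymBody (polarBody K) := isSymBody_polar hK
  have h0PK : (0 : E) ∈ polarBody K :=
    interior_subset (zero_mem_interior_of_sym hPK.2.1 hPK.2.2.1 hPK.2.2.2)
  constructor
  · apply main_polylog hK hL hQ D
    · intro p hp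
      rw [hDK]
      exact subset_convexHull ℝ _ (Or.inl hp)
    · rw [← hDK]
      intro x hx
      refine Set.mem_add.mpr ⟨x, ?_, 0, ?_, by simp⟩
      · exact hx
      · exact ⟨0, h0L, by simp⟩
  · have hPL : polarBody L = convexHull ℝ ((F : Set E) ∪ -(F : Set E)) := by
      rw [hFL]
      exact polar_polar_finset F hFne
    apply main_polylog_dual hK hL hQ F
    · intro p hp
      rw [hPL]
      exact subset_convexHull ℝ _ (Or.inl hp)
    · rw [← hPL]
      intro x hx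
      refine Set.mem_add.mpr ⟨x, ?_, 0, ?_, by simp⟩
      · exact hx
      · refine ⟨0, ?_, by simp⟩
        exact ⟨0, h0PK, by simp⟩

end Vale.Agent.Lib.P126
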