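import Mathlib

/-!
The binary tree of a family of sets, and the information carried by each coordinate along
the path of a given member of the family.
-/

open Finset

namespace Vale.Agent.Lib.P126.U

variable {ι : Type*} [DecidableEq ι]

/-- The members of `𝒟` that agree with `D` at the coordinate `c`. -/
def restr (𝒟 : Finset (Finset ι)) (c : ι) (D : Finset ι) : Finset (Finset ι) :=
  𝒟.filter (fun D' => c ∈ D' ↔ c ∈ D)

/-- Information gained at each coordinate along the path of `D`. -/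
noncomputable def surp : List ι → Finset (Finset ι) → Finset ι → ι → ℝ
  | [], _, _, _ => 0
  | c :: l, 𝒟, D, i =>
    (if i = c then Real.log ((𝒟.card : ℝ) / ((restr 𝒟 c D).card : ℝ)) else 0) +
      surp l (restr 𝒟 c D) D i

/-- All members of `𝒟` agree at the coordinates outside the list. -/
def Agree (l : List ι) (𝒟 : Finset (Finset ι)) : Prop :=
  ∀ D ∈ 𝒟, ∀ D' ∈ 𝒟, ∀ i, i ∉ l → (i ∈ D ↔ i ∈ D')

theorem mem_restr_self {𝒟 : Finset (Finset ι)} {D : Finset ι} (hD : D ∈ 𝒟) (c : ι) :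
    D ∈ restr 𝒟 c D := by
  simp [restr, hD]

theorem restr_subset (𝒟 : Finset (Finset ι)) (c : ι) (D : Finset ι) : restr 𝒟 c D ⊆ 𝒟 :=
  Finset.filter_subset _ _

theorem Agree.restr {l : List ι} {𝒟 : Finset (Finset ι)} {c : ι} (h : Agree (c :: l) 𝒟)
    (D : Finset ι) : Agree l (restr 𝒟 c D) := by
  intro D₁ h₁ D₂ h₂ i hi
  by_cases hic : i = c
  · subst hic
    have h3 := (Finset.mem_filter.mp h₁).2
    have h4 := (Finset.mem_filter.mp h₂).2
    rw [h3, h4]
  · exact h D₁ (Finset.mem_filter.mp h₁).1 D₂ (Finset.mem_filter.mp h₂).1 i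
      (by simp [hic, hi])

theorem surp_nonneg (l : List ι) (𝒟 : Finset (Finset ι)) (D : Finset ι) (hD : D ∈ 𝒟) (i : ι) :
    0 ≤ surp l 𝒟 D i := by
  induction l generalizing 𝒟 with
  | nil => simp [surp]
  | cons c l ih =>
    simp only [surp]
    apply add_nonneg
    · split_ifs
      · apply Real.log_nonneg
        have hpos : (0 : ℝ) < (U.restr 𝒟 c D).card := by
          exact_mod_cast Finset.card_pos.mpr ⟨D, mem_restr_self hD c⟩
        rw [one_le_div hpos]
        exact_mod_cast Finset.card_le_card (restr_subset 𝒟 c D)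
      · exact le_rfl
    · exact ih _ (mem_restr_self hD c)

variable [Fintype ι]

theorem sum_surp (l : List ι) (𝒟 : Finset (Finset ι)) (D : Finset ι) (hD : D ∈ 𝒟)
    (hl : Agree l 𝒟) : ∑ i, surp l 𝒟 D i = Real.log (𝒟.card : ℝ) := by
  induction l generalizing 𝒟 with
  | nil =>
    have h1 : 𝒟 = {D} := by
      ext D'
      simp only [Finset.mem_singleton]
      constructor
      · intro hD'
        ext i
        exact hl D' hD' D hD i (by simp)
      · rintro rfl
        exact hD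
    simp [surp, h1]
  | cons c l ih =>
    simp only [surp]
    rw [Finset.sum_add_distrib, Finset.sum_ite_eq' Finset.univ c, if_pos (Finset.mem_univ c),
      ih _ (mem_restr_self hD c) (hl.restr D)]
    have hpos : (0 : ℝ) < (U.restr 𝒟 c D).card := by
      exact_mod_cast Finset.card_pos.mpr ⟨D, mem_restr_self hD c⟩
    have hpos2 : (0 : ℝ) < 𝒟.card := by
      exact_mod_cast Finset.card_pos.mpr ⟨D, hD⟩
    rw [Real.log_div hpos2.ne' hpos.ne']
    ring

omit [Fintype ι] in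
/-- Splitting a family at a coordinate. -/
theorem restr_of_mem {𝒟 : Finset (Finset ι)} {c : ι} {D : Finset ι} (hc : c ∈ D) :
    restr 𝒟 c D = 𝒟.filter (fun D' => c ∈ D') := by
  simp [restr, hc]

omit [Fintype ι] in
theorem restr_of_not_mem {𝒟 : Finset (Finset ι)} {c : ι} {D : Finset ι} (hc : c ∉ D) :
    restr 𝒟 c D = 𝒟.filter (fun D' => c ∉ D') := by
  simp [restr, hc]

theorem sum_compl_surp_cons (c : ι) (l : List ι) (𝒟 : Finset (Finset ι)) (D Z : Finset ι) :
    ∑ i ∈ Zᶜ, surp (c :: l) 𝒟 D i =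
      (if c ∉ Z then Real.log ((𝒟.card : ℝ) / ((restr 𝒟 c D).card : ℝ)) else 0) +
        ∑ i ∈ Zᶜ, surp l (restr 𝒟 c D) D i := by
  simp only [surp]
  rw [Finset.sum_add_distrib, Finset.sum_ite_eq' Zᶜ c]
  simp only [Finset.mem_compl]

omit [Fintype ι] in
theorem card_filter_add (𝒟 : Finset (Finset ι)) (c : ι) :
    ((𝒟.filter (fun D' => c ∈ D')).card : ℝ) + ((𝒟.filter (fun D' => c ∉ D')).card : ℝ) =
      (𝒟.card : ℝ) := by
  have := Finset.card_filter_add_card_filter_not (s := 𝒟) (fun D' => c ∈ D')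
  exact_mod_cast this

/-- Kraft type inequality along the tree. -/
theorem kraft (Z : Finset ι) (l : List ι) (𝒟 : Finset (Finset ι)) (hl : Agree l 𝒟) :
    ∑ D ∈ 𝒟, Real.exp (-∑ i ∈ Zᶜ, surp l 𝒟 D i) ≤ (2 : ℝ) ^ (l.countP (· ∈ Z)) := by
  induction l generalizing 𝒟 with
  | nil =>
    have hcard : 𝒟.card ≤ 1 := by
      rw [Finset.card_le_one]
      intro D hD D' hD'
      ext i
      exact hl D hD D' hD' i (by simp)
    simp only [surp, Finset.sum_const_zero, neg_zero, Real.exp_zero, Finset.sum_const,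
      nsmul_eq_mul, mul_one, List.countP_nil, pow_zero]
    exact_mod_cast hcard
  | cons c l ih =>
    set 𝒟₁ := 𝒟.filter (fun D' => c ∈ D') with h𝒟₁
    set 𝒟₀ := 𝒟.filter (fun D' => c ∉ D') with h𝒟₀
    have hAg₁ : Agree l 𝒟₁ := by
      by_cases hne : 𝒟₁.Nonempty
      · obtain ⟨D, hD⟩ := hne
        have := hl.restr (c := c) D
        rwa [restr_of_mem (Finset.mem_filter.mp hD).2] at this
      · rw [Finset.not_nonempty_iff_eq_empty.mp hne]
        intro D hD
        simp at hD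
    have hAg₀ : Agree l 𝒟₀ := by
      by_cases hne : 𝒟₀.Nonempty
      · obtain ⟨D, hD⟩ := hne
        have := hl.restr (c := c) D
        rwa [restr_of_not_mem (Finset.mem_filter.mp hD).2] at this
      · rw [Finset.not_nonempty_iff_eq_empty.mp hne]
        intro D hD
        simp at hD
    have hsplit : ∑ D ∈ 𝒟, Real.exp (-∑ i ∈ Zᶜ, surp (c :: l) 𝒟 D i) =
        ∑ D ∈ 𝒟₁, Real.exp (-∑ i ∈ Zᶜ, surp (c :: l) 𝒟 D i) +
          ∑ D ∈ 𝒟₀, Real.exp (-∑ i ∈ Zᶜ, surp (c :: l) 𝒟 D i) :=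
      (Finset.sum_filter_add_sum_filter_not 𝒟 (fun D' => c ∈ D') _).symm
    have hih₁ := ih 𝒟₁ hAg₁
    have hih₀ := ih 𝒟₀ hAg₀
    have hcnt : (c :: l).countP (· ∈ Z) = l.countP (· ∈ Z) + (if c ∈ Z then 1 else 0) := by
      rw [List.countP_cons]
      simp
    rw [hsplit, hcnt]
    set P : ℝ := (2 : ℝ) ^ (l.countP (· ∈ Z)) with hP
    have hPnn : 0 ≤ P := by positivity
    -- term formulas
    have hterm₁ : ∀ D ∈ 𝒟₁, Real.exp (-∑ i ∈ Zᶜ, surp (c :: l) 𝒟 D i) =
        Real.exp (-(if c ∉ Z then Real.log ((𝒟.card : ℝ) / (𝒟₁.card : ℝ)) else 0)) *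
          Real.exp (-∑ i ∈ Zᶜ, surp l 𝒟₁ D i) := by
      intro D hD
      rw [sum_compl_surp_cons, restr_of_mem (Finset.mem_filter.mp hD).2, ← Real.exp_add]
      congr 1
      ring
    have hterm₀ : ∀ D ∈ 𝒟₀, Real.exp (-∑ i ∈ Zᶜ, surp (c :: l) 𝒟 D i) =
        Real.exp (-(if c ∉ Z then Real.log ((𝒟.card : ℝ) / (𝒟₀.card : ℝ)) else 0)) *
          Real.exp (-∑ i ∈ Zᶜ, surp l 𝒟₀ D i) := by
      intro D hD
      rw [sum_compl_surp_cons, restr_of_not_mem (Finset.mem_filter.mp hD).2, ← Real.exp_add]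
      congr 1
      ring
    rw [Finset.sum_congr rfl hterm₁, Finset.sum_congr rfl hterm₀, ← Finset.mul_sum,
      ← Finset.mul_sum]
    by_cases hcZ : c ∈ Z
    · simp only [hcZ, not_true_eq_false, if_false, neg_zero, Real.exp_zero, one_mul, if_true,
        pow_succ]
      rw [← hP]
      linarith
    · simp only [hcZ, not_false_eq_true, if_true, if_false, add_zero]
      rw [← hP]
      have hadd := card_filter_add 𝒟 c
      rw [← h𝒟₁, ← h𝒟₀] at hadd
      -- each piece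
      have hpiece : ∀ (𝒜 : Finset (Finset ι)), 𝒜 ⊆ 𝒟 →
          ∑ D ∈ 𝒜, Real.exp (-∑ i ∈ Zᶜ, surp l 𝒜 D i) ≤ P →
          Real.exp (-Real.log ((𝒟.card : ℝ) / (𝒜.card : ℝ))) *
            ∑ D ∈ 𝒜, Real.exp (-∑ i ∈ Zᶜ, surp l 𝒜 D i) ≤
            ((𝒜.card : ℝ) / (𝒟.card : ℝ)) * P := by
        intro 𝒜 hsub hle
        rcases 𝒜.eq_empty_or_nonempty with rfl | hne
        · simp
        · have h1 : (0 : ℝ) < 𝒜.card := by exact_mod_cast Finset.card_pos.mpr hne
          have h2 : (0 : ℝ) < 𝒟.card := by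
            exact_mod_cast Finset.card_pos.mpr (hne.mono hsub)
          have h3 : Real.exp (-Real.log ((𝒟.card : ℝ) / (𝒜.card : ℝ))) =
              (𝒜.card : ℝ) / (𝒟.card : ℝ) := by
            rw [Real.exp_neg, Real.exp_log (by positivity), inv_div]
          rw [h3]
          exact mul_le_mul_of_nonneg_left hle (by positivity)
      have hp₁ := hpiece 𝒟₁ (Finset.filter_subset _ _) hih₁
      have hp₀ := hpiece 𝒟₀ (Finset.filter_subset _ _) hih₀
      rcases 𝒟.eq_empty_or_nonempty with he | hne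
      · have h1 : 𝒟₁ = ∅ := by simp [h𝒟₁, he]
        have h0 : 𝒟₀ = ∅ := by simp [h𝒟₀, he]
        rw [h1, h0]
        simpa using hPnn
      · have h2 : (0 : ℝ) < 𝒟.card := by exact_mod_cast Finset.card_pos.mpr hne
        have hsum : ((𝒟₁.card : ℝ) / (𝒟.card : ℝ)) * P + ((𝒟₀.card : ℝ) / (𝒟.card : ℝ)) * P = P := by
          rw [← add_mul, ← add_div, hadd, div_self h2.ne', one_mul]
        linarith

/-- The information gained at coordinates outside the set is small on average. -/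
theorem zero_info (l : List ι) (𝒟 : Finset (Finset ι)) (r : ℕ) (hl : Agree l 𝒟)
    (hr : ∀ D ∈ 𝒟, l.countP (· ∈ D) ≤ r) :
    ∑ D ∈ 𝒟, Real.exp ((1 / 2) * ∑ i ∈ Dᶜ, surp l 𝒟 D i) ≤ (𝒟.card : ℝ) * (2 : ℝ) ^ r := by
  induction l generalizing 𝒟 r with
  | nil =>
    simp only [surp, Finset.sum_const_zero, mul_zero, Real.exp_zero, Finset.sum_const,
      nsmul_eq_mul, mul_one]
    have : (1 : ℝ) ≤ (2 : ℝ) ^ r := one_le_pow₀ (by norm_num)
    have h2 : (0 : ℝ) ≤ 𝒟.card := Nat.cast_nonneg _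
    nlinarith
  | cons c l ih =>
    set 𝒟₁ := 𝒟.filter (fun D' => c ∈ D') with h𝒟₁
    set 𝒟₀ := 𝒟.filter (fun D' => c ∉ D') with h𝒟₀
    have hAg₁ : Agree l 𝒟₁ := by
      by_cases hne : 𝒟₁.Nonempty
      · obtain ⟨D, hD⟩ := hne
        have := hl.restr (c := c) D
        rwa [restr_of_mem (Finset.mem_filter.mp hD).2] at this
      · rw [Finset.not_nonempty_iff_eq_empty.mp hne]
        intro D hD
        simp at hD
    have hAg₀ : Agree l 𝒟₀ := by
      by_cases hne : 𝒟₀.Nonempty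
      · obtain ⟨D, hD⟩ := hne
        have := hl.restr (c := c) D
        rwa [restr_of_not_mem (Finset.mem_filter.mp hD).2] at this
      · rw [Finset.not_nonempty_iff_eq_empty.mp hne]
        intro D hD
        simp at hD
    have hsplit : ∑ D ∈ 𝒟, Real.exp ((1 / 2) * ∑ i ∈ Dᶜ, surp (c :: l) 𝒟 D i) =
        ∑ D ∈ 𝒟₁, Real.exp ((1 / 2) * ∑ i ∈ Dᶜ, surp (c :: l) 𝒟 D i) +
          ∑ D ∈ 𝒟₀, Real.exp ((1 / 2) * ∑ i ∈ Dᶜ, surp (c :: l) 𝒟 D i) :=
      (Finset.sum_filter_add_sum_filter_not 𝒟 (fun D' => c ∈ D') _).symm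
    have hadd := card_filter_add 𝒟 c
    rw [← h𝒟₁, ← h𝒟₀] at hadd
    set P : ℝ := (2 : ℝ) ^ r with hP
    have hPnn : 0 < P := by positivity
    -- sets containing `c`
    have hpart₁ : ∑ D ∈ 𝒟₁, Real.exp ((1 / 2) * ∑ i ∈ Dᶜ, surp (c :: l) 𝒟 D i) ≤
        (𝒟₁.card : ℝ) * (P / 2) := by
      rcases 𝒟₁.eq_empty_or_nonempty with he | ⟨D₁, hD₁⟩
      · rw [he]
        simp
      · have hr1 : 1 ≤ r := by
          have h1 := hr D₁ (Finset.mem_filter.mp hD₁).1
          rw [List.countP_cons_of_pos (by simpa using (Finset.mem_filter.mp hD₁).2)] at h1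
          omega
        have hih := ih 𝒟₁ (r - 1) hAg₁ (by
          intro D hD
          have h1 := hr D (Finset.mem_filter.mp hD).1
          rw [List.countP_cons_of_pos (by simpa using (Finset.mem_filter.mp hD).2)] at h1
          omega)
        have hP2 : (2 : ℝ) ^ (r - 1) = P / 2 := by
          rw [hP, ← pow_sub_one_mul (show r ≠ 0 by omega) (2 : ℝ)]
          ring
        rw [hP2] at hih
        refine le_trans (le_of_eq ?_) hih
        apply Finset.sum_congr rfl
        intro D hD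
        rw [sum_compl_surp_cons, restr_of_mem (Finset.mem_filter.mp hD).2, ← h𝒟₁]
        have hcD := (Finset.mem_filter.mp hD).2
        simp [hcD]
    -- sets missing `c`
    have hpart₀ : ∑ D ∈ 𝒟₀, Real.exp ((1 / 2) * ∑ i ∈ Dᶜ, surp (c :: l) 𝒟 D i) ≤
        (((𝒟.card : ℝ) + (𝒟₀.card : ℝ)) / 2) * P := by
      rcases 𝒟₀.eq_empty_or_nonempty with he | ⟨D₀, hD₀⟩
      · rw [he]
        simp only [Finset.sum_empty, Finset.card_empty, Nat.cast_zero, add_zero]
        positivity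
      · have hih := ih 𝒟₀ r hAg₀ (by
          intro D hD
          have h1 := hr D (Finset.mem_filter.mp hD).1
          rw [List.countP_cons_of_neg (by simpa using (Finset.mem_filter.mp hD).2)] at h1
          exact h1)
        have h1 : (0 : ℝ) < 𝒟₀.card := by
          exact_mod_cast Finset.card_pos.mpr ⟨D₀, hD₀⟩
        have h2 : (0 : ℝ) < 𝒟.card := by
          exact_mod_cast Finset.card_pos.mpr ⟨D₀, (Finset.mem_filter.mp hD₀).1⟩
        set L := Real.log ((𝒟.card : ℝ) / (𝒟₀.card : ℝ)) with hL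
        have hterm : ∀ D ∈ 𝒟₀, Real.exp ((1 / 2) * ∑ i ∈ Dᶜ, surp (c :: l) 𝒟 D i) =
            Real.exp ((1 / 2) * L) * Real.exp ((1 / 2) * ∑ i ∈ Dᶜ, surp l 𝒟₀ D i) := by
          intro D hD
          have hcD := (Finset.mem_filter.mp hD).2
          rw [sum_compl_surp_cons, restr_of_not_mem hcD, ← Real.exp_add, ← h𝒟₀]
          congr 1
          simp only [hcD, not_false_eq_true, if_true, hL]
          ring
        rw [Finset.sum_congr rfl hterm, ← Finset.mul_sum]
        have hexpL : Real.exp L = (𝒟.card : ℝ) / (𝒟₀.card : ℝ) := by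
          rw [hL, Real.exp_log (by positivity)]
        have hfac : Real.exp ((1 / 2) * L) ≤ ((𝒟.card : ℝ) / (𝒟₀.card : ℝ) + 1) / 2 := by
          rw [← hexpL]
          have h3 : Real.exp L = Real.exp ((1 / 2) * L) * Real.exp ((1 / 2) * L) := by
            rw [← Real.exp_add]
            congr 1
            ring
          nlinarith [sq_nonneg (Real.exp ((1 / 2) * L) - 1)]
        calc Real.exp ((1 / 2) * L) * ∑ D ∈ 𝒟₀, Real.exp ((1 / 2) * ∑ i ∈ Dᶜ, surp l 𝒟₀ D i)
            ≤ (((𝒟.card : ℝ) / (𝒟₀.card : ℝ) + 1) / 2) * ((𝒟₀.card : ℝ) * P) := by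
              apply mul_le_mul hfac hih
              · exact Finset.sum_nonneg (fun _ _ => (Real.exp_pos _).le)
              · positivity
          _ = (((𝒟.card : ℝ) + (𝒟₀.card : ℝ)) / 2) * P := by
              field_simp
    rw [hsplit]
    have h5 : (𝒟₁.card : ℝ) * (P / 2) + (((𝒟.card : ℝ) + (𝒟₀.card : ℝ)) / 2) * P =
        (𝒟.card : ℝ) * P := by
      rw [← hadd]
      ring
    linarith

omit [Fintype ι] in
theorem countP_le_card (l : List ι) (hl : l.Nodup) (Z : Finset ι) :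
    l.countP (· ∈ Z) ≤ Z.card := by
  rw [List.countP_eq_length_filter]
  have hnd : (l.filter (· ∈ Z)).Nodup := hl.filter _
  rw [← List.toFinset_card_of_nodup hnd]
  apply Finset.card_le_card
  intro x hx
  rw [List.mem_toFinset, List.mem_filter] at hx
  simpa using hx.2

omit [DecidableEq ι] in
theorem agree_univ (𝒟 : Finset (Finset ι)) : Agree (Finset.univ : Finset ι).toList 𝒟 := by
  intro D _ D' _ i hi
  exact absurd (Finset.mem_toList.mpr (Finset.mem_univ i)) hi

/-- Summary of the tree facts, for the full list of coordinates. -/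
theorem tree_facts (𝒟 : Finset (Finset ι)) (v : ℕ) (hv : ∀ D ∈ 𝒟, D.card ≤ v) :
    ∃ s : Finset ι → ι → ℝ,
      (∀ D ∈ 𝒟, ∀ i, 0 ≤ s D i) ∧
      (∀ D ∈ 𝒟, ∑ i, s D i = Real.log (𝒟.card : ℝ)) ∧
      (∀ Z : Finset ι, ∑ D ∈ 𝒟, Real.exp (-∑ i ∈ Zᶜ, s D i) ≤ (2 : ℝ) ^ Z.card) ∧
      ∑ D ∈ 𝒟, Real.exp ((1 / 2) * ∑ i ∈ Dᶜ, s D i) ≤ (𝒟.card : ℝ) * (2 : ℝ) ^ v := by
  set l := (Finset.univ : Finset ι).toList with hl
  have hnd : l.Nodup := Finset.nodup_toList _
  refine ⟨fun D i => surp l 𝒟 D i, ?_, ?_, ?_, ?_⟩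
  · intro D hD i
    exact surp_nonneg l 𝒟 D hD i
  · intro D hD
    exact sum_surp l 𝒟 D hD (agree_univ 𝒟)
  · intro Z
    refine (kraft Z l 𝒟 (agree_univ 𝒟)).trans ?_
    exact pow_le_pow_right₀ (by norm_num) (countP_le_card l hnd Z)
  · exact zero_info l 𝒟 v (agree_univ 𝒟) (fun D hD => (countP_le_card l hnd D).trans (hv D hD))

end Vale.Agent.Lib.P126.U
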