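import Mathlib
import Vale.Agent.Lib.P126.UTree

/-!
The combinatorial core: vectors whose support is not charged by a mixed strategy of large
subfamilies carry little mass.
-/

open Finset

namespace Vale.Agent.Lib.P126.U

theorem fib_sum {ι Ξ : Type*} [DecidableEq ι] (Bad B : Finset Ξ) (hB : B ⊆ Bad)
    (Dd : Ξ → Finset ι) (F : ℝ) (hfib : ∀ D, ((Bad.filter (fun ξ => Dd ξ = D)).card : ℝ) ≤ F)
    (g : Finset ι → ℝ) (hg : ∀ D, 0 ≤ g D) :
    ∑ ξ ∈ B, g (Dd ξ) ≤ F * ∑ D ∈ Bad.image Dd, g D := by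
  classical
  have hmaps : ∀ ξ ∈ B, Dd ξ ∈ Bad.image Dd := fun ξ hξ => Finset.mem_image_of_mem _ (hB hξ)
  rw [← Finset.sum_fiberwise_of_maps_to hmaps, Finset.mul_sum]
  apply Finset.sum_le_sum
  intro D _
  have h1 : ∑ ξ ∈ B.filter (fun ξ => Dd ξ = D), g (Dd ξ) =
      ((B.filter (fun ξ => Dd ξ = D)).card : ℝ) * g D := by
    rw [Finset.sum_congr rfl (g := fun _ => g D), Finset.sum_const, nsmul_eq_mul]
    intro ξ hξ
    rw [(Finset.mem_filter.mp hξ).2]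
  rw [h1]
  apply mul_le_mul_of_nonneg_right _ (hg D)
  refine le_trans ?_ (hfib D)
  exact_mod_cast Finset.card_le_card (Finset.filter_subset_filter _ hB)

theorem entropy_step {ι Ξ : Type*} [Fintype ι] [DecidableEq ι]
    (Bad : Finset Ξ) (Dd : Ξ → Finset ι) (F : ℝ) (hF : 0 < F)
    (hfib : ∀ D, ((Bad.filter (fun ξ => Dd ξ = D)).card : ℝ) ≤ F)
    (s : Finset ι → ι → ℝ) (hs : ∀ D ∈ Bad.image Dd, ∀ i, 0 ≤ s D i)
    (hkraft : ∀ Z : Finset ι, ∑ D ∈ Bad.image Dd, Real.exp (-∑ i ∈ Zᶜ, s D i) ≤ (2 : ℝ) ^ Z.card)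
    (I : Finset Ξ) (hI : I ⊆ Bad) (B : ℝ) (hB : ∀ ξ ∈ I, ∑ i ∈ (Dd ξ)ᶜ, s (Dd ξ) i ≤ B)
    (Z : Finset ι) (v : ℕ) (hZ : Z.card ≤ 2 * v) :
    (I.card : ℝ) * (Real.log (I.card : ℝ) - (Real.log F + 2 * (v : ℝ) * Real.log 2 + B)) ≤
      ∑ ξ ∈ I, ∑ i ∈ (Dd ξ).filter (· ∉ Z), s (Dd ξ) i := by
  classical
  rcases I.eq_empty_or_nonempty with rfl | hne
  · simp
  have hn : (0 : ℝ) < I.card := by exact_mod_cast Finset.card_pos.mpr hne
  set R : ℝ := F * (2 : ℝ) ^ (2 * v) with hRdef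
  have hR : 0 < R := by positivity
  have hlogR : Real.log R = Real.log F + 2 * (v : ℝ) * Real.log 2 := by
    rw [hRdef, Real.log_mul hF.ne' (by positivity), Real.log_pow]
    push_cast
    ring
  set C : Ξ → ℝ := fun ξ => ∑ i ∈ Zᶜ, s (Dd ξ) i with hC
  have hexp : ∑ ξ ∈ I, Real.exp (-C ξ) ≤ R := by
    have h1 := fib_sum Bad I hI Dd F hfib (fun D => Real.exp (-∑ i ∈ Zᶜ, s D i))
      (fun _ => (Real.exp_pos _).le)
    refine h1.trans ?_
    exact mul_le_mul_of_nonneg_left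
      ((hkraft Z).trans (pow_le_pow_right₀ (by norm_num) hZ)) hF.le
  set cb : ℝ := Real.log (I.card : ℝ) - Real.log R with hcb
  have h2 : Real.exp cb = (I.card : ℝ) / R := by
    rw [hcb, Real.exp_sub, Real.exp_log hn, Real.exp_log hR]
  have h3 : ∑ ξ ∈ I, (1 + cb - C ξ) ≤ ∑ ξ ∈ I, Real.exp cb * Real.exp (-C ξ) := by
    apply Finset.sum_le_sum
    intro ξ _
    rw [← Real.exp_add]
    have := Real.add_one_le_exp (cb + -C ξ)
    linarith
  have h4 : ∑ ξ ∈ I, Real.exp cb * Real.exp (-C ξ) ≤ (I.card : ℝ) := by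
    rw [← Finset.mul_sum, h2]
    calc (I.card : ℝ) / R * ∑ ξ ∈ I, Real.exp (-C ξ) ≤ (I.card : ℝ) / R * R :=
          mul_le_mul_of_nonneg_left hexp (by positivity)
      _ = (I.card : ℝ) := by field_simp
  have h5 : ∑ ξ ∈ I, (1 + cb - C ξ) = (I.card : ℝ) + (I.card : ℝ) * cb - ∑ ξ ∈ I, C ξ := by
    rw [Finset.sum_sub_distrib, Finset.sum_add_distrib]
    simp
  have h6 : (I.card : ℝ) * cb ≤ ∑ ξ ∈ I, C ξ := by linarith
  have h7 : ∑ ξ ∈ I, C ξ ≤ ∑ ξ ∈ I, ((∑ i ∈ (Dd ξ).filter (· ∉ Z), s (Dd ξ) i) + B) := by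
    apply Finset.sum_le_sum
    intro ξ hξ
    have hD : Dd ξ ∈ Bad.image Dd := Finset.mem_image_of_mem _ (hI hξ)
    have h8 : ∑ i ∈ Zᶜ, s (Dd ξ) i = ∑ i ∈ Zᶜ.filter (· ∈ Dd ξ), s (Dd ξ) i +
        ∑ i ∈ Zᶜ.filter (· ∉ Dd ξ), s (Dd ξ) i := (Finset.sum_filter_add_sum_filter_not _ _ _).symm
    have h9 : Zᶜ.filter (· ∈ Dd ξ) = (Dd ξ).filter (· ∉ Z) := by
      ext i
      simp only [Finset.mem_filter, Finset.mem_compl]
      tauto
    have h10 : ∑ i ∈ Zᶜ.filter (· ∉ Dd ξ), s (Dd ξ) i ≤ ∑ i ∈ (Dd ξ)ᶜ, s (Dd ξ) i := by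
      apply Finset.sum_le_sum_of_subset_of_nonneg
      · intro i hi
        simp only [Finset.mem_filter, Finset.mem_compl] at hi ⊢
        exact hi.2
      · intro i _ _
        exact hs _ hD i
    have := hB ξ hξ
    simp only [hC]
    rw [h8, h9]
    linarith
  rw [Finset.sum_add_distrib, Finset.sum_const, nsmul_eq_mul] at h7
  have h8 : (I.card : ℝ) * (Real.log (I.card : ℝ) - (Real.log F + 2 * (v : ℝ) * Real.log 2 + B)) =
      (I.card : ℝ) * cb - (I.card : ℝ) * B := by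
    rw [hcb, hlogR]
    ring
  rw [h8]
  linarith

theorem bad_mass_le {ι Ξ J : Type*} [Fintype ι] [DecidableEq ι] [Fintype Ξ] [DecidableEq Ξ]
    [Fintype J]
    (S : ℝ) (hS : S = Real.log (Fintype.card Ξ : ℝ)) (hN : 0 < Fintype.card Ξ)
    (v : ℕ) (F : ℝ) (hF : 0 < F)
    (Bad : Finset Ξ) (Dd : Ξ → Finset ι) (hDd : ∀ ξ ∈ Bad, (Dd ξ).card ≤ v)
    (hfib : ∀ D, ((Bad.filter (fun ξ => Dd ξ = D)).card : ℝ) ≤ F)
    (lam : J → ℝ) (hlam : ∀ j, 0 ≤ lam j) (hsum : ∑ j, lam j = 1)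
    (fam : J → Finset Ξ) (hfam : ∀ j, Real.exp (7 * S / 8) ≤ ((fam j).card : ℝ))
    (Z : J → Finset ι) (hZ : ∀ j, (Z j).card ≤ 2 * v)
    (hnum : 4 ≤ 3 * S / 8 - (Real.log F + 2 * (v : ℝ) * Real.log 2 +
      2 * (Real.log F + S / 8 + (v : ℝ) * Real.log 2 + Real.log 8)))
    (hBad : ∀ ξ ∈ Bad, ∀ i ∈ Dd ξ,
      2 * (∑ j, if ξ ∈ fam j ∧ i ∉ Z j then lam j / ((fam j).card : ℝ) else 0) ≤
        ∑ j, if ξ ∈ fam j then lam j / ((fam j).card : ℝ) else 0) :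
    ∑ ξ ∈ Bad, (∑ j, if ξ ∈ fam j then lam j / ((fam j).card : ℝ) else 0) ≤ 3 / 8 := by
  classical
  set c : J → ℝ := fun j => lam j / ((fam j).card : ℝ) with hc
  have hepos : 0 < Real.exp (7 * S / 8) := Real.exp_pos _
  have hcardpos : ∀ j, (0 : ℝ) < (fam j).card := fun j => lt_of_lt_of_le hepos (hfam j)
  have hcnn : ∀ j, 0 ≤ c j := fun j => div_nonneg (hlam j) (hcardpos j).le
  set μ : Ξ → ℝ := fun ξ => ∑ j, if ξ ∈ fam j then c j else 0 with hμ
  set Θ : Ξ → ι → ℝ := fun ξ i => ∑ j, if ξ ∈ fam j ∧ i ∉ Z j then c j else 0 with hΘ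
  have hμnn : ∀ ξ, 0 ≤ μ ξ := fun ξ =>
    Finset.sum_nonneg (fun j _ => by split_ifs <;> simp [hcnn j])
  have hΘnn : ∀ ξ i, 0 ≤ Θ ξ i := fun ξ i =>
    Finset.sum_nonneg (fun j _ => by split_ifs <;> simp [hcnn j])
  have hμle : ∀ ξ, μ ξ * Real.exp (7 * S / 8) ≤ 1 := by
    intro ξ
    simp only [hμ]
    rw [Finset.sum_mul, ← hsum]
    apply Finset.sum_le_sum
    intro j _
    split_ifs
    · simp only [hc]
      rw [div_mul_eq_mul_div, div_le_iff₀ (hcardpos j)]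
      exact mul_le_mul_of_nonneg_left (hfam j) (hlam j)
    · rw [zero_mul]
      exact hlam j
  -- the tree
  set 𝒟 : Finset (Finset ι) := Bad.image Dd with h𝒟
  have h𝒟v : ∀ D ∈ 𝒟, D.card ≤ v := by
    intro D hD
    obtain ⟨ξ, hξ, rfl⟩ := Finset.mem_image.mp hD
    exact hDd ξ hξ
  obtain ⟨s, hs, hsum_s, hkraft, hzero⟩ := tree_facts 𝒟 v h𝒟v
  have h𝒟card : (𝒟.card : ℝ) ≤ Fintype.card Ξ := by
    have h1 : 𝒟.card ≤ Bad.card := Finset.card_image_le
    have h2 : Bad.card ≤ Fintype.card Ξ := Finset.card_le_univ _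
    exact_mod_cast h1.trans h2
  have hNR : (0 : ℝ) < Fintype.card Ξ := by exact_mod_cast hN
  have hlog𝒟 : ∀ D ∈ 𝒟, Real.log (𝒟.card : ℝ) ≤ S := by
    intro D hD
    rw [hS]
    apply Real.log_le_log _ h𝒟card
    exact_mod_cast Finset.card_pos.mpr ⟨D, hD⟩
  set B : ℝ := 2 * (Real.log F + S / 8 + (v : ℝ) * Real.log 2 + Real.log 8) with hB
  set W : ℝ := Real.log F + 2 * (v : ℝ) * Real.log 2 + B with hW
  set S0 : Finset ι → ℝ := fun D => ∑ i ∈ Dᶜ, s D i with hS0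
  set Typ : Finset Ξ := Bad.filter (fun ξ => S0 (Dd ξ) ≤ B) with hTyp
  set NT : Finset Ξ := Bad.filter (fun ξ => ¬ S0 (Dd ξ) ≤ B) with hNT
  -- Step A: the atypical part
  have hAcard : (NT.card : ℝ) ≤ Real.exp (7 * S / 8) / 8 := by
    have hexpB : Real.exp (B / 2) = F * Real.exp (S / 8) * (2 : ℝ) ^ v * 8 := by
      have h1 : B / 2 = Real.log F + S / 8 + (v : ℝ) * Real.log 2 + Real.log 8 := by
        rw [hB]
        ring
      rw [h1, Real.exp_add, Real.exp_add, Real.exp_add, Real.exp_log hF,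
        Real.exp_log (by norm_num : (0 : ℝ) < 8), Real.exp_nat_mul,
        Real.exp_log (by norm_num : (0 : ℝ) < 2)]
    have h1 : ∀ ξ ∈ NT, (1 : ℝ) ≤ Real.exp (-(B / 2)) * Real.exp ((1 / 2) * S0 (Dd ξ)) := by
      intro ξ hξ
      have h2 := (Finset.mem_filter.mp hξ).2
      push Not at h2
      rw [← Real.exp_add]
      apply Real.one_le_exp
      linarith
    have h2 : ∑ ξ ∈ NT, Real.exp ((1 / 2) * S0 (Dd ξ)) ≤
        F * ∑ D ∈ 𝒟, Real.exp ((1 / 2) * S0 D) :=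
      fib_sum Bad NT (Finset.filter_subset _ _) Dd F hfib (fun D => Real.exp ((1 / 2) * S0 D))
        (fun _ => (Real.exp_pos _).le)
    have h3 : (NT.card : ℝ) ≤ Real.exp (-(B / 2)) * ∑ ξ ∈ NT, Real.exp ((1 / 2) * S0 (Dd ξ)) := by
      rw [Finset.mul_sum]
      calc (NT.card : ℝ) = ∑ _ξ ∈ NT, (1 : ℝ) := by simp
        _ ≤ _ := Finset.sum_le_sum h1
    have h4 : (NT.card : ℝ) ≤ Real.exp (-(B / 2)) * (F * ((Fintype.card Ξ : ℝ) * (2 : ℝ) ^ v)) := by
      refine h3.trans ?_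
      apply mul_le_mul_of_nonneg_left _ (Real.exp_pos _).le
      refine h2.trans ?_
      apply mul_le_mul_of_nonneg_left _ hF.le
      refine hzero.trans ?_
      exact mul_le_mul_of_nonneg_right h𝒟card (by positivity)
    refine h4.trans (le_of_eq ?_)
    have h5 : (Fintype.card Ξ : ℝ) = Real.exp S := by
      rw [hS, Real.exp_log hNR]
    have h6 : Real.exp S = Real.exp (S / 8) * Real.exp (7 * S / 8) := by
      rw [← Real.exp_add]
      congr 1
      ring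
    rw [Real.exp_neg, hexpB, h5, h6]
    have h7 := Real.exp_pos (S / 8)
    field_simp
  have hA2 : ∑ ξ ∈ NT, μ ξ ≤ 1 / 8 := by
    have h1 : ∀ ξ ∈ NT, μ ξ ≤ 1 / Real.exp (7 * S / 8) := by
      intro ξ _
      rw [le_div_iff₀ hepos]
      exact hμle ξ
    calc ∑ ξ ∈ NT, μ ξ ≤ ∑ _ξ ∈ NT, 1 / Real.exp (7 * S / 8) := Finset.sum_le_sum h1
      _ = (NT.card : ℝ) * (1 / Real.exp (7 * S / 8)) := by simp
      _ ≤ (Real.exp (7 * S / 8) / 8) * (1 / Real.exp (7 * S / 8)) :=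
          mul_le_mul_of_nonneg_right hAcard (by positivity)
      _ = 1 / 8 := by field_simp
  -- Step B: entropy inequality for each member of the strategy
  set In : J → Finset Ξ := fun j => Typ.filter (· ∈ fam j) with hIn
  have hstep : ∀ j, ((In j).card : ℝ) * (Real.log ((In j).card : ℝ) - W) ≤
      ∑ ξ ∈ In j, ∑ i ∈ (Dd ξ).filter (· ∉ Z j), s (Dd ξ) i := by
    intro j
    apply entropy_step Bad Dd F hF hfib s hs hkraft (In j) ?_ B ?_ (Z j) v (hZ j)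
    · intro ξ hξ
      exact (Finset.mem_filter.mp (Finset.mem_filter.mp hξ).1).1
    · intro ξ hξ
      exact (Finset.mem_filter.mp (Finset.mem_filter.mp hξ).1).2
  have hlow : ∀ j, lam j * (((In j).card : ℝ) / ((fam j).card : ℝ) * (7 * S / 8 - W) - 1) ≤
      c j * ∑ ξ ∈ In j, ∑ i ∈ (Dd ξ).filter (· ∉ Z j), s (Dd ξ) i := by
    intro j
    have h1 := mul_le_mul_of_nonneg_left (hstep j) (hcnn j)
    refine le_trans ?_ h1
    have hcard := hcardpos j
    set n : ℝ := ((In j).card : ℝ) with hn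
    set q : ℝ := ((fam j).card : ℝ) with hq
    have hnnn : 0 ≤ n := Nat.cast_nonneg _
    have hcq : c j = lam j / q := rfl
    have heq : c j * (n * (Real.log n - W)) = lam j * (n / q * Real.log n - n / q * W) := by
      rw [hcq]
      field_simp
    rw [heq]
    apply mul_le_mul_of_nonneg_left _ (hlam j)
    have hkey : n / q * (7 * S / 8) - 1 ≤ n / q * Real.log n := by
      rcases hnnn.eq_or_lt with hzero | hpos
      · rw [← hzero]
        simp
      · have hρ : 0 < n / q := div_pos hpos hcard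
        have hlogn : Real.log n = Real.log (n / q) + Real.log q := by
          rw [Real.log_div hpos.ne' hcard.ne']
          ring
        have hlogq : 7 * S / 8 ≤ Real.log q := by
          rw [Real.le_log_iff_exp_le hcard]
          exact hfam j
        have hlogρ : 1 - (n / q)⁻¹ ≤ Real.log (n / q) := Real.one_sub_inv_le_log_of_pos hρ
        rw [hlogn, mul_add]
        have h2 : -1 ≤ n / q * Real.log (n / q) := by
          have h3 := mul_le_mul_of_nonneg_left hlogρ hρ.le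
          have h4 : n / q * (1 - (n / q)⁻¹) = n / q - 1 := by
            field_simp
          linarith
        have h3 := mul_le_mul_of_nonneg_left hlogq hρ.le
        linarith
    nlinarith
  have hexch : ∑ j, c j * ∑ ξ ∈ In j, ∑ i ∈ (Dd ξ).filter (· ∉ Z j), s (Dd ξ) i =
      ∑ ξ ∈ Typ, ∑ i ∈ Dd ξ, s (Dd ξ) i * Θ ξ i := by
    calc ∑ j, c j * ∑ ξ ∈ In j, ∑ i ∈ (Dd ξ).filter (· ∉ Z j), s (Dd ξ) i
        = ∑ j, ∑ ξ ∈ Typ, ∑ i ∈ Dd ξ, s (Dd ξ) i * (if ξ ∈ fam j ∧ i ∉ Z j then c j else 0) := by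
          apply Finset.sum_congr rfl
          intro j _
          simp only [hIn]
          rw [Finset.sum_filter, Finset.mul_sum]
          apply Finset.sum_congr rfl
          intro ξ _
          by_cases hξ : ξ ∈ fam j
          · simp only [hξ, if_true, true_and]
            rw [Finset.sum_filter, Finset.mul_sum]
            apply Finset.sum_congr rfl
            intro i _
            split_ifs <;> ring
          · simp [hξ]
      _ = ∑ ξ ∈ Typ, ∑ j, ∑ i ∈ Dd ξ, s (Dd ξ) i * (if ξ ∈ fam j ∧ i ∉ Z j then c j else 0) :=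
          Finset.sum_comm
      _ = ∑ ξ ∈ Typ, ∑ i ∈ Dd ξ, ∑ j, s (Dd ξ) i * (if ξ ∈ fam j ∧ i ∉ Z j then c j else 0) := by
          apply Finset.sum_congr rfl
          intro ξ _
          exact Finset.sum_comm
      _ = ∑ ξ ∈ Typ, ∑ i ∈ Dd ξ, s (Dd ξ) i * Θ ξ i := by
          apply Finset.sum_congr rfl
          intro ξ _
          apply Finset.sum_congr rfl
          intro i _
          simp only [hΘ]
          rw [Finset.mul_sum]
  have hup : ∑ ξ ∈ Typ, ∑ i ∈ Dd ξ, s (Dd ξ) i * Θ ξ i ≤ ∑ ξ ∈ Typ, μ ξ / 2 * S := by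
    apply Finset.sum_le_sum
    intro ξ hξ
    have hξBad : ξ ∈ Bad := (Finset.mem_filter.mp hξ).1
    have hD : Dd ξ ∈ 𝒟 := Finset.mem_image_of_mem _ hξBad
    have h1 : ∑ i ∈ Dd ξ, s (Dd ξ) i * Θ ξ i ≤ ∑ i ∈ Dd ξ, s (Dd ξ) i * (μ ξ / 2) := by
      apply Finset.sum_le_sum
      intro i hi
      apply mul_le_mul_of_nonneg_left _ (hs _ hD i)
      have := hBad ξ hξBad i hi
      simp only [hΘ, hμ]
      linarith
    refine h1.trans ?_
    rw [← Finset.sum_mul, mul_comm]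
    apply mul_le_mul_of_nonneg_left _ (by have := hμnn ξ; positivity)
    calc ∑ i ∈ Dd ξ, s (Dd ξ) i ≤ ∑ i, s (Dd ξ) i :=
          Finset.sum_le_sum_of_subset_of_nonneg (Finset.subset_univ _)
            (fun i _ _ => hs _ hD i)
      _ = Real.log (𝒟.card : ℝ) := hsum_s _ hD
      _ ≤ S := hlog𝒟 _ hD
  have hμ' : ∑ j, lam j * (((In j).card : ℝ) / ((fam j).card : ℝ)) = ∑ ξ ∈ Typ, μ ξ := by
    simp only [hμ]
    rw [Finset.sum_comm]
    apply Finset.sum_congr rfl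
    intro j _
    have hcard := hcardpos j
    have h1 : ∑ ξ ∈ Typ, (if ξ ∈ fam j then c j else 0) = ((In j).card : ℝ) * c j := by
      rw [← Finset.sum_filter, Finset.sum_const, nsmul_eq_mul]
    rw [h1]
    simp only [hc]
    field_simp
  set μ' : ℝ := ∑ ξ ∈ Typ, μ ξ with hμ'def
  have hμ'nn : 0 ≤ μ' := Finset.sum_nonneg (fun ξ _ => hμnn ξ)
  have hfinal : μ' * (7 * S / 8 - W) - 1 ≤ μ' / 2 * S := by
    have h1 : ∑ j, lam j * (((In j).card : ℝ) / ((fam j).card : ℝ) * (7 * S / 8 - W) - 1) =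
        μ' * (7 * S / 8 - W) - 1 := by
      have h2 : ∀ j, lam j * (((In j).card : ℝ) / ((fam j).card : ℝ) * (7 * S / 8 - W) - 1) =
          (lam j * (((In j).card : ℝ) / ((fam j).card : ℝ))) * (7 * S / 8 - W) - lam j := by
        intro j
        ring
      rw [Finset.sum_congr rfl (fun j _ => h2 j), Finset.sum_sub_distrib, ← Finset.sum_mul,
        hμ', hsum]
    have h2 : ∑ ξ ∈ Typ, μ ξ / 2 * S = μ' / 2 * S := by
      rw [← Finset.sum_mul, ← Finset.sum_div]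
    rw [← h1, ← h2]
    refine le_trans (Finset.sum_le_sum (fun j _ => hlow j)) ?_
    rw [hexch]
    exact hup
  have hμ'le : μ' ≤ 1 / 4 := by
    have h1 : μ' * (3 * S / 8 - W) ≤ 1 := by nlinarith
    have h2 : 4 ≤ 3 * S / 8 - W := hnum
    nlinarith
  have hsplit : ∑ ξ ∈ Bad, μ ξ = ∑ ξ ∈ Typ, μ ξ + ∑ ξ ∈ NT, μ ξ :=
    (Finset.sum_filter_add_sum_filter_not Bad _ _).symm
  show ∑ ξ ∈ Bad, μ ξ ≤ 3 / 8
  rw [hsplit]
  linarith

end Vale.Agent.Lib.P126.U
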