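import Mathlib

/-!
Positive solid bodies in `ι → ℝ` and the logarithmic potential (Lozanovskii point).
-/

open Filter Topology

namespace Vale.Agent.Lib.P126.U

variable {ι : Type*} [Fintype ι] [DecidableEq ι]

/-- A positive solid body: compact, convex, in the nonnegative orthant, closed under taking
smaller nonnegative vectors, containing a positive multiple of the all ones vector. -/
structure PosBody (S : Set (ι → ℝ)) : Prop where
  compact : IsCompact S
  convex : Convex ℝ S
  nonneg : ∀ y ∈ S, ∀ i, 0 ≤ y i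
  solid : ∀ y ∈ S, ∀ z : ι → ℝ, (∀ i, 0 ≤ z i) → (∀ i, z i ≤ y i) → z ∈ S
  pos : ∃ κ : ℝ, 0 < κ ∧ (fun _ => κ) ∈ S

theorem PosBody.zero_mem {S : Set (ι → ℝ)} (h : PosBody S) : (0 : ι → ℝ) ∈ S := by
  obtain ⟨κ, hκ, hm⟩ := h.pos
  exact h.solid _ hm _ (fun _ => le_refl _) (fun _ => by simpa using hκ.le)

/-- First order condition for the logarithmic potential. -/
theorem exists_log_max {S : Set (ι → ℝ)} (hS : PosBody S) (D : Finset ι) (ν κ : ι → ℝ)
    (hν : ∀ i ∈ D, 0 ≤ ν i) (hκ : ∀ i ∈ D, 0 < κ i) :
    ∃ y ∈ S, ∀ w ∈ S, ∑ i ∈ D, ν i * (w i - y i) / (y i + κ i) ≤ 0 := by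
  set f : (ι → ℝ) → ℝ := fun y => ∑ i ∈ D, ν i * Real.log (y i + κ i) with hf
  have hcont : ContinuousOn f S := by
    apply continuousOn_finset_sum
    intro i hi
    apply ContinuousOn.mul continuousOn_const
    apply ContinuousOn.log
    · exact (Continuous.continuousOn (by fun_prop))
    · intro y hy
      have := hS.nonneg y hy i
      have := hκ i hi
      positivity
  obtain ⟨y, hy, hmax⟩ := hS.compact.exists_isMaxOn ⟨0, hS.zero_mem⟩ hcont
  refine ⟨y, hy, ?_⟩
  intro w hw
  set g : ℝ → ℝ := fun t => ∑ i ∈ D, ν i * (w i - y i) / (y i + t * (w i - y i) + κ i) with hg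
  have hg0 : g 0 = ∑ i ∈ D, ν i * (w i - y i) / (y i + κ i) := by
    simp [hg]
  have hcg : ContinuousAt g 0 := by
    apply tendsto_finset_sum
    intro i hi
    apply ContinuousAt.div
    · exact continuousAt_const
    · fun_prop
    · have := hS.nonneg y hy i
      have := hκ i hi
      simp only [zero_mul, add_zero]
      positivity
  have hle : ∀ t : ℝ, 0 < t → t ≤ 1 → g t ≤ 0 := by
    intro t ht0 ht1
    set yt : ι → ℝ := fun i => y i + t * (w i - y i) with hyt
    have hytS : yt ∈ S := by
      have := hS.convex hy hw (sub_nonneg.mpr ht1) ht0.le (by ring)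
      convert this using 1
      ext i
      simp [hyt]
      ring
    have h1 : f yt ≤ f y := hmax hytS
    have h2 : t * g t ≤ f yt - f y := by
      simp only [hf, hg]
      rw [Finset.mul_sum, ← Finset.sum_sub_distrib]
      apply Finset.sum_le_sum
      intro i hi
      have hyi := hS.nonneg y hy i
      have hyti := hS.nonneg yt hytS i
      have hκi := hκ i hi
      have hνi := hν i hi
      have hpos : 0 < yt i + κ i := by positivity
      have hpos2 : 0 < y i + κ i := by positivity
      have hlog := Real.one_sub_inv_le_log_of_pos (div_pos hpos hpos2)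
      rw [Real.log_div hpos.ne' hpos2.ne', inv_div] at hlog
      have heq : t * (ν i * (w i - y i) / (y i + t * (w i - y i) + κ i)) =
          ν i * (1 - (y i + κ i) / (yt i + κ i)) := by
        have : y i + t * (w i - y i) + κ i = yt i + κ i := rfl
        rw [this]
        field_simp
        simp only [hyt]
        ring
      rw [heq, ← mul_sub]
      exact mul_le_mul_of_nonneg_left hlog hνi
    have h3 : t * g t ≤ 0 := by linarith
    by_contra hcon
    push_neg at hcon
    have := mul_pos ht0 hcon
    linarith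
  rw [← hg0]
  have htend : Tendsto g (𝓝[>] 0) (𝓝 (g 0)) := hcg.tendsto.mono_left nhdsWithin_le_nhds
  apply le_of_tendsto htend
  filter_upwards [Ioc_mem_nhdsGT (show (0 : ℝ) < 1 by norm_num)] with t ht
  exact hle t ht.1 ht.2

/-- Uniform Lozanovskii point on a finite set of coordinates. -/
theorem exists_loz {S : Set (ι → ℝ)} (hS : PosBody S) (D : Finset ι) :
    ∃ y ∈ S, (∀ i, 0 < y i) ∧ ∀ w ∈ S, ∑ i ∈ D, w i / y i ≤ 2 * (D.card : ℝ) := by
  obtain ⟨κ, hκ, hκm⟩ := hS.pos
  obtain ⟨y, hy, hyc⟩ := exists_log_max hS D (fun _ => 1) (fun _ => κ) (fun _ _ => zero_le_one)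
    (fun _ _ => hκ)
  refine ⟨fun i => (y i + κ) / 2, ?_, ?_, ?_⟩
  · have := hS.convex hy hκm (show (0 : ℝ) ≤ 1 / 2 by norm_num) (show (0 : ℝ) ≤ 1 / 2 by norm_num)
      (by norm_num)
    convert this using 1
    ext i
    simp
    ring
  · intro i
    have := hS.nonneg y hy i
    positivity
  · intro w hw
    have h := hyc w hw
    have h1 : ∑ i ∈ D, w i / ((y i + κ) / 2) =
        2 * ∑ i ∈ D, w i / (y i + κ) := by
      rw [Finset.mul_sum]
      apply Finset.sum_congr rfl
      intro i _
      have := hS.nonneg y hy i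
      field_simp
    have h2 : ∑ i ∈ D, w i / (y i + κ) ≤ ∑ i ∈ D, y i / (y i + κ) := by
      have h3 : ∑ i ∈ D, 1 * (w i - y i) / (y i + κ) =
          ∑ i ∈ D, w i / (y i + κ) - ∑ i ∈ D, y i / (y i + κ) := by
        rw [← Finset.sum_sub_distrib]
        apply Finset.sum_congr rfl
        intro i _
        ring
      rw [h3] at h
      linarith
    have h4 : ∑ i ∈ D, y i / (y i + κ) ≤ (D.card : ℝ) := by
      calc ∑ i ∈ D, y i / (y i + κ) ≤ ∑ _i ∈ D, (1 : ℝ) := by
            apply Finset.sum_le_sum
            intro i _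
            have := hS.nonneg y hy i
            rw [div_le_one (by positivity)]
            linarith
        _ = (D.card : ℝ) := by simp
    rw [h1]
    linarith

end Vale.Agent.Lib.P126.U
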