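import Mathlib

/-!
Counting lemmas for integer points.
-/

open Finset

namespace Vale.Agent.Lib.P126.U

theorem sum_Icc_pow_le (B : ℕ) :
    ∑ j ∈ Finset.Icc (-(B : ℤ)) B, ((1 : ℝ) / 8) ^ (j.natAbs) ≤
      9 / 7 - (2 / 7) * ((1 : ℝ) / 8) ^ B := by
  induction B with
  | zero => norm_num
  | succ B ih =>
    have hdecomp : Finset.Icc (-((B + 1 : ℕ) : ℤ)) ((B + 1 : ℕ) : ℤ) =
        insert (-((B + 1 : ℕ) : ℤ)) (insert ((B + 1 : ℕ) : ℤ) (Finset.Icc (-(B : ℤ)) B)) := by
      ext j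
      simp only [Finset.mem_Icc, Finset.mem_insert]
      push_cast
      omega
    rw [hdecomp, Finset.sum_insert, Finset.sum_insert]
    · have h1 : (((B + 1 : ℕ) : ℤ)).natAbs = B + 1 := Int.natAbs_natCast _
      have h2 : (-((B + 1 : ℕ) : ℤ)).natAbs = B + 1 := by
        rw [Int.natAbs_neg]
        exact Int.natAbs_natCast _
      rw [h1, h2, pow_succ]
      linarith
    · simp only [Finset.mem_Icc]
      push_cast
      omega
    · simp only [Finset.mem_insert, Finset.mem_Icc]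
      push_cast
      omega

theorem sum_Icc_pow_le' (B : ℕ) :
    ∑ j ∈ Finset.Icc (-(B : ℤ)) B, ((1 : ℝ) / 8) ^ (j.natAbs) ≤ 9 / 7 := by
  have := sum_Icc_pow_le B
  have h2 : (0 : ℝ) ≤ ((1 : ℝ) / 8) ^ B := by positivity
  linarith

theorem numeric_55 (t : ℕ) :
    Real.exp ((t : ℝ) / 8 * Real.log 8) * (9 / 7 : ℝ) ^ t ≤ Real.exp (0.55 * t) := by
  have hl8 : Real.log 8 = 3 * Real.log 2 := by
    rw [show (8 : ℝ) = 2 ^ 3 by norm_num, Real.log_pow]
    norm_num
  have h2 := Real.log_two_lt_d9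
  have h97 : Real.log (9 / 7) ≤ 2 / 7 := by
    have := Real.log_le_sub_one_of_pos (show (0 : ℝ) < 9 / 7 by norm_num)
    linarith
  have hpow : (9 / 7 : ℝ) ^ t = Real.exp (t * Real.log (9 / 7)) := by
    rw [← Real.rpow_natCast, Real.rpow_def_of_pos (by norm_num)]
    ring_nf
  rw [hpow, ← Real.exp_add]
  apply Real.exp_le_exp.mpr
  have ht : (0 : ℝ) ≤ t := Nat.cast_nonneg t
  rw [hl8]
  nlinarith [mul_le_mul_of_nonneg_left h97 ht, mul_le_mul_of_nonneg_left h2.le ht]

/-- Points of `ℤ^κ` at pairwise `ℓ¹` distance at most `|κ| / 8`: exponentially few. -/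
theorem card_le_of_l1_sep {κ : Type*} [Fintype κ] [DecidableEq κ] (P : Finset (κ → ℤ))
    (hP : ∀ k ∈ P, ∀ k' ∈ P, 8 * ∑ c, |k c - k' c| ≤ (Fintype.card κ : ℤ)) :
    (P.card : ℝ) ≤ Real.exp (0.55 * (Fintype.card κ : ℝ)) := by
  classical
  rcases P.eq_empty_or_nonempty with rfl | ⟨k₀, hk₀⟩
  · simp only [Finset.card_empty, Nat.cast_zero]
    positivity
  set t := Fintype.card κ with ht
  set f : ℤ → ℝ := fun j => ((1 : ℝ) / 8) ^ (j.natAbs) with hf
  have hfnn : ∀ j, 0 ≤ f j := fun j => by simp only [hf]; positivity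
  -- the weight of each point is large
  have hweight : ∀ k ∈ P, 1 ≤ Real.exp ((t : ℝ) / 8 * Real.log 8) * ∏ c, f (k c - k₀ c) := by
    intro k hk
    have hsum := hP k hk k₀ hk₀
    set m : ℕ := ∑ c, (k c - k₀ c).natAbs with hm
    have hmcast : (m : ℤ) = ∑ c, |k c - k₀ c| := by
      simp only [hm, Nat.cast_sum, Int.natCast_natAbs]
    have hprod : ∏ c, f (k c - k₀ c) = ((1 : ℝ) / 8) ^ m := by
      simp only [hf, hm]
      rw [Finset.prod_pow_eq_pow_sum]
    have hm8 : (8 : ℝ) * m ≤ t := by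
      have : (8 : ℤ) * m ≤ t := by rw [hmcast]; exact hsum
      exact_mod_cast this
    have hpow : ((1 : ℝ) / 8) ^ m = Real.exp (-(m : ℝ) * Real.log 8) := by
      rw [one_div, inv_pow, ← Real.rpow_natCast, Real.rpow_def_of_pos (by norm_num),
        ← Real.exp_neg]
      ring_nf
    rw [hprod, hpow, ← Real.exp_add]
    apply Real.one_le_exp
    have hl8 : 0 ≤ Real.log 8 := Real.log_nonneg (by norm_num)
    have : 0 ≤ (t : ℝ) / 8 - m := by linarith
    nlinarith [mul_nonneg this hl8]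
  -- points lie in a box after the shift
  have hbox : ∀ k ∈ P, (fun c => k c - k₀ c) ∈
      Fintype.piFinset (fun _ : κ => Finset.Icc (-(t : ℤ)) t) := by
    intro k hk
    rw [Fintype.mem_piFinset]
    intro c
    have hsum := hP k hk k₀ hk₀
    have hle : |k c - k₀ c| ≤ ∑ c, |k c - k₀ c| :=
      Finset.single_le_sum (f := fun c => |k c - k₀ c|) (fun _ _ => abs_nonneg _) (Finset.mem_univ c)
    have hnn : 0 ≤ ∑ c, |k c - k₀ c| := Finset.sum_nonneg (fun _ _ => abs_nonneg _)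
    have habs : |k c - k₀ c| ≤ t := by linarith
    rw [Finset.mem_Icc]
    exact abs_le.mp habs
  have hsumle : ∑ k ∈ P, ∏ c, f (k c - k₀ c) ≤ (9 / 7 : ℝ) ^ t := by
    have hinj : Set.InjOn (fun (k : κ → ℤ) => (fun c => k c - k₀ c)) (P : Set (κ → ℤ)) := by
      intro k _ k' _ h
      funext c
      have := congrFun h c
      simp only at this
      linarith
    calc ∑ k ∈ P, ∏ c, f (k c - k₀ c)
        = ∑ d ∈ P.image (fun k => (fun c => k c - k₀ c)), ∏ c, f (d c) := by
          rw [Finset.sum_image hinj]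
      _ ≤ ∑ d ∈ Fintype.piFinset (fun _ : κ => Finset.Icc (-(t : ℤ)) t), ∏ c, f (d c) := by
          apply Finset.sum_le_sum_of_subset_of_nonneg
          · intro d hd
            obtain ⟨k, hk, rfl⟩ := Finset.mem_image.mp hd
            exact hbox k hk
          · intro d _ _
            exact Finset.prod_nonneg (fun c _ => hfnn _)
      _ = ∏ _c : κ, ∑ j ∈ Finset.Icc (-(t : ℤ)) t, f j := by
          rw [Finset.prod_univ_sum]
      _ ≤ ∏ _c : κ, (9 / 7 : ℝ) := by
          apply Finset.prod_le_prod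
          · intro c _
            exact Finset.sum_nonneg (fun j _ => hfnn j)
          · intro c _
            exact sum_Icc_pow_le' t
      _ = (9 / 7 : ℝ) ^ t := by
          rw [Finset.prod_const, Finset.card_univ]
  calc (P.card : ℝ) = ∑ _k ∈ P, (1 : ℝ) := by simp
    _ ≤ ∑ k ∈ P, Real.exp ((t : ℝ) / 8 * Real.log 8) * ∏ c, f (k c - k₀ c) :=
        Finset.sum_le_sum hweight
    _ = Real.exp ((t : ℝ) / 8 * Real.log 8) * ∑ k ∈ P, ∏ c, f (k c - k₀ c) := by
        rw [Finset.mul_sum]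
    _ ≤ Real.exp ((t : ℝ) / 8 * Real.log 8) * (9 / 7 : ℝ) ^ t :=
        mul_le_mul_of_nonneg_left hsumle (Real.exp_pos _).le
    _ ≤ Real.exp (0.55 * (t : ℝ)) := numeric_55 t

/-- Same with a coloring: points of the same color are close. -/
theorem card_le_of_color {κ : Type*} [Fintype κ] [DecidableEq κ] {M : ℕ}
    (s : Finset (κ → ℤ)) (col : (κ → ℤ) → Fin M)
    (h : ∀ k ∈ s, ∀ k' ∈ s, col k = col k' →
      8 * ∑ c, |k c - k' c| ≤ (Fintype.card κ : ℤ)) :
    (s.card : ℝ) ≤ M * Real.exp (0.55 * (Fintype.card κ : ℝ)) := by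
  classical
  have hcard : s.card = ∑ m : Fin M, (s.filter (fun k => col k = m)).card :=
    Finset.card_eq_sum_card_fiberwise (fun k _ => Finset.mem_univ (col k))
  rw [hcard]
  push_cast
  calc ∑ m : Fin M, ((s.filter (fun k => col k = m)).card : ℝ)
      ≤ ∑ _m : Fin M, Real.exp (0.55 * (Fintype.card κ : ℝ)) := by
        apply Finset.sum_le_sum
        intro m _
        apply card_le_of_l1_sep
        intro k hk k' hk'
        rw [Finset.mem_filter] at hk hk'
        exact h k hk.1 k' hk'.1 (hk.2.trans hk'.2.symm)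
    _ = M * Real.exp (0.55 * (Fintype.card κ : ℝ)) := by
        simp

theorem geom_le (s : ℝ) (hs : 0 < s) (n : ℕ) :
    ∑ j ∈ Finset.range n, (Real.exp (-s)) ^ j ≤ 1 + 1 / s := by
  have hq0 : 0 < Real.exp (-s) := Real.exp_pos _
  have hq1 : Real.exp (-s) < 1 := by
    rw [Real.exp_lt_one_iff]
    linarith
  have hq2 : Real.exp (-s) ≤ 1 / (1 + s) := by
    rw [Real.exp_neg, one_div]
    apply inv_anti₀ (by positivity)
    linarith [Real.add_one_le_exp s]
  have hgeom : ∑ j ∈ Finset.range n, (Real.exp (-s)) ^ j =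
      (1 - (Real.exp (-s)) ^ n) / (1 - Real.exp (-s)) := by
    rw [geom_sum_eq hq1.ne, ← neg_div_neg_eq]
    ring_nf
  rw [hgeom]
  have h1q : 0 < 1 - Real.exp (-s) := by linarith
  have hn : 0 ≤ (Real.exp (-s)) ^ n := by positivity
  rw [div_le_iff₀ h1q]
  have h3 : (1 + 1 / s) * (1 - Real.exp (-s)) ≥ 1 := by
    have h4 : 1 - Real.exp (-s) ≥ s / (1 + s) := by
      have : s / (1 + s) = 1 - 1 / (1 + s) := by
        field_simp
        ring
      linarith
    have h5 : (1 + 1 / s) * (s / (1 + s)) = 1 := by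
      field_simp
      ring
    calc (1 + 1 / s) * (1 - Real.exp (-s)) ≥ (1 + 1 / s) * (s / (1 + s)) :=
          mul_le_mul_of_nonneg_left h4 (by positivity)
      _ = 1 := h5
  linarith

/-- Few natural vectors below a linear constraint. -/
theorem exists_box_count {κ : Type*} [Fintype κ] [DecidableEq κ] (a : κ → ℝ) (ha : ∀ c, 0 < a c)
    (lam : ℝ) (hlam : 0 < lam) :
    ∃ 𝒦 : Finset (κ → ℕ), (∀ k : κ → ℕ, ∑ c, (k c : ℝ) * a c ≤ 1 → k ∈ 𝒦) ∧
      (𝒦.card : ℝ) ≤ Real.exp lam * ∏ c, (1 + 1 / (lam * a c)) := by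
  classical
  set Box : Finset (κ → ℕ) :=
    Fintype.piFinset (fun c => Finset.range (⌈1 / a c⌉₊ + 1)) with hBox
  refine ⟨Box.filter (fun k => ∑ c, (k c : ℝ) * a c ≤ 1), ?_, ?_⟩
  · intro k hk
    rw [Finset.mem_filter]
    refine ⟨?_, hk⟩
    rw [hBox, Fintype.mem_piFinset]
    intro c
    rw [Finset.mem_range]
    have h1 : (k c : ℝ) * a c ≤ 1 := by
      have := Finset.single_le_sum (f := fun c => (k c : ℝ) * a c)
        (fun c _ => mul_nonneg (Nat.cast_nonneg _) (ha c).le) (Finset.mem_univ c)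
      exact this.trans hk
    have h2 : (k c : ℝ) ≤ 1 / a c := by
      rw [le_div_iff₀ (ha c)]
      exact h1
    have h3 : (k c : ℝ) ≤ ⌈1 / a c⌉₊ := h2.trans (Nat.le_ceil _)
    have h4 : k c ≤ ⌈1 / a c⌉₊ := by exact_mod_cast h3
    omega
  · set 𝒦 := Box.filter (fun k => ∑ c, (k c : ℝ) * a c ≤ 1) with h𝒦
    have hterm : ∀ k ∈ 𝒦, (1 : ℝ) ≤ Real.exp lam * ∏ c, (Real.exp (-(lam * a c))) ^ (k c) := by
      intro k hk
      have hk2 := (Finset.mem_filter.mp hk).2
      have hprod : ∏ c, (Real.exp (-(lam * a c))) ^ (k c) =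
          Real.exp (-(lam * ∑ c, (k c : ℝ) * a c)) := by
        rw [Finset.mul_sum, ← Finset.sum_neg_distrib, Real.exp_sum]
        apply Finset.prod_congr rfl
        intro c _
        rw [← Real.exp_nat_mul]
        congr 1
        ring
      rw [hprod, ← Real.exp_add]
      apply Real.one_le_exp
      have : lam * ∑ c, (k c : ℝ) * a c ≤ lam * 1 := mul_le_mul_of_nonneg_left hk2 hlam.le
      linarith
    calc (𝒦.card : ℝ) = ∑ _k ∈ 𝒦, (1 : ℝ) := by simp
      _ ≤ ∑ k ∈ 𝒦, Real.exp lam * ∏ c, (Real.exp (-(lam * a c))) ^ (k c) :=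
          Finset.sum_le_sum hterm
      _ ≤ ∑ k ∈ Box, Real.exp lam * ∏ c, (Real.exp (-(lam * a c))) ^ (k c) := by
          apply Finset.sum_le_sum_of_subset_of_nonneg (Finset.filter_subset _ _)
          intro k _ _
          positivity
      _ = Real.exp lam * ∑ k ∈ Box, ∏ c, (Real.exp (-(lam * a c))) ^ (k c) := by
          rw [Finset.mul_sum]
      _ = Real.exp lam * ∏ c, ∑ j ∈ Finset.range (⌈1 / a c⌉₊ + 1), (Real.exp (-(lam * a c))) ^ j := by
          rw [hBox, Finset.prod_univ_sum]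
      _ ≤ Real.exp lam * ∏ c, (1 + 1 / (lam * a c)) := by
          apply mul_le_mul_of_nonneg_left _ (Real.exp_pos _).le
          apply Finset.prod_le_prod
          · intro c _
            exact Finset.sum_nonneg (fun j _ => by positivity)
          · intro c _
            exact geom_le _ (mul_pos hlam (ha c)) _

end Vale.Agent.Lib.P126.U
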