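import Mathlib

/-!
Unconditional bodies in coordinates.
-/

namespace Vale.Agent.Lib.P126

/-- `K` is `1`-unconditional with respect to the standard basis: it is invariant under all
changes of signs of the coordinates. -/
def IsUnconditional {n : ℕ} (K : Set (EuclideanSpace ℝ (Fin n))) : Prop :=
  ∀ x ∈ K, ∀ s : Fin n → ℝ, (∀ i, s i = 1 ∨ s i = -1) → WithLp.toLp 2 (fun i => s i * x i) ∈ K

end Vale.Agent.Lib.P126
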