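import Mathlib
import Vale.Agent.Lib.P126.UBase
import Vale.Agent.Lib.P126.UCount

/-!
The abstract setting, and the grid approximation lemma for vectors with prescribed support.
-/

open Finset

namespace Vale.Agent.Lib.P126.U

variable {ι : Type*} [Fintype ι]

/-- The positive layer of a pair of unconditional bodies, with a coloring coming from a cover. -/
structure Setting (Kp Fp Gp : Set (ι → ℝ)) {M : ℕ} (col : (ι → ℝ) → Fin M) (ε : ℝ) : Prop where
  hK : PosBody Kp
  hF : PosBody Fp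
  hG : PosBody Gp
  pair : ∀ x ∈ Kp, ∀ g ∈ Gp, ∑ i, x i * g i ≤ 1
  color : ∀ y ∈ Fp, ∀ y' ∈ Fp, col y = col y' → (fun i => |y i - y' i| / (2 * ε)) ∈ Gp
  ε_pos : 0 < ε
  ε_le : ε ≤ 1 / 512

variable {Kp Fp Gp : Set (ι → ℝ)} {M : ℕ} {col : (ι → ℝ) → Fin M} {ε : ℝ}

theorem Setting.M_pos (_h : Setting Kp Fp Gp col ε) : 1 ≤ M := by
  have := (col 0).pos
  omega

theorem Setting.color_pair (h : Setting Kp Fp Gp col ε) {x y y' : ι → ℝ} (hx : x ∈ Kp)
    (hy : y ∈ Fp) (hy' : y' ∈ Fp) (hc : col y = col y') :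
    ∑ i, x i * |y i - y' i| ≤ 2 * ε := by
  have h1 := h.pair x hx _ (h.color y hy y' hy' hc)
  have hε := h.ε_pos
  have h2 : ∑ i, x i * (|y i - y' i| / (2 * ε)) = (∑ i, x i * |y i - y' i|) / (2 * ε) := by
    rw [Finset.sum_div]
    apply Finset.sum_congr rfl
    intro i _
    ring
  rw [h2, div_le_one (by positivity)] at h1
  exact h1

variable [DecidableEq ι]

theorem numeric_grid (t : ℕ) :
    Real.exp (2 * (t : ℝ)) * (2 : ℝ) ^ t * Real.exp (0.55 * (t : ℝ)) ≤
      Real.exp (3.25 * (t : ℝ)) := by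
  have h2 : (2 : ℝ) ^ t = Real.exp ((t : ℝ) * Real.log 2) := by
    rw [Real.exp_nat_mul, Real.exp_log (by norm_num)]
  rw [h2, ← Real.exp_add, ← Real.exp_add]
  apply Real.exp_le_exp.mpr
  have hl := Real.log_two_lt_d9
  have ht : (0 : ℝ) ≤ t := Nat.cast_nonneg t
  nlinarith [mul_le_mul_of_nonneg_left hl.le ht]

/-- Grid approximation. -/
theorem Setting.grid (h : Setting Kp Fp Gp col ε) (D : Finset ι) :
    ∃ (δ : ι → ℝ) (C : Finset (ι → ℝ)), (∀ i, 0 ≤ δ i) ∧
      (∀ w ∈ Fp, ∑ i, δ i * w i ≤ 1 / 16) ∧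
      (C.card : ℝ) ≤ Real.exp (3.25 * (D.card : ℝ)) * M ∧
      ∀ x ∈ Kp, (∀ i, i ∉ D → x i = 0) → ∃ d ∈ C, ∀ i, |x i - d i| ≤ δ i := by
  classical
  rcases D.eq_empty_or_nonempty with rfl | hDne
  · refine ⟨0, {0}, by simp, ?_, ?_, ?_⟩
    · intro w _
      simp only [Pi.zero_apply, zero_mul, Finset.sum_const_zero]
      norm_num
    · have : (1 : ℝ) ≤ M := by exact_mod_cast h.M_pos
      simpa using this
    · intro x _ hx
      refine ⟨0, by simp, ?_⟩
      intro i
      simp [hx i (by simp)]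
  have htpos0 : 0 < D.card := Finset.card_pos.mpr hDne
  set t : ℝ := (D.card : ℝ) with ht
  have htpos : 0 < t := by
    rw [ht]
    exact_mod_cast htpos0
  obtain ⟨w', hw'F, hw'pos, hw'loz⟩ := exists_loz h.hF D
  obtain ⟨g', hg'G, hg'pos, hg'loz⟩ := exists_loz h.hG D
  set δ : ι → ℝ := fun i => if i ∈ D then (1 / 16) / (2 * t * w' i) else 0 with hδ
  have hδD : ∀ i ∈ D, δ i = (1 / 16) / (2 * t * w' i) := fun i hi => by simp [hδ, hi]
  have hδoff : ∀ i, i ∉ D → δ i = 0 := fun i hi => by simp [hδ, hi]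
  have hδpos : ∀ i ∈ D, 0 < δ i := by
    intro i hi
    rw [hδD i hi]
    have := hw'pos i
    positivity
  have hδnn : ∀ i, 0 ≤ δ i := by
    intro i
    by_cases hi : i ∈ D
    · exact (hδpos i hi).le
    · rw [hδoff i hi]
  -- the mean value estimate
  have hδw : ∀ w ∈ Fp, ∑ i, δ i * w i ≤ 1 / 16 := by
    intro w hw
    have hloz := hw'loz w hw
    have h1 : ∑ i, δ i * w i = ∑ i ∈ D, (1 / (32 * t)) * (w i / w' i) := by
      rw [← Finset.sum_subset (Finset.subset_univ D)]
      · apply Finset.sum_congr rfl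
        intro i hi
        rw [hδD i hi]
        have := hw'pos i
        field_simp
        ring
      · intro i _ hi
        rw [hδoff i hi, zero_mul]
    rw [h1, ← Finset.mul_sum]
    calc (1 / (32 * t)) * ∑ i ∈ D, w i / w' i ≤ (1 / (32 * t)) * (2 * t) :=
          mul_le_mul_of_nonneg_left hloz (by positivity)
      _ = 1 / 16 := by
          field_simp
          norm_num
  -- the upper count
  let a : D → ℝ := fun c => δ c * g' c
  have ha : ∀ c, 0 < a c := fun c => mul_pos (hδpos c c.2) (hg'pos c)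
  obtain ⟨𝒦, h𝒦mem, h𝒦card⟩ := exists_box_count a ha (2 * t) (by positivity)
  have hu : ∀ c : D, 1 / (2 * t * a c) = 16 * w' c / g' c := by
    intro c
    simp only [a]
    rw [hδD c c.2]
    have h1 := hw'pos c
    have h2 := hg'pos c
    field_simp
  -- the lower count
  let B : D → ℕ := fun c => ⌊16 * w' c / g' c⌋₊
  let s : Finset (D → ℤ) := Fintype.piFinset (fun c => Finset.Icc (0 : ℤ) (B c : ℤ))
  let z : (D → ℤ) → ι → ℝ := fun k i => if hi : i ∈ D then (k ⟨i, hi⟩ : ℝ) * g' i / 16 else 0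
  have hzD : ∀ (k : D → ℤ) (c : D), z k c = (k c : ℝ) * g' c / 16 := by
    intro k c
    simp [z, c.2]
  have hzoff : ∀ (k : D → ℤ) (i : ι), i ∉ D → z k i = 0 := by
    intro k i hi
    simp [z, hi]
  have hz : ∀ k ∈ s, z k ∈ Fp := by
    intro k hk
    apply h.hF.solid w' hw'F
    · intro i
      by_cases hi : i ∈ D
      · have h0 := (Finset.mem_Icc.mp (Fintype.mem_piFinset.mp hk ⟨i, hi⟩)).1
        have := hzD k ⟨i, hi⟩
        simp only at this
        rw [this]
        have h1 := hg'pos i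
        have : (0 : ℝ) ≤ k ⟨i, hi⟩ := by exact_mod_cast h0
        positivity
      · rw [hzoff k i hi]
    · intro i
      by_cases hi : i ∈ D
      · have h0 := (Finset.mem_Icc.mp (Fintype.mem_piFinset.mp hk ⟨i, hi⟩)).2
        have h3 := hzD k ⟨i, hi⟩
        simp only at h3
        rw [h3]
        have h1 := hg'pos i
        have h2 := hw'pos i
        have h4 : ((k ⟨i, hi⟩ : ℤ) : ℝ) ≤ ((B ⟨i, hi⟩ : ℤ) : ℝ) := by exact_mod_cast h0
        have h5 : ((B ⟨i, hi⟩ : ℕ) : ℝ) ≤ 16 * w' i / g' i :=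
          Nat.floor_le (by positivity)
        have h6 : (k ⟨i, hi⟩ : ℝ) ≤ 16 * w' i / g' i := by
          refine h4.trans ?_
          exact_mod_cast h5
        rw [le_div_iff₀ h1] at h6
        rw [div_le_iff₀ (by norm_num)]
        linarith
      · rw [hzoff k i hi]
        exact h.hF.nonneg w' hw'F i
  have hzsep : ∀ k ∈ s, ∀ k' ∈ s, col (z k) = col (z k') →
      8 * ∑ c : D, |k c - k' c| ≤ (Fintype.card D : ℤ) := by
    intro k hk k' hk' hc
    have hG := h.color _ (hz k hk) _ (hz k' hk') hc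
    have hloz := hg'loz _ hG
    have hε := h.ε_pos
    have h1 : ∑ i ∈ D, (|z k i - z k' i| / (2 * ε)) / g' i =
        ∑ c : D, ((|k c - k' c| : ℤ) : ℝ) / (32 * ε) := by
      rw [← Finset.sum_coe_sort D]
      apply Finset.sum_congr rfl
      intro c _
      rw [hzD k c, hzD k' c]
      have h2 := hg'pos c
      have h3 : (k c : ℝ) * g' c / 16 - (k' c : ℝ) * g' c / 16 =
          ((k c : ℝ) - (k' c : ℝ)) * (g' c / 16) := by ring
      rw [h3, abs_mul, abs_of_pos (show 0 < g' c / 16 by positivity)]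
      push_cast
      field_simp
      ring
    rw [h1, ← Finset.sum_div, div_le_iff₀ (by positivity)] at hloz
    have h2 : ((∑ c : D, |k c - k' c| : ℤ) : ℝ) ≤ t / 8 := by
      push_cast
      have h3 : 2 * (D.card : ℝ) * (32 * ε) ≤ t / 8 := by
        rw [← ht]
        have := h.ε_le
        nlinarith
      exact le_trans (by exact_mod_cast hloz) h3
    have h4 : (8 : ℝ) * ((∑ c : D, |k c - k' c| : ℤ) : ℝ) ≤ ((Fintype.card D : ℤ) : ℝ) := by
      rw [Fintype.card_coe]
      push_cast at h2 ⊢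
      rw [← ht]
      linarith
    exact_mod_cast h4
  have hscard := card_le_of_color s (fun k => col (z k)) hzsep
  rw [Fintype.card_coe] at hscard
  have hscard2 : (s.card : ℝ) = ∏ c : D, ((B c : ℝ) + 1) := by
    simp only [s]
    rw [Fintype.card_piFinset]
    push_cast
    apply Finset.prod_congr rfl
    intro c _
    rw [Int.card_Icc]
    have : ((B c : ℤ) + 1 - 0).toNat = B c + 1 := by omega
    rw [this]
    push_cast
    ring
  have hprod : ∏ c : D, (1 + 1 / (2 * t * a c)) ≤ (2 : ℝ) ^ D.card * s.card := by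
    rw [hscard2]
    have h2pow : (2 : ℝ) ^ D.card = ∏ _c : D, (2 : ℝ) := by
      rw [Finset.prod_const, Finset.card_univ, Fintype.card_coe]
    rw [h2pow, ← Finset.prod_mul_distrib]
    apply Finset.prod_le_prod
    · intro c _
      have := ha c
      positivity
    · intro c _
      rw [hu c]
      have h1 := hg'pos c
      have h2 := hw'pos c
      have h3 : 16 * w' c / g' c < (B c : ℝ) + 1 := Nat.lt_floor_add_one _
      have h4 : (0 : ℝ) ≤ B c := Nat.cast_nonneg _
      linarith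
  -- assemble
  let emb : (D → ℕ) → ι → ℝ := fun k i => if hi : i ∈ D then (k ⟨i, hi⟩ : ℝ) * δ i else 0
  refine ⟨δ, 𝒦.image emb, hδnn, hδw, ?_, ?_⟩
  · have hMpos : (0 : ℝ) ≤ M := Nat.cast_nonneg _
    calc ((𝒦.image emb).card : ℝ) ≤ 𝒦.card := by exact_mod_cast Finset.card_image_le
      _ ≤ Real.exp (2 * t) * ∏ c, (1 + 1 / (2 * t * a c)) := h𝒦card
      _ ≤ Real.exp (2 * t) * ((2 : ℝ) ^ D.card * (M * Real.exp (0.55 * t))) := by
          apply mul_le_mul_of_nonneg_left _ (Real.exp_pos _).le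
          refine hprod.trans ?_
          apply mul_le_mul_of_nonneg_left hscard (by positivity)
      _ = (Real.exp (2 * t) * (2 : ℝ) ^ D.card * Real.exp (0.55 * t)) * M := by ring
      _ ≤ Real.exp (3.25 * t) * M :=
          mul_le_mul_of_nonneg_right (numeric_grid D.card) hMpos
  · intro x hx hsupp
    have hxnn := h.hK.nonneg x hx
    let k : D → ℕ := fun c => ⌊x c / δ c⌋₊
    have hkle : ∀ c : D, (k c : ℝ) * δ c ≤ x c := by
      intro c
      have h1 : (k c : ℝ) ≤ x c / δ c := Nat.floor_le (div_nonneg (hxnn c) (hδpos c c.2).le)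
      have h2 := hδpos c c.2
      rwa [le_div_iff₀ h2] at h1
    have hklt : ∀ c : D, x c < ((k c : ℝ) + 1) * δ c := by
      intro c
      have h1 : x c / δ c < (k c : ℝ) + 1 := Nat.lt_floor_add_one _
      have h2 := hδpos c c.2
      rwa [div_lt_iff₀ h2] at h1
    have hk𝒦 : k ∈ 𝒦 := by
      apply h𝒦mem
      have h1 : ∑ c : D, (k c : ℝ) * a c ≤ ∑ c : D, x c * g' c := by
        apply Finset.sum_le_sum
        intro c _
        simp only [a]
        rw [← mul_assoc]
        exact mul_le_mul_of_nonneg_right (hkle c) (hg'pos c).le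
      have h2 : ∑ c : D, x c * g' c ≤ ∑ i, x i * g' i := by
        rw [Finset.sum_coe_sort D (fun i => x i * g' i)]
        apply Finset.sum_le_sum_of_subset_of_nonneg (Finset.subset_univ D)
        intro i _ _
        exact mul_nonneg (hxnn i) (hg'pos i).le
      exact h1.trans (h2.trans (h.pair x hx g' hg'G))
    refine ⟨emb k, Finset.mem_image_of_mem _ hk𝒦, ?_⟩
    intro i
    by_cases hi : i ∈ D
    · have h1 : emb k i = (k ⟨i, hi⟩ : ℝ) * δ i := by simp [emb, hi]
      rw [h1, abs_le]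
      have h2 := hkle ⟨i, hi⟩
      have h3 := hklt ⟨i, hi⟩
      simp only at h2 h3
      have h4 := hδpos i hi
      constructor <;> nlinarith
    · have h1 : emb k i = 0 := by simp [emb, hi]
      rw [h1, hsupp i hi, hδoff i hi]
      simp

/-- A family with prescribed support separated on `Fp` is small. -/
theorem Setting.card_fiber_le (h : Setting Kp Fp Gp col ε) {Ξ : Type*} (B : Finset Ξ)
    (u : Ξ → ι → ℝ) (D : Finset ι) (hu : ∀ ξ ∈ B, u ξ ∈ Kp)
    (hD : ∀ ξ ∈ B, ∀ i, i ∉ D → u ξ i = 0)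
    (hsep : ∀ ξ ∈ B, ∀ ξ' ∈ B, ξ ≠ ξ' → ∃ w ∈ Fp, 1 / 8 < ∑ i, |u ξ i - u ξ' i| * w i) :
    (B.card : ℝ) ≤ Real.exp (3.25 * (D.card : ℝ)) * M := by
  classical
  obtain ⟨δ, C, hδnn, hδw, hC, hcov⟩ := h.grid D
  have hex : ∀ ξ, ξ ∈ B → ∃ d ∈ C, ∀ i, |u ξ i - d i| ≤ δ i := fun ξ hξ =>
    hcov (u ξ) (hu ξ hξ) (hD ξ hξ)
  choose! d hdC hd using hex
  have hinj : Set.InjOn d (B : Set Ξ) := by
    intro ξ hξ ξ' hξ' heq
    by_contra hne
    obtain ⟨w, hw, hlt⟩ := hsep ξ hξ ξ' hξ' hne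
    have hwnn := h.hF.nonneg w hw
    have h1 : ∑ i, |u ξ i - u ξ' i| * w i ≤ ∑ i, 2 * (δ i * w i) := by
      apply Finset.sum_le_sum
      intro i _
      have h2 := hd ξ hξ i
      have h3 := hd ξ' hξ' i
      rw [← heq] at h3
      have h4 : |u ξ i - u ξ' i| ≤ 2 * δ i := by
        have h5 := abs_sub_le (u ξ i) (d ξ i) (u ξ' i)
        rw [abs_sub_comm (d ξ i)] at h5
        linarith
      have := mul_le_mul_of_nonneg_right h4 (hwnn i)
      linarith
    rw [← Finset.mul_sum] at h1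
    have := hδw w hw
    linarith
  have hcard : B.card ≤ C.card := Finset.card_le_card_of_injOn d (fun ξ hξ => hdC ξ hξ) hinj
  calc (B.card : ℝ) ≤ C.card := by exact_mod_cast hcard
    _ ≤ _ := hC

end Vale.Agent.Lib.P126.U
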