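import Mathlib
import Vale.Agent.Lib.P126.UGrid

/-!
Sparse approximation of points of the body, when the covering number is small.
-/

open Finset

namespace Vale.Agent.Lib.P126.U

variable {ι : Type*} [Fintype ι] [DecidableEq ι]

theorem exists_chunk (m : ι → ℝ) (ξ : ℝ) (hξ : 0 < ξ) (hmξ : ∀ i, m i ≤ ξ) (A : Finset ι) :
    ξ ≤ ∑ i ∈ A, m i → ∃ E ⊆ A, ξ ≤ ∑ i ∈ E, m i ∧ ∑ i ∈ E, m i < 2 * ξ := by
  induction A using Finset.induction_on with
  | empty =>
    intro h
    simp only [Finset.sum_empty] at h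
    linarith
  | insert a A ha ih =>
    intro h
    by_cases hlt : ∑ i ∈ insert a A, m i < 2 * ξ
    · exact ⟨insert a A, subset_rfl, h, hlt⟩
    · rw [Finset.sum_insert ha] at hlt
      have h1 : ξ ≤ ∑ i ∈ A, m i := by
        have := hmξ a
        push Not at hlt
        linarith
      obtain ⟨E, hE, h2, h3⟩ := ih h1
      exact ⟨E, hE.trans (Finset.subset_insert _ _), h2, h3⟩

theorem exists_chunks (m : ι → ℝ) (ξ : ℝ) (hξ : 0 < ξ) (hm : ∀ i, 0 ≤ m i) (hmξ : ∀ i, m i ≤ ξ) :
    ∀ (r : ℕ) (A : Finset ι), 2 * ξ * r ≤ ∑ i ∈ A, m i →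
      ∃ E : Fin r → Finset ι, (∀ j, E j ⊆ A) ∧ (∀ j j', j ≠ j' → Disjoint (E j) (E j')) ∧
        ∀ j, ξ ≤ ∑ i ∈ E j, m i := by
  intro r
  induction r with
  | zero =>
    intro A _
    exact ⟨fun j => j.elim0, fun j => j.elim0, fun j => j.elim0, fun j => j.elim0⟩
  | succ r ih =>
    intro A hA
    push_cast at hA
    have hr0 : (0 : ℝ) ≤ r := Nat.cast_nonneg r
    have h1 : ξ ≤ ∑ i ∈ A, m i := by nlinarith
    obtain ⟨E₀, hE₀, h2, h3⟩ := exists_chunk m ξ hξ hmξ A h1
    have h4 : 2 * ξ * r ≤ ∑ i ∈ A \ E₀, m i := by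
      have := Finset.sum_sdiff (f := m) hE₀
      nlinarith
    obtain ⟨E, hE, hdisj, hmass⟩ := ih (A \ E₀) h4
    refine ⟨Fin.cons E₀ E, ?_, ?_, ?_⟩
    · intro j
      refine Fin.cases ?_ (fun j => ?_) j
      · simpa using hE₀
      · simp only [Fin.cons_succ]
        exact (hE j).trans Finset.sdiff_subset
    · intro j j'
      refine Fin.cases ?_ (fun j => ?_) j <;> refine Fin.cases ?_ (fun j' => ?_) j'
      · intro hne
        exact absurd rfl hne
      · intro _
        simp only [Fin.cons_zero, Fin.cons_succ]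
        exact (Finset.disjoint_of_subset_left (hE j') Finset.sdiff_disjoint).symm
      · intro _
        simp only [Fin.cons_zero, Fin.cons_succ]
        exact Finset.disjoint_of_subset_left (hE j) Finset.sdiff_disjoint
      · intro hne
        simp only [Fin.cons_succ]
        exact hdisj j j' (fun h => hne (by rw [h]))
    · intro j
      refine Fin.cases ?_ (fun j => ?_) j
      · simpa using h2
      · simpa using hmass j

variable {Kp Fp Gp : Set (ι → ℝ)} {M : ℕ} {col : (ι → ℝ) → Fin M} {ε : ℝ}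

/-- The mass bound behind the sparse approximation. -/
theorem Setting.mass_lt (h : Setting Kp Fp Gp col ε) (r : ℕ) (hr : 1 ≤ r)
    (hrM : (M : ℝ) * Real.exp (0.55 * (r : ℝ)) < (2 : ℝ) ^ r) {x y : ι → ℝ} (hx : x ∈ Kp)
    (hy : y ∈ Fp) (A : Finset ι) (hA : ∀ i ∈ A, 0 < x i) :
    ∑ i ∈ A, min (x i * y i) (1 / (16 * (r : ℝ))) < 2 * (1 / (16 * (r : ℝ))) * r := by
  classical
  have hr0 : (0 : ℝ) < r := by exact_mod_cast hr
  set ξ : ℝ := 1 / (16 * (r : ℝ)) with hξdef
  have hξ : 0 < ξ := by positivity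
  have hxnn := h.hK.nonneg x hx
  have hynn := h.hF.nonneg y hy
  set m : ι → ℝ := fun i => min (x i * y i) ξ with hmdef
  have hm : ∀ i, 0 ≤ m i := fun i => le_min (mul_nonneg (hxnn i) (hynn i)) hξ.le
  have hmξ : ∀ i, m i ≤ ξ := fun i => min_le_right _ _
  have hmxy : ∀ i, m i ≤ x i * y i := fun i => min_le_left _ _
  by_contra hcon
  push Not at hcon
  obtain ⟨E, hEA, hEdisj, hEmass⟩ := exists_chunks m ξ hξ hm hmξ r A hcon
  have hchoose : ∀ (c : ι) (j : Fin r), c ∈ E j → ∀ (hc : ∃ j, c ∈ E j), hc.choose = j := by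
    intro c j hj hc
    by_contra hne
    exact Finset.disjoint_left.mp (hEdisj _ _ hne) hc.choose_spec hj
  let Y : (Fin r → ℤ) → ι → ℝ := fun k c =>
    if hc : ∃ j, c ∈ E j then (k hc.choose : ℝ) * (m c / x c) else 0
  have hYmem : ∀ (k : Fin r → ℤ) (j : Fin r) (c : ι), c ∈ E j → Y k c = (k j : ℝ) * (m c / x c) := by
    intro k j c hc
    have hex : ∃ j, c ∈ E j := ⟨j, hc⟩
    simp only [Y, dif_pos hex, hchoose c j hc hex]
  have hYoff : ∀ (k : Fin r → ℤ) (c : ι), (¬ ∃ j, c ∈ E j) → Y k c = 0 := by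
    intro k c hc
    simp only [Y, dif_neg hc]
  let s : Finset (Fin r → ℤ) := Fintype.piFinset (fun _ => Finset.Icc (0 : ℤ) 1)
  have hsmem : ∀ k ∈ s, ∀ j, (0 : ℝ) ≤ k j ∧ (k j : ℝ) ≤ 1 := by
    intro k hk j
    have := Finset.mem_Icc.mp (Fintype.mem_piFinset.mp hk j)
    constructor
    · exact_mod_cast this.1
    · exact_mod_cast this.2
  have hYF : ∀ k ∈ s, Y k ∈ Fp := by
    intro k hk
    apply h.hF.solid y hy
    · intro c
      by_cases hc : ∃ j, c ∈ E j
      · obtain ⟨j, hj⟩ := hc
        rw [hYmem k j c hj]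
        have h1 := (hsmem k hk j).1
        have h2 := hm c
        have h3 := hA c (hEA j hj)
        positivity
      · rw [hYoff k c hc]
    · intro c
      by_cases hc : ∃ j, c ∈ E j
      · obtain ⟨j, hj⟩ := hc
        rw [hYmem k j c hj]
        have h1 := hsmem k hk j
        have h2 := hm c
        have h3 := hA c (hEA j hj)
        have h4 : m c / x c ≤ y c := by
          rw [div_le_iff₀ h3]
          linarith [hmxy c]
        have h5 : 0 ≤ m c / x c := by positivity
        nlinarith [h1.1, h1.2]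
      · rw [hYoff k c hc]
        exact hynn c
  have hclose : ∀ k ∈ s, ∀ k' ∈ s, col (Y k) = col (Y k') →
      8 * ∑ c : Fin r, |k c - k' c| ≤ (Fintype.card (Fin r) : ℤ) := by
    intro k hk k' hk' hc
    have h1 := h.color_pair hx (hYF k hk) (hYF k' hk') hc
    have h2 : ξ * ∑ j : Fin r, ((|k j - k' j| : ℤ) : ℝ) ≤ ∑ c, x c * |Y k c - Y k' c| := by
      have hb : ∑ j : Fin r, ∑ c ∈ E j, x c * |Y k c - Y k' c| ≤ ∑ c, x c * |Y k c - Y k' c| := by
        rw [← Finset.sum_biUnion (fun j _ j' _ hne => hEdisj j j' hne)]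
        apply Finset.sum_le_sum_of_subset_of_nonneg (Finset.subset_univ _)
        intro c _ _
        exact mul_nonneg (hxnn c) (abs_nonneg _)
      refine le_trans ?_ hb
      rw [Finset.mul_sum]
      apply Finset.sum_le_sum
      intro j _
      have h3 : ∑ c ∈ E j, x c * |Y k c - Y k' c| =
          ((|k j - k' j| : ℤ) : ℝ) * ∑ c ∈ E j, m c := by
        rw [Finset.mul_sum]
        apply Finset.sum_congr rfl
        intro c hcj
        rw [hYmem k j c hcj, hYmem k' j c hcj]
        have h4 := hA c (hEA j hcj)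
        have h5 := hm c
        rw [← sub_mul, abs_mul, abs_of_nonneg (show 0 ≤ m c / x c by positivity)]
        push_cast
        field_simp
      rw [h3, mul_comm]
      exact mul_le_mul_of_nonneg_left (hEmass j) (by positivity)
    have h3 : ∑ j : Fin r, ((|k j - k' j| : ℤ) : ℝ) ≤ 32 * ε * r := by
      have h4 : ξ * ∑ j : Fin r, ((|k j - k' j| : ℤ) : ℝ) ≤ 2 * ε := h2.trans h1
      rw [hξdef, one_div, inv_mul_eq_div, div_le_iff₀ (by positivity)] at h4
      linarith
    have h5 : (8 : ℝ) * ∑ j : Fin r, ((|k j - k' j| : ℤ) : ℝ) ≤ r := by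
      have := h.ε_le
      have h6 : 32 * ε * r ≤ r / 16 := by nlinarith
      linarith
    have h6 : ((8 * ∑ c : Fin r, |k c - k' c| : ℤ) : ℝ) ≤ ((Fintype.card (Fin r) : ℤ) : ℝ) := by
      simpa using h5
    exact_mod_cast h6
  have hcard := card_le_of_color s (fun k => col (Y k)) hclose
  rw [Fintype.card_fin] at hcard
  have hscard : (s.card : ℝ) = (2 : ℝ) ^ r := by
    simp only [s]
    rw [Fintype.card_piFinset]
    simp
  rw [hscard] at hcard
  linarith

/-- Sparse approximation: each point of `Kp` is close, on `Fp`, to its restriction to a set of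
at most `4 r` coordinates. -/
theorem Setting.sparse (h : Setting Kp Fp Gp col ε) (r : ℕ) (hr : 1 ≤ r)
    (hrM : (M : ℝ) * Real.exp (0.55 * (r : ℝ)) < (2 : ℝ) ^ r) {x : ι → ℝ} (hx : x ∈ Kp) :
    ∃ T : Finset ι, T.card ≤ 4 * r ∧ ∀ w ∈ Fp, ∑ i ∈ Tᶜ, x i * w i ≤ 1 / 4 := by
  classical
  have hr0 : (0 : ℝ) < r := by exact_mod_cast hr
  set ξ : ℝ := 1 / (16 * (r : ℝ)) with hξdef
  have hξ : 0 < ξ := by positivity
  have hxnn := h.hK.nonneg x hx
  set A : Finset ι := Finset.univ.filter (fun i => 0 < x i) with hAdef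
  have hA : ∀ i ∈ A, 0 < x i := fun i hi => (Finset.mem_filter.mp hi).2
  have hAoff : ∀ i, i ∉ A → x i = 0 := by
    intro i hi
    have h1 : ¬ 0 < x i := fun h => hi (Finset.mem_filter.mpr ⟨Finset.mem_univ i, h⟩)
    exact le_antisymm (not_lt.mp h1) (hxnn i)
  obtain ⟨y, hy, hmax⟩ := exists_log_max h.hF A (fun _ => ξ) (fun i => ξ / x i)
    (fun _ _ => hξ.le) (fun i hi => div_pos hξ (hA i hi))
  have hynn := h.hF.nonneg y hy
  set q : ι → ℝ := fun i => ξ * x i / (x i * y i + ξ) with hq
  have hqnn : ∀ i, 0 ≤ q i := fun i => by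
    have := hxnn i
    have := hynn i
    simp only [hq]
    positivity
  have hmax2 : ∀ w ∈ Fp, ∑ i ∈ A, q i * w i ≤ ∑ i ∈ A, q i * y i := by
    intro w hw
    have h1 := hmax w hw
    have h2 : ∑ i ∈ A, ξ * (w i - y i) / (y i + ξ / x i) =
        ∑ i ∈ A, q i * w i - ∑ i ∈ A, q i * y i := by
      rw [← Finset.sum_sub_distrib]
      apply Finset.sum_congr rfl
      intro i hi
      have h3 := hA i hi
      have h4 := hynn i
      simp only [hq]
      field_simp
    rw [h2] at h1
    linarith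
  have hqm : ∀ i, q i * y i ≤ min (x i * y i) ξ := by
    intro i
    have h3 := hxnn i
    have h4 := hynn i
    have hv : 0 ≤ x i * y i := mul_nonneg h3 h4
    have hden : 0 < x i * y i + ξ := by linarith
    have heq : q i * y i = ξ * (x i * y i) / (x i * y i + ξ) := by
      simp only [hq]
      ring
    rw [heq]
    apply le_min
    · rw [div_le_iff₀ hden]
      nlinarith
    · rw [div_le_iff₀ hden]
      nlinarith
  have hmass := h.mass_lt r hr hrM hx hy A hA
  rw [← hξdef] at hmass
  have hsum : ∑ i ∈ A, q i * y i < 2 * ξ * r :=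
    lt_of_le_of_lt (Finset.sum_le_sum (fun i _ => hqm i)) hmass
  have h2ξr : 2 * ξ * r = 1 / 8 := by
    rw [hξdef]
    field_simp
    norm_num
  set T : Finset ι := A.filter (fun i => ξ ≤ x i * y i) with hT
  refine ⟨T, ?_, ?_⟩
  · have h1 : (T.card : ℝ) * (ξ / 2) ≤ ∑ i ∈ A, q i * y i := by
      calc (T.card : ℝ) * (ξ / 2) = ∑ _i ∈ T, ξ / 2 := by simp
        _ ≤ ∑ i ∈ T, q i * y i := by
            apply Finset.sum_le_sum
            intro i hi
            have hv := (Finset.mem_filter.mp hi).2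
            have hden : 0 < x i * y i + ξ := by linarith
            have heq : q i * y i = ξ * (x i * y i) / (x i * y i + ξ) := by
              simp only [hq]
              ring
            rw [heq, le_div_iff₀ hden]
            nlinarith
        _ ≤ ∑ i ∈ A, q i * y i := by
            apply Finset.sum_le_sum_of_subset_of_nonneg (Finset.filter_subset _ _)
            intro i _ _
            exact mul_nonneg (hqnn i) (hynn i)
    have h2 : (T.card : ℝ) * (ξ / 2) < 2 * ξ * r := lt_of_le_of_lt h1 hsum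
    have h3 : (T.card : ℝ) < 4 * r := by
      have : (T.card : ℝ) * ξ < (4 * r) * ξ := by nlinarith
      exact lt_of_mul_lt_mul_right this hξ.le
    have h4 : T.card < 4 * r := by exact_mod_cast h3
    omega
  · intro w hw
    have hwnn := h.hF.nonneg w hw
    have h1 : ∑ i ∈ Tᶜ, x i * w i ≤ ∑ i ∈ A, 2 * (q i * w i) := by
      have h2 : ∑ i ∈ Tᶜ, x i * w i ≤ ∑ i ∈ Tᶜ, (if i ∈ A then 2 * (q i * w i) else 0) := by
        apply Finset.sum_le_sum
        intro i hi
        by_cases hiA : i ∈ A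
        · rw [if_pos hiA]
          have hiT : ¬ ξ ≤ x i * y i := by
            intro hv
            exact (Finset.mem_compl.mp hi) (Finset.mem_filter.mpr ⟨hiA, hv⟩)
          push Not at hiT
          have h3 := hA i hiA
          have h4 := hynn i
          have hden : 0 < x i * y i + ξ := by positivity
          have h5 : x i ≤ 2 * q i := by
            simp only [hq]
            rw [mul_div_assoc', le_div_iff₀ hden]
            nlinarith
          have := mul_le_mul_of_nonneg_right h5 (hwnn i)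
          linarith
        · rw [if_neg hiA, hAoff i hiA, zero_mul]
      refine h2.trans ?_
      calc ∑ i ∈ Tᶜ, (if i ∈ A then 2 * (q i * w i) else 0)
          ≤ ∑ i, (if i ∈ A then 2 * (q i * w i) else 0) := by
            apply Finset.sum_le_sum_of_subset_of_nonneg (Finset.subset_univ _)
            intro i _ _
            split_ifs
            · have := mul_nonneg (hqnn i) (hwnn i)
              linarith
            · exact le_rfl
        _ = ∑ i ∈ A, 2 * (q i * w i) := by
            rw [Finset.sum_ite_mem]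
            simp
    rw [← Finset.mul_sum] at h1
    have h3 := hmax2 w hw
    linarith

end Vale.Agent.Lib.P126.U
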