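import Mathlib
import Vale.Agent.Lib.P126.USparse
import Vale.Agent.Lib.P126.UBad

/-!
The dual game: against every mixed strategy of large subfamilies, a choice of functionals
charges the part of the supports off the frequent coordinates.
-/

open Finset

namespace Vale.Agent.Lib.P126.U

variable {ι : Type*} [Fintype ι] [DecidableEq ι]

/-- A separated family of vectors with small supports. -/
structure SepFamily (Kp Fp : Set (ι → ℝ)) {Ξ : Type*} (x : Ξ → ι → ℝ) (A : Ξ → Finset ι)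
    (v : ℕ) : Prop where
  mem : ∀ ξ, x ξ ∈ Kp
  off : ∀ ξ c, c ∉ A ξ → x ξ c = 0
  card : ∀ ξ, (A ξ).card ≤ v
  sep : ∀ ξ ξ', ξ ≠ ξ' → ∃ w ∈ Fp, 1 / 4 < ∑ c, |x ξ c - x ξ' c| * w c

/-- Frequent coordinates of a subfamily. -/
def Zf {Ξ : Type*} (A : Ξ → Finset ι) (I : Finset Ξ) : Finset ι :=
  Finset.univ.filter (fun c => I.card ≤ 2 * (I.filter (fun ξ => c ∈ A ξ)).card)

/-- Payoff of a choice of functionals against a subfamily. -/
noncomputable def Qv {Ξ : Type*} (x : Ξ → ι → ℝ) (A : Ξ → Finset ι) (y : Ξ → ι → ℝ)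
    (I : Finset Ξ) : ℝ :=
  (1 / (I.card : ℝ)) * ∑ ξ ∈ I, ∑ c ∈ (A ξ).filter (· ∉ Zf A I), x ξ c * y ξ c

theorem card_Zf {Ξ : Type*} (A : Ξ → Finset ι) (v : ℕ) (hv : ∀ ξ, (A ξ).card ≤ v) (I : Finset Ξ)
    (hI : I.Nonempty) : (Zf A I).card ≤ 2 * v := by
  classical
  have hdouble : ∑ c : ι, (I.filter (fun ξ => c ∈ A ξ)).card = ∑ ξ ∈ I, (A ξ).card := by
    have h1 := Finset.sum_card_bipartiteAbove_eq_sum_card_bipartiteBelow (s := I)
      (t := (Finset.univ : Finset ι)) (fun ξ c => c ∈ A ξ)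
    simp only [Finset.bipartiteAbove, Finset.bipartiteBelow] at h1
    rw [← h1]
    apply Finset.sum_congr rfl
    intro ξ _
    congr 1
    ext c
    simp
  have h1 : (Zf A I).card * I.card ≤ ∑ c ∈ Zf A I, 2 * (I.filter (fun ξ => c ∈ A ξ)).card := by
    rw [← smul_eq_mul, ← Finset.sum_const]
    apply Finset.sum_le_sum
    intro c hc
    exact (Finset.mem_filter.mp hc).2
  have h2 : ∑ c ∈ Zf A I, 2 * (I.filter (fun ξ => c ∈ A ξ)).card ≤
      ∑ c : ι, 2 * (I.filter (fun ξ => c ∈ A ξ)).card :=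
    Finset.sum_le_sum_of_subset_of_nonneg (Finset.subset_univ _) (fun _ _ _ => Nat.zero_le _)
  have h3 : ∑ c : ι, 2 * (I.filter (fun ξ => c ∈ A ξ)).card = 2 * ∑ ξ ∈ I, (A ξ).card := by
    rw [← Finset.mul_sum, hdouble]
  have h4 : ∑ ξ ∈ I, (A ξ).card ≤ I.card * v := by
    rw [← smul_eq_mul, ← Finset.sum_const]
    exact Finset.sum_le_sum (fun ξ _ => hv ξ)
  have hIpos : 0 < I.card := Finset.card_pos.mpr hI
  have h5 : (Zf A I).card * I.card ≤ (2 * v) * I.card := by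
    calc (Zf A I).card * I.card ≤ 2 * ∑ ξ ∈ I, (A ξ).card := by omega
      _ ≤ 2 * (I.card * v) := by omega
      _ = (2 * v) * I.card := by ring
  exact Nat.le_of_mul_le_mul_right h5 hIpos

variable {Kp Fp Gp : Set (ι → ℝ)} {M : ℕ} {col : (ι → ℝ) → Fin M} {ε : ℝ}

theorem Setting.fiber_card (h : Setting Kp Fp Gp col ε) {Ξ : Type*} [DecidableEq Ξ]
    {x : Ξ → ι → ℝ} {A : Ξ → Finset ι} {v : ℕ} (hf : SepFamily Kp Fp x A v)
    (V Dd : Ξ → Finset ι) (hpart : ∀ ξ i, i ∈ A ξ → i ∉ Dd ξ → i ∈ V ξ)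
    (hDdv : ∀ ξ, (Dd ξ).card ≤ v) (Bad : Finset Ξ)
    (hBad : ∀ ξ ∈ Bad, ∀ w ∈ Fp, ∑ i ∈ V ξ, x ξ i * w i ≤ 1 / 16) (D : Finset ι) :
    ((Bad.filter (fun ξ => Dd ξ = D)).card : ℝ) ≤ Real.exp (3.25 * (v : ℝ)) * M := by
  classical
  rcases (Bad.filter (fun ξ => Dd ξ = D)).eq_empty_or_nonempty with he | ⟨ξ₀, hξ₀⟩
  · rw [he]
    simp only [Finset.card_empty, Nat.cast_zero]
    positivity
  have hDcard : D.card ≤ v := by
    rw [← (Finset.mem_filter.mp hξ₀).2]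
    exact hDdv ξ₀
  set u : Ξ → ι → ℝ := fun ξ i => if i ∈ D then x ξ i else 0 with hu
  have hxnn : ∀ ξ i, 0 ≤ x ξ i := fun ξ i => h.hK.nonneg _ (hf.mem ξ) i
  have hfinal := h.card_fiber_le (Bad.filter (fun ξ => Dd ξ = D)) u D ?_ ?_ ?_
  · refine hfinal.trans ?_
    apply mul_le_mul_of_nonneg_right _ (Nat.cast_nonneg _)
    apply Real.exp_le_exp.mpr
    have : (D.card : ℝ) ≤ v := by exact_mod_cast hDcard
    linarith
  · intro ξ _
    apply h.hK.solid (x ξ) (hf.mem ξ)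
    · intro i
      simp only [hu]
      split_ifs
      · exact hxnn ξ i
      · exact le_rfl
    · intro i
      simp only [hu]
      split_ifs
      · exact le_rfl
      · exact hxnn ξ i
  · intro ξ _ i hi
    simp [hu, hi]
  · intro ξ hξ ξ' hξ' hne
    obtain ⟨w, hw, hlt⟩ := hf.sep ξ ξ' hne
    have hwnn := h.hF.nonneg w hw
    refine ⟨w, hw, ?_⟩
    have hξ1 := Finset.mem_filter.mp hξ
    have hξ2 := Finset.mem_filter.mp hξ'
    have hV := hBad ξ hξ1.1 w hw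
    have hV' := hBad ξ' hξ2.1 w hw
    have hpoint : ∀ i, |x ξ i - x ξ' i| * w i ≤ |u ξ i - u ξ' i| * w i +
        ((if i ∈ V ξ then x ξ i * w i else 0) + (if i ∈ V ξ' then x ξ' i * w i else 0)) := by
      intro i
      have hnn1 : 0 ≤ (if i ∈ V ξ then x ξ i * w i else 0) := by
        split_ifs
        · exact mul_nonneg (hxnn ξ i) (hwnn i)
        · exact le_rfl
      have hnn2 : 0 ≤ (if i ∈ V ξ' then x ξ' i * w i else 0) := by
        split_ifs
        · exact mul_nonneg (hxnn ξ' i) (hwnn i)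
        · exact le_rfl
      by_cases hi : i ∈ D
      · have h1 : u ξ i = x ξ i := by simp [hu, hi]
        have h2 : u ξ' i = x ξ' i := by simp [hu, hi]
        rw [h1, h2]
        linarith
      · have h1 : u ξ i = 0 := by simp [hu, hi]
        have h2 : u ξ' i = 0 := by simp [hu, hi]
        rw [h1, h2]
        simp only [sub_self, abs_zero, zero_mul, zero_add]
        have h3 : x ξ i * w i ≤ (if i ∈ V ξ then x ξ i * w i else 0) := by
          by_cases hA : i ∈ A ξ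
          · rw [if_pos (hpart ξ i hA (by rw [hξ1.2]; exact hi))]
          · rw [hf.off ξ i hA, zero_mul]
            simp
        have h4 : x ξ' i * w i ≤ (if i ∈ V ξ' then x ξ' i * w i else 0) := by
          by_cases hA : i ∈ A ξ'
          · rw [if_pos (hpart ξ' i hA (by rw [hξ2.2]; exact hi))]
          · rw [hf.off ξ' i hA, zero_mul]
            simp
        have h5 : |x ξ i - x ξ' i| * w i ≤ x ξ i * w i + x ξ' i * w i := by
          rw [← add_mul]
          apply mul_le_mul_of_nonneg_right _ (hwnn i)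
          rw [abs_le]
          constructor <;> linarith [hxnn ξ i, hxnn ξ' i]
        linarith
    have hsum := Finset.sum_le_sum (fun i (_ : i ∈ Finset.univ) => hpoint i)
    rw [Finset.sum_add_distrib, Finset.sum_add_distrib, Finset.sum_ite_mem, Finset.sum_ite_mem,
      Finset.univ_inter, Finset.univ_inter] at hsum
    norm_num at hV hV' hlt ⊢
    linarith

theorem numeric_mixed (S H : ℝ) (v : ℕ) (M : ℕ) (hM : 1 ≤ M) (hH : H = Real.log M)
    (hnum : 101 * (v : ℝ) + 24 * H + 66 ≤ S) :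
    4 ≤ 3 * S / 8 - (Real.log (Real.exp (3.25 * (v : ℝ)) * M) + 2 * (v : ℝ) * Real.log 2 +
      2 * (Real.log (Real.exp (3.25 * (v : ℝ)) * M) + S / 8 + (v : ℝ) * Real.log 2 +
        Real.log 8)) := by
  have hMpos : (0 : ℝ) < M := by exact_mod_cast hM
  have h1 : Real.log (Real.exp (3.25 * (v : ℝ)) * M) = 3.25 * (v : ℝ) + H := by
    rw [Real.log_mul (Real.exp_pos _).ne' hMpos.ne', Real.log_exp, hH]
  have hl8 : Real.log 8 = 3 * Real.log 2 := by
    rw [show (8 : ℝ) = 2 ^ 3 by norm_num, Real.log_pow]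
    norm_num
  rw [h1, hl8]
  have hl := Real.log_two_lt_d9
  have hv : (0 : ℝ) ≤ v := Nat.cast_nonneg v
  nlinarith [mul_le_mul_of_nonneg_left hl.le hv]

/-- The value of the game against a mixed strategy. -/
theorem Setting.mixed (h : Setting Kp Fp Gp col ε) {Ξ J : Type*} [Fintype Ξ] [DecidableEq Ξ]
    [Fintype J] {x : Ξ → ι → ℝ} {A : Ξ → Finset ι} {v : ℕ} (hf : SepFamily Kp Fp x A v)
    (S : ℝ) (hS : S = Real.log (Fintype.card Ξ : ℝ)) (hN : 0 < Fintype.card Ξ)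
    (hnum : 101 * (v : ℝ) + 24 * Real.log M + 66 ≤ S)
    (fam : J → Finset Ξ) (hfam : ∀ j, Real.exp (7 * S / 8) ≤ ((fam j).card : ℝ))
    (lam : J → ℝ) (hlam : ∀ j, 0 ≤ lam j) (hsum : ∑ j, lam j = 1) :
    ∃ y : Ξ → ι → ℝ, (∀ ξ, y ξ ∈ Fp) ∧ 5 / 256 ≤ ∑ j, lam j * Qv x A y (fam j) := by
  classical
  set Z : J → Finset ι := fun j => Zf A (fam j) with hZdef
  set c : J → ℝ := fun j => lam j / ((fam j).card : ℝ) with hc
  have hepos : 0 < Real.exp (7 * S / 8) := Real.exp_pos _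
  have hcardpos : ∀ j, (0 : ℝ) < (fam j).card := fun j => lt_of_lt_of_le hepos (hfam j)
  have hcnn : ∀ j, 0 ≤ c j := fun j => div_nonneg (hlam j) (hcardpos j).le
  set μ : Ξ → ℝ := fun ξ => ∑ j, if ξ ∈ fam j then c j else 0 with hμ
  set Θ : Ξ → ι → ℝ := fun ξ i => ∑ j, if ξ ∈ fam j ∧ i ∉ Z j then c j else 0 with hΘ
  have hΘnn : ∀ ξ i, 0 ≤ Θ ξ i := fun ξ i =>
    Finset.sum_nonneg (fun j _ => by split_ifs <;> simp [hcnn j])
  have hμnn : ∀ ξ, 0 ≤ μ ξ := fun ξ =>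
    Finset.sum_nonneg (fun j _ => by split_ifs <;> simp [hcnn j])
  have hμsum : ∑ ξ, μ ξ = 1 := by
    simp only [hμ]
    rw [Finset.sum_comm, ← hsum]
    apply Finset.sum_congr rfl
    intro j _
    rw [Finset.sum_ite_mem, Finset.univ_inter, Finset.sum_const, nsmul_eq_mul]
    have := hcardpos j
    simp only [hc]
    field_simp
  set V : Ξ → Finset ι := fun ξ => (A ξ).filter (fun i => μ ξ ≤ 2 * Θ ξ i) with hV
  set Dd : Ξ → Finset ι := fun ξ => (A ξ).filter (fun i => ¬ μ ξ ≤ 2 * Θ ξ i) with hDd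
  set Bad : Finset Ξ := Finset.univ.filter (fun ξ => ∀ w ∈ Fp, ∑ i ∈ V ξ, x ξ i * w i ≤ 1 / 16)
    with hBaddef
  have hM := h.M_pos
  have hMpos : (0 : ℝ) < M := by exact_mod_cast hM
  set F : ℝ := Real.exp (3.25 * (v : ℝ)) * M with hFdef
  have hF : 0 < F := by positivity
  have hDdv : ∀ ξ, (Dd ξ).card ≤ v := fun ξ =>
    (Finset.card_le_card (Finset.filter_subset _ _)).trans (hf.card ξ)
  have hpart : ∀ ξ i, i ∈ A ξ → i ∉ Dd ξ → i ∈ V ξ := by
    intro ξ i hA hD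
    simp only [hDd, Finset.mem_filter, not_and, not_not] at hD
    simp only [hV, Finset.mem_filter]
    exact ⟨hA, hD hA⟩
  have hBadprop : ∀ ξ ∈ Bad, ∀ w ∈ Fp, ∑ i ∈ V ξ, x ξ i * w i ≤ 1 / 16 :=
    fun ξ hξ => (Finset.mem_filter.mp hξ).2
  have hfib : ∀ D, ((Bad.filter (fun ξ => Dd ξ = D)).card : ℝ) ≤ F :=
    h.fiber_card hf V Dd hpart hDdv Bad hBadprop
  have hZ : ∀ j, (Z j).card ≤ 2 * v := by
    intro j
    apply card_Zf A v hf.card
    apply Finset.card_pos.mp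
    exact_mod_cast hcardpos j
  have hBadθ : ∀ ξ ∈ Bad, ∀ i ∈ Dd ξ, 2 * (∑ j, if ξ ∈ fam j ∧ i ∉ Z j then c j else 0) ≤
      ∑ j, if ξ ∈ fam j then c j else 0 := by
    intro ξ _ i hi
    have := (Finset.mem_filter.mp hi).2
    push Not at this
    exact this.le
  have hbad := bad_mass_le S hS hN v F hF Bad Dd (fun ξ _ => hDdv ξ) hfib lam hlam hsum fam hfam
    Z hZ (numeric_mixed S _ v M hM rfl hnum) hBadθ
  change ∑ ξ ∈ Bad, μ ξ ≤ 3 / 8 at hbad
  -- choice of functionals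
  have hchoice : ∀ ξ, ∃ y ∈ Fp, ξ ∉ Bad → 1 / 16 < ∑ i ∈ V ξ, x ξ i * y i := by
    intro ξ
    by_cases hξ : ξ ∈ Bad
    · exact ⟨0, h.hF.zero_mem, fun hn => absurd hξ hn⟩
    · have : ¬ ∀ w ∈ Fp, ∑ i ∈ V ξ, x ξ i * w i ≤ 1 / 16 := by
        intro hall
        exact hξ (Finset.mem_filter.mpr ⟨Finset.mem_univ ξ, hall⟩)
      push Not at this
      obtain ⟨w, hw, hlt⟩ := this
      exact ⟨w, hw, fun _ => hlt⟩
  choose y hyF hyG using hchoice
  refine ⟨y, hyF, ?_⟩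
  have hxnn : ∀ ξ i, 0 ≤ x ξ i := fun ξ i => h.hK.nonneg _ (hf.mem ξ) i
  have hynn : ∀ ξ i, 0 ≤ y ξ i := fun ξ i => h.hF.nonneg _ (hyF ξ) i
  -- exchange
  have hexch : ∑ j, lam j * Qv x A y (fam j) = ∑ ξ, ∑ i ∈ A ξ, x ξ i * y ξ i * Θ ξ i := by
    calc ∑ j, lam j * Qv x A y (fam j)
        = ∑ j, ∑ ξ, ∑ i ∈ A ξ, x ξ i * y ξ i * (if ξ ∈ fam j ∧ i ∉ Z j then c j else 0) := by
          apply Finset.sum_congr rfl
          intro j _
          simp only [Qv]
          rw [← mul_assoc, show lam j * (1 / ((fam j).card : ℝ)) = c j by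
            simp only [hc]
            ring]
          have h1 : ∑ ξ ∈ fam j, ∑ c ∈ (A ξ).filter (· ∉ Zf A (fam j)), x ξ c * y ξ c =
              ∑ ξ, if ξ ∈ fam j then ∑ c ∈ (A ξ).filter (· ∉ Zf A (fam j)), x ξ c * y ξ c
                else 0 := by
            rw [Finset.sum_ite_mem, Finset.univ_inter]
          rw [h1, Finset.mul_sum]
          apply Finset.sum_congr rfl
          intro ξ _
          by_cases hξ : ξ ∈ fam j
          · simp only [hξ, if_true, true_and]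
            rw [Finset.sum_filter, Finset.mul_sum]
            apply Finset.sum_congr rfl
            intro i _
            simp only [hZdef]
            split_ifs <;> ring
          · simp [hξ]
      _ = ∑ ξ, ∑ j, ∑ i ∈ A ξ, x ξ i * y ξ i * (if ξ ∈ fam j ∧ i ∉ Z j then c j else 0) :=
          Finset.sum_comm
      _ = ∑ ξ, ∑ i ∈ A ξ, ∑ j, x ξ i * y ξ i * (if ξ ∈ fam j ∧ i ∉ Z j then c j else 0) := by
          apply Finset.sum_congr rfl
          intro ξ _
          exact Finset.sum_comm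
      _ = ∑ ξ, ∑ i ∈ A ξ, x ξ i * y ξ i * Θ ξ i := by
          apply Finset.sum_congr rfl
          intro ξ _
          apply Finset.sum_congr rfl
          intro i _
          simp only [hΘ]
          rw [Finset.mul_sum]
  rw [hexch]
  have hterm : ∀ ξ, (if ξ ∈ Bad then 0 else μ ξ / 32) ≤ ∑ i ∈ A ξ, x ξ i * y ξ i * Θ ξ i := by
    intro ξ
    have hnnsum : ∀ i ∈ A ξ, 0 ≤ x ξ i * y ξ i * Θ ξ i := fun i _ =>
      mul_nonneg (mul_nonneg (hxnn ξ i) (hynn ξ i)) (hΘnn ξ i)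
    split_ifs with hξ
    · exact Finset.sum_nonneg hnnsum
    · have h1 : ∑ i ∈ V ξ, x ξ i * y ξ i * Θ ξ i ≤ ∑ i ∈ A ξ, x ξ i * y ξ i * Θ ξ i :=
        Finset.sum_le_sum_of_subset_of_nonneg (Finset.filter_subset _ _)
          (fun i hi _ => hnnsum i hi)
      refine le_trans ?_ h1
      have h2 : ∑ i ∈ V ξ, x ξ i * y ξ i * (μ ξ / 2) ≤ ∑ i ∈ V ξ, x ξ i * y ξ i * Θ ξ i := by
        apply Finset.sum_le_sum
        intro i hi
        apply mul_le_mul_of_nonneg_left _ (mul_nonneg (hxnn ξ i) (hynn ξ i))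
        have := (Finset.mem_filter.mp hi).2
        linarith
      refine le_trans ?_ h2
      rw [← Finset.sum_mul]
      have h3 := hyG ξ hξ
      have h4 := hμnn ξ
      nlinarith
  have hsumterm : ∑ ξ, (if ξ ∈ Bad then (0 : ℝ) else μ ξ / 32) = (1 - ∑ ξ ∈ Bad, μ ξ) / 32 := by
    have h1 : ∑ ξ, (if ξ ∈ Bad then (0 : ℝ) else μ ξ / 32) =
        ∑ ξ, μ ξ / 32 - ∑ ξ, (if ξ ∈ Bad then μ ξ / 32 else 0) := by
      rw [← Finset.sum_sub_distrib]
      apply Finset.sum_congr rfl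
      intro ξ _
      split_ifs <;> ring
    rw [h1, Finset.sum_ite_mem, Finset.univ_inter, ← Finset.sum_div, ← Finset.sum_div, hμsum]
    ring
  have h5 := Finset.sum_le_sum (fun ξ (_ : ξ ∈ Finset.univ) => hterm ξ)
  rw [hsumterm] at h5
  norm_num at h5 ⊢
  linarith

end Vale.Agent.Lib.P126.U
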