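import Mathlib
import Vale.Agent.Lib.P126.UDual

/-!
Minimax, the bound on separated families of sparse vectors, and the cover of the positive layer.
-/

open Finset

namespace Vale.Agent.Lib.P126.U

/-- A finite minimax statement, from the separation theorem. -/
theorem minimax {V J : Type*} [AddCommGroup V] [Module ℝ V] [TopologicalSpace V] [Fintype J]
    [DecidableEq J]
    (Y : Set V) (hYc : IsCompact Y) (hYconv : Convex ℝ Y) (hYne : Y.Nonempty)
    (Φ : V →ₗ[ℝ] (J → ℝ)) (hΦ : Continuous Φ) (c : ℝ)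
    (hmix : ∀ lam : J → ℝ, (∀ j, 0 ≤ lam j) → ∑ j, lam j = 1 →
      ∃ y ∈ Y, c ≤ ∑ j, lam j * Φ y j) :
    ∃ y ∈ Y, ∀ j, c ≤ Φ y j := by
  classical
  by_contra hcon
  push Not at hcon
  set s : Set (J → ℝ) := Φ '' Y with hs
  set t : Set (J → ℝ) := {u | ∀ j, c ≤ u j} with ht
  have hs1 : Convex ℝ s := hYconv.linear_image Φ
  have hs2 : IsCompact s := hYc.image hΦ
  have ht1 : Convex ℝ t := by
    intro a ha b hb p q hp hq hpq j
    simp only [Pi.add_apply, Pi.smul_apply, smul_eq_mul]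
    have h1 := ha j
    have h2 := hb j
    have h3 : p * c + q * c = c := by rw [← add_mul, hpq, one_mul]
    nlinarith [mul_le_mul_of_nonneg_left h1 hp, mul_le_mul_of_nonneg_left h2 hq]
  have ht2 : IsClosed t := by
    have : t = ⋂ j, {u | c ≤ u j} := by
      ext u
      simp [ht]
    rw [this]
    exact isClosed_iInter (fun j => isClosed_le continuous_const (continuous_apply j))
  have hdisj : Disjoint s t := by
    rw [Set.disjoint_left]
    rintro _ ⟨y, hy, rfl⟩ hmem
    obtain ⟨j, hj⟩ := hcon y hy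
    exact absurd (hmem j) (not_le.mpr hj)
  obtain ⟨f, u, v, hfu, huv, hfv⟩ := geometric_hahn_banach_compact_closed hs1 hs2 ht1 ht2 hdisj
  set φ : J → ℝ := fun i => f (fun j => if i = j then 1 else 0) with hφ
  have hf : ∀ a : J → ℝ, f a = ∑ j, a j * φ j := by
    intro a
    have := LinearMap.pi_apply_eq_sum_univ (f.toLinearMap) a
    simpa [smul_eq_mul, hφ] using this
  have hconst : ∀ j, (fun _ : J => c) j = c := fun _ => rfl
  have hσ : f (fun _ => c) = c * ∑ j, φ j := by
    rw [hf, Finset.mul_sum]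
  have hv : v < c * ∑ j, φ j := by
    rw [← hσ]
    apply hfv
    intro j
    exact le_rfl
  have hφnn : ∀ j, 0 ≤ φ j := by
    intro j
    by_contra hneg
    push Not at hneg
    set T : ℝ := (c * ∑ j, φ j - v) / (-φ j) with hT
    have hTnn : 0 ≤ T := div_nonneg (by linarith) (by linarith)
    have hb : (fun i => c + if i = j then T else 0) ∈ t := by
      intro i
      simp only
      split_ifs <;> linarith
    have h1 := hfv _ hb
    rw [hf] at h1
    have h2 : ∑ i, (c + if i = j then T else 0) * φ i = c * ∑ i, φ i + T * φ j := by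
      simp only [add_mul, Finset.sum_add_distrib, ite_mul, zero_mul, Finset.mul_sum]
      simp
    rw [h2] at h1
    have h3 : T * φ j = -(c * ∑ j, φ j - v) := by
      have hne : φ j ≠ 0 := hneg.ne
      rw [hT, div_neg, neg_mul, div_mul_cancel₀ _ hne]
    linarith
  obtain ⟨y₀, hy₀⟩ := hYne
  have hσpos : 0 < ∑ j, φ j := by
    by_contra hle
    push Not at hle
    have hzero : ∑ j, φ j = 0 := le_antisymm hle (Finset.sum_nonneg (fun j _ => hφnn j))
    have hall : ∀ j, φ j = 0 := by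
      intro j
      exact (Finset.sum_eq_zero_iff_of_nonneg (fun j _ => hφnn j)).mp hzero j (Finset.mem_univ j)
    have h1 := hfu (Φ y₀) ⟨y₀, hy₀, rfl⟩
    rw [hf] at h1
    simp only [hall, mul_zero, Finset.sum_const_zero] at h1
    rw [hzero, mul_zero] at hv
    linarith
  set σ : ℝ := ∑ j, φ j with hσdef
  obtain ⟨y, hy, hcy⟩ := hmix (fun j => φ j / σ) (fun j => div_nonneg (hφnn j) hσpos.le)
    (by rw [← Finset.sum_div, div_self hσpos.ne'])
  have h1 := hfu (Φ y) ⟨y, hy, rfl⟩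
  rw [hf] at h1
  have h2 : ∑ j, φ j / σ * Φ y j = (∑ j, Φ y j * φ j) / σ := by
    rw [Finset.sum_div]
    apply Finset.sum_congr rfl
    intro j _
    ring
  rw [h2, le_div_iff₀ hσpos] at hcy
  linarith

variable {ι : Type*} [Fintype ι] [DecidableEq ι]

/-- The payoff as a linear map. -/
noncomputable def Qlin {Ξ J : Type*} (x : Ξ → ι → ℝ) (A : Ξ → Finset ι) (fam : J → Finset Ξ) :
    (Ξ → ι → ℝ) →ₗ[ℝ] (J → ℝ) where
  toFun y j := Qv x A y (fam j)
  map_add' y y' := by
    funext j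
    simp only [Qv, Pi.add_apply, mul_add, Finset.sum_add_distrib]
  map_smul' r y := by
    funext j
    simp only [Qv, Pi.smul_apply, smul_eq_mul, RingHom.id_apply, Finset.mul_sum]
    apply Finset.sum_congr rfl
    intro ξ _
    apply Finset.sum_congr rfl
    intro i _
    ring

variable {Kp Fp Gp : Set (ι → ℝ)} {M : ℕ} {col : (ι → ℝ) → Fin M} {ε : ℝ}

/-- In a cell of the coloring the payoff is small. -/
theorem Setting.cell_bound (h : Setting Kp Fp Gp col ε) {Ξ : Type*} [DecidableEq Ξ]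
    {x : Ξ → ι → ℝ} {A : Ξ → Finset ι} {v : ℕ} (hf : SepFamily Kp Fp x A v)
    (y : Ξ → ι → ℝ) (hy : ∀ ξ, y ξ ∈ Fp) (I : Finset Ξ) (hI : I.Nonempty)
    (hcol : ∀ ξ ∈ I, ∀ ξ' ∈ I, col (fun c => if c ∈ A ξ then y ξ c else 0) =
      col (fun c => if c ∈ A ξ' then y ξ' c else 0)) :
    Qv x A y I ≤ 4 * ε := by
  classical
  have hIpos : (0 : ℝ) < I.card := by exact_mod_cast Finset.card_pos.mpr hI
  have hxnn : ∀ ξ i, 0 ≤ x ξ i := fun ξ i => h.hK.nonneg _ (hf.mem ξ) i
  have hynn : ∀ ξ i, 0 ≤ y ξ i := fun ξ i => h.hF.nonneg _ (hy ξ) i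
  set yh : Ξ → ι → ℝ := fun ξ c => if c ∈ A ξ then y ξ c else 0 with hyh
  have hyhF : ∀ ξ, yh ξ ∈ Fp := by
    intro ξ
    apply h.hF.solid (y ξ) (hy ξ)
    · intro i
      simp only [hyh]
      split_ifs
      · exact hynn ξ i
      · exact le_rfl
    · intro i
      simp only [hyh]
      split_ifs
      · exact le_rfl
      · exact hynn ξ i
  have hkey : ∀ ξ ∈ I, ∑ c ∈ (A ξ).filter (· ∉ Zf A I), x ξ c * y ξ c ≤ 4 * ε := by
    intro ξ hξ
    set T := (A ξ).filter (· ∉ Zf A I) with hT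
    have hpair : ∀ ξ' ∈ I, ∑ c, x ξ c * |yh ξ c - yh ξ' c| ≤ 2 * ε := by
      intro ξ' hξ'
      exact h.color_pair (hf.mem ξ) (hyhF ξ) (hyhF ξ') (hcol ξ hξ ξ' hξ')
    have hsum : ∑ ξ' ∈ I, ∑ c ∈ T, x ξ c * |yh ξ c - yh ξ' c| ≤ (I.card : ℝ) * (2 * ε) := by
      calc ∑ ξ' ∈ I, ∑ c ∈ T, x ξ c * |yh ξ c - yh ξ' c|
          ≤ ∑ _ξ' ∈ I, (2 * ε) := by
            apply Finset.sum_le_sum
            intro ξ' hξ'
            refine le_trans ?_ (hpair ξ' hξ')
            apply Finset.sum_le_sum_of_subset_of_nonneg (Finset.subset_univ _)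
            intro c _ _
            exact mul_nonneg (hxnn ξ c) (abs_nonneg _)
        _ = (I.card : ℝ) * (2 * ε) := by simp
    have hlow : ∀ c ∈ T, ((I.card : ℝ) / 2) * (x ξ c * y ξ c) ≤
        ∑ ξ' ∈ I, x ξ c * |yh ξ c - yh ξ' c| := by
      intro c hc
      have hcA : c ∈ A ξ := (Finset.mem_filter.mp hc).1
      have hcZ : c ∉ Zf A I := (Finset.mem_filter.mp hc).2
      have hcount : (I.card : ℝ) / 2 ≤ ((I.filter (fun ξ' => c ∉ A ξ')).card : ℝ) := by
        have h1 : ¬ I.card ≤ 2 * (I.filter (fun ξ' => c ∈ A ξ')).card := by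
          intro hle
          exact hcZ (Finset.mem_filter.mpr ⟨Finset.mem_univ c, hle⟩)
        have h2 := Finset.card_filter_add_card_filter_not (s := I) (fun ξ' => c ∈ A ξ')
        have h3 : I.card ≤ 2 * (I.filter (fun ξ' => c ∉ A ξ')).card := by omega
        have h4 : (I.card : ℝ) ≤ 2 * ((I.filter (fun ξ' => c ∉ A ξ')).card : ℝ) := by
          exact_mod_cast h3
        linarith
      have hnn : 0 ≤ x ξ c * y ξ c := mul_nonneg (hxnn ξ c) (hynn ξ c)
      calc ((I.card : ℝ) / 2) * (x ξ c * y ξ c)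
          ≤ ((I.filter (fun ξ' => c ∉ A ξ')).card : ℝ) * (x ξ c * y ξ c) :=
            mul_le_mul_of_nonneg_right hcount hnn
        _ = ∑ ξ' ∈ I.filter (fun ξ' => c ∉ A ξ'), x ξ c * y ξ c := by
            rw [Finset.sum_const, nsmul_eq_mul]
        _ ≤ ∑ ξ' ∈ I.filter (fun ξ' => c ∉ A ξ'), x ξ c * |yh ξ c - yh ξ' c| := by
            apply Finset.sum_le_sum
            intro ξ' hξ'
            have hc' : c ∉ A ξ' := (Finset.mem_filter.mp hξ').2
            have h5 : yh ξ c = y ξ c := by simp [hyh, hcA]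
            have h6 : yh ξ' c = 0 := by simp [hyh, hc']
            rw [h5, h6, sub_zero, abs_of_nonneg (hynn ξ c)]
        _ ≤ ∑ ξ' ∈ I, x ξ c * |yh ξ c - yh ξ' c| := by
            apply Finset.sum_le_sum_of_subset_of_nonneg (Finset.filter_subset _ _)
            intro ξ' _ _
            exact mul_nonneg (hxnn ξ c) (abs_nonneg _)
    have h7 : ((I.card : ℝ) / 2) * ∑ c ∈ T, x ξ c * y ξ c ≤ (I.card : ℝ) * (2 * ε) := by
      rw [Finset.mul_sum]
      refine le_trans (Finset.sum_le_sum hlow) ?_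
      rw [Finset.sum_comm]
      exact hsum
    have h8 : (I.card : ℝ) * ∑ c ∈ T, x ξ c * y ξ c ≤ (I.card : ℝ) * (4 * ε) := by linarith
    exact le_of_mul_le_mul_left h8 hIpos
  simp only [Qv]
  rw [one_div, inv_mul_le_iff₀ hIpos]
  calc ∑ ξ ∈ I, ∑ c ∈ (A ξ).filter (· ∉ Zf A I), x ξ c * y ξ c
      ≤ ∑ _ξ ∈ I, 4 * ε := Finset.sum_le_sum hkey
    _ = (I.card : ℝ) * (4 * ε) := by simp

/-- Separated families of sparse vectors are small. -/
theorem Setting.log_card_le (h : Setting Kp Fp Gp col ε) {Ξ : Type*} [Fintype Ξ] [DecidableEq Ξ]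
    {x : Ξ → ι → ℝ} {A : Ξ → Finset ι} {v : ℕ} (hf : SepFamily Kp Fp x A v) :
    Real.log (Fintype.card Ξ : ℝ) ≤ 101 * (v : ℝ) + 24 * Real.log M + 66 := by
  classical
  by_contra hcon
  push Not at hcon
  set S : ℝ := Real.log (Fintype.card Ξ : ℝ) with hS
  have hM := h.M_pos
  have hMpos : (0 : ℝ) < M := by exact_mod_cast hM
  have hHnn : 0 ≤ Real.log M := Real.log_nonneg (by exact_mod_cast hM)
  have hvnn : (0 : ℝ) ≤ v := Nat.cast_nonneg v
  have hSpos : 0 < S := by linarith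
  have hN : 0 < Fintype.card Ξ := by
    rcases Nat.eq_zero_or_pos (Fintype.card Ξ) with h0 | h0
    · rw [hS, h0] at hSpos
      simp at hSpos
    · exact h0
  have hNR : (0 : ℝ) < Fintype.card Ξ := by exact_mod_cast hN
  let J := {I : Finset Ξ // Real.exp (7 * S / 8) ≤ (I.card : ℝ)}
  let fam : J → Finset Ξ := Subtype.val
  have hfam : ∀ j, Real.exp (7 * S / 8) ≤ ((fam j).card : ℝ) := fun j => j.2
  have hYc : IsCompact (Set.pi Set.univ (fun _ : Ξ => Fp)) :=
    isCompact_univ_pi (fun _ => h.hF.compact)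
  have hYconv : Convex ℝ (Set.pi Set.univ (fun _ : Ξ => Fp)) :=
    convex_pi (fun _ _ => h.hF.convex)
  have hYne : (Set.pi Set.univ (fun _ : Ξ => Fp)).Nonempty :=
    ⟨0, fun _ _ => h.hF.zero_mem⟩
  have hcont : Continuous (Qlin x A fam) := (Qlin x A fam).continuous_of_finiteDimensional
  obtain ⟨y, hyY, hy⟩ := minimax (Set.pi Set.univ (fun _ : Ξ => Fp)) hYc hYconv hYne
    (Qlin x A fam) hcont (5 / 256) (by
      intro lam hlam hsum
      obtain ⟨y, hy, hval⟩ := h.mixed hf S hS hN hcon.le fam hfam lam hlam hsum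
      exact ⟨y, fun ξ _ => hy ξ, hval⟩)
  have hyF : ∀ ξ, y ξ ∈ Fp := fun ξ => hyY ξ (Set.mem_univ ξ)
  set yh : Ξ → ι → ℝ := fun ξ c => if c ∈ A ξ then y ξ c else 0 with hyh
  have hclass : ∀ m : Fin M, ((Finset.univ.filter (fun ξ => col (yh ξ) = m)).card : ℝ) <
      Real.exp (7 * S / 8) := by
    intro m
    by_contra hge
    push Not at hge
    set I := Finset.univ.filter (fun ξ => col (yh ξ) = m) with hI
    have hIne : I.Nonempty := by
      apply Finset.card_pos.mp
      have : (0 : ℝ) < I.card := lt_of_lt_of_le (Real.exp_pos _) hge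
      exact_mod_cast this
    have h1 : 5 / 256 ≤ Qv x A y I := hy ⟨I, hge⟩
    have h2 := h.cell_bound hf y hyF I hIne (by
      intro ξ hξ ξ' hξ'
      have h3 := (Finset.mem_filter.mp hξ).2
      have h4 := (Finset.mem_filter.mp hξ').2
      exact h3.trans h4.symm)
    have h3 := h.ε_le
    norm_num at h1 h3
    linarith
  have hcardN : (Fintype.card Ξ : ℝ) ≤ M * Real.exp (7 * S / 8) := by
    have h1 : Fintype.card Ξ = ∑ m : Fin M, (Finset.univ.filter (fun ξ => col (yh ξ) = m)).card := by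
      rw [← Finset.card_univ]
      exact Finset.card_eq_sum_card_fiberwise (fun ξ _ => Finset.mem_univ (col (yh ξ)))
    rw [h1]
    push_cast
    calc ∑ m : Fin M, ((Finset.univ.filter (fun ξ => col (yh ξ) = m)).card : ℝ)
        ≤ ∑ _m : Fin M, Real.exp (7 * S / 8) :=
          Finset.sum_le_sum (fun m _ => (hclass m).le)
      _ = M * Real.exp (7 * S / 8) := by simp
  have hlog : S ≤ Real.log M + 7 * S / 8 := by
    have h1 := Real.log_le_log hNR hcardN
    rw [Real.log_mul hMpos.ne' (Real.exp_pos _).ne', Real.log_exp] at h1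
    exact h1
  linarith

theorem numeric_sparse (M : ℕ) (hM : 1 ≤ M) :
    (M : ℝ) * Real.exp (0.55 * ((⌈7 * Real.log M⌉₊ + 1 : ℕ) : ℝ)) <
      (2 : ℝ) ^ (⌈7 * Real.log M⌉₊ + 1) := by
  have hMpos : (0 : ℝ) < M := by exact_mod_cast hM
  set H : ℝ := Real.log M with hH
  have hHnn : 0 ≤ H := Real.log_nonneg (by exact_mod_cast hM)
  set r : ℕ := ⌈7 * H⌉₊ + 1 with hr
  have hr1 : 7 * H + 1 ≤ (r : ℝ) := by
    rw [hr]
    push_cast
    linarith [Nat.le_ceil (7 * H)]
  have h2 : (2 : ℝ) ^ r = Real.exp ((r : ℝ) * Real.log 2) := by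
    rw [Real.exp_nat_mul, Real.exp_log (by norm_num)]
  have hMexp : (M : ℝ) = Real.exp H := by
    rw [hH, Real.exp_log hMpos]
  rw [h2, hMexp, ← Real.exp_add]
  apply Real.exp_lt_exp.mpr
  have hl := Real.log_two_gt_d9
  have hr0 : (0 : ℝ) ≤ r := Nat.cast_nonneg r
  nlinarith [mul_le_mul_of_nonneg_left hl.le hr0]

/-- The cover of the positive layer. -/
theorem Setting.positive_cover (h : Setting Kp Fp Gp col ε) :
    ∃ t : Finset (ι → ℝ), Real.log (t.card : ℝ) ≤ 2852 * Real.log M + 874 ∧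
      ∀ x ∈ Kp, ∃ d ∈ t, ∀ w ∈ Fp, ∑ i, |x i - d i| * w i ≤ 1 / 2 := by
  classical
  have hM := h.M_pos
  set H : ℝ := Real.log M with hH
  have hHnn : 0 ≤ H := Real.log_nonneg (by exact_mod_cast hM)
  set r : ℕ := ⌈7 * H⌉₊ + 1 with hr
  have hr1 : 1 ≤ r := by omega
  have hrM : (M : ℝ) * Real.exp (0.55 * (r : ℝ)) < (2 : ℝ) ^ r := numeric_sparse M hM
  set v : ℕ := 4 * r with hv
  have hvle : (v : ℝ) ≤ 28 * H + 8 := by
    have h1 : (⌈7 * H⌉₊ : ℝ) < 7 * H + 1 := Nat.ceil_lt_add_one (by positivity)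
    rw [hv, hr]
    push_cast
    linarith
  let supp : (ι → ℝ) → Finset ι := fun x => Finset.univ.filter (fun i => x i ≠ 0)
  -- admissible finite separated families
  let Adm : Finset (ι → ℝ) → Prop := fun t =>
    (∀ x ∈ t, x ∈ Kp ∧ (supp x).card ≤ v) ∧
      ∀ x ∈ t, ∀ x' ∈ t, x ≠ x' → ∃ w ∈ Fp, 1 / 4 < ∑ i, |x i - x' i| * w i
  have hlogAdm : ∀ t, Adm t → Real.log (t.card : ℝ) ≤ 2852 * H + 874 := by
    intro t ht
    have hfam : SepFamily Kp Fp (fun ξ : t => (ξ : ι → ℝ)) (fun ξ => supp ξ) v := by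
      refine ⟨fun ξ => (ht.1 ξ ξ.2).1, ?_, fun ξ => (ht.1 ξ ξ.2).2, ?_⟩
      · intro ξ c hc
        by_contra hne
        exact hc (Finset.mem_filter.mpr ⟨Finset.mem_univ c, hne⟩)
      · intro ξ ξ' hne
        exact ht.2 ξ ξ.2 ξ' ξ'.2 (fun heq => hne (Subtype.ext heq))
    have h1 := h.log_card_le hfam
    rw [Fintype.card_coe] at h1
    rw [← hH] at h1
    linarith
  -- the cardinalities are bounded
  let Cards : Set ℕ := {n | ∃ t, Adm t ∧ t.card = n}
  have hCne : Cards.Nonempty := ⟨0, ∅, ⟨by simp, by simp⟩, rfl⟩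
  have hCbdd : BddAbove Cards := by
    refine ⟨⌈Real.exp (2852 * H + 874)⌉₊, ?_⟩
    rintro n ⟨t, ht, rfl⟩
    have h1 := hlogAdm t ht
    rcases t.eq_empty_or_nonempty with rfl | hne
    · simp
    · have h2 : (0 : ℝ) < t.card := by exact_mod_cast Finset.card_pos.mpr hne
      have h3 : (t.card : ℝ) ≤ Real.exp (2852 * H + 874) := by
        rw [← Real.exp_log h2]
        exact Real.exp_le_exp.mpr h1
      have h4 : (t.card : ℝ) ≤ ⌈Real.exp (2852 * H + 874)⌉₊ := h3.trans (Nat.le_ceil _)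
      exact_mod_cast h4
  obtain ⟨t, ht, htcard⟩ := Nat.sSup_mem hCne hCbdd
  have hmax : ∀ t', Adm t' → t'.card ≤ t.card := by
    intro t' ht'
    rw [htcard]
    exact le_csSup hCbdd ⟨t', ht', rfl⟩
  -- maximality gives a net of the sparse vectors
  have hnet : ∀ x, x ∈ Kp → (supp x).card ≤ v → ∃ d ∈ t, ∀ w ∈ Fp, ∑ i, |x i - d i| * w i ≤ 1 / 4 := by
    intro x hx hxv
    by_contra hcon
    push Not at hcon
    have hxt : x ∉ t := by
      intro hmem
      obtain ⟨w, hw, hlt⟩ := hcon x hmem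
      simp only [sub_self, abs_zero, zero_mul, Finset.sum_const_zero] at hlt
      norm_num at hlt
    have hadm : Adm (insert x t) := by
      constructor
      · intro x' hx'
        rcases Finset.mem_insert.mp hx' with rfl | hx'
        · exact ⟨hx, hxv⟩
        · exact ht.1 x' hx'
      · intro a ha b hb hab
        rcases Finset.mem_insert.mp ha with ha' | ha' <;>
          rcases Finset.mem_insert.mp hb with hb' | hb'
        · exact absurd (ha'.trans hb'.symm) hab
        · rw [ha']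
          exact hcon b hb'
        · rw [hb']
          obtain ⟨w, hw, hlt⟩ := hcon a ha'
          refine ⟨w, hw, ?_⟩
          have : ∑ i, |a i - x i| * w i = ∑ i, |x i - a i| * w i := by
            apply Finset.sum_congr rfl
            intro i _
            rw [abs_sub_comm]
          rw [this]
          exact hlt
        · exact ht.2 a ha' b hb' hab
    have h1 := hmax _ hadm
    rw [Finset.card_insert_of_notMem hxt] at h1
    omega
  refine ⟨t, hlogAdm t ht, ?_⟩
  intro x hx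
  obtain ⟨T, hTcard, hT⟩ := h.sparse r hr1 hrM hx
  have hxnn := h.hK.nonneg x hx
  set xt : ι → ℝ := fun i => if i ∈ T then x i else 0 with hxt
  have hxtK : xt ∈ Kp := by
    apply h.hK.solid x hx
    · intro i
      simp only [hxt]
      split_ifs
      · exact hxnn i
      · exact le_rfl
    · intro i
      simp only [hxt]
      split_ifs
      · exact le_rfl
      · exact hxnn i
  have hxtsupp : (supp xt).card ≤ v := by
    refine le_trans (Finset.card_le_card ?_) hTcard
    intro i hi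
    have h1 := (Finset.mem_filter.mp hi).2
    by_contra hiT
    exact h1 (by simp [hxt, hiT])
  obtain ⟨d, hd, hdw⟩ := hnet xt hxtK hxtsupp
  refine ⟨d, hd, ?_⟩
  intro w hw
  have hwnn := h.hF.nonneg w hw
  have h1 := hdw w hw
  have h2 := hT w hw
  have hpoint : ∀ i, |x i - d i| * w i ≤ |xt i - d i| * w i +
      (if i ∈ Tᶜ then x i * w i else 0) := by
    intro i
    by_cases hi : i ∈ T
    · have h3 : xt i = x i := by simp [hxt, hi]
      rw [h3]
      simp [hi]
    · have h3 : xt i = 0 := by simp [hxt, hi]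
      rw [h3, if_pos (Finset.mem_compl.mpr hi), ← add_mul]
      apply mul_le_mul_of_nonneg_right _ (hwnn i)
      have h4 := abs_sub (x i) (d i)
      simp only [zero_sub, abs_neg]
      have h5 : |x i| = x i := abs_of_nonneg (hxnn i)
      rw [h5] at h4
      linarith
  have hsum := Finset.sum_le_sum (fun i (_ : i ∈ Finset.univ) => hpoint i)
  rw [Finset.sum_add_distrib, Finset.sum_ite_mem, Finset.univ_inter] at hsum
  norm_num at h1 h2 ⊢
  linarith

end Vale.Agent.Lib.P126.U
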