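import Mathlib
import Vale.Agent.Lib.P126.UDefs
import Vale.Agent.Lib.P126.UMain
import Vale.Agent.Lib.P126.Dual

/-!
From pairs of unconditional bodies to the abstract setting, and the duality of entropy.
-/

open scoped Pointwise

namespace Vale.Agent.Lib.P126

open U

variable {n : ℕ}

theorem inner_eq_sum (x y : EuclideanSpace ℝ (Fin n)) : inner ℝ x y = ∑ i, x i * y i := by
  rw [PiLp.inner_apply]
  apply Finset.sum_congr rfl
  intro i _
  simp [mul_comm]

/-- The positive layer of a subset, in coordinates. -/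
def posPart (K : Set (EuclideanSpace ℝ (Fin n))) : Set (Fin n → ℝ) :=
  {f | (∀ i, 0 ≤ f i) ∧ WithLp.toLp 2 f ∈ K}

/-- Multipliers of modulus at most one preserve an unconditional convex set. -/
theorem uncond_mul_aux {K : Set (EuclideanSpace ℝ (Fin n))} (hc : Convex ℝ K)
    (hu : IsUnconditional K) (S : Finset (Fin n)) :
    ∀ x ∈ K, ∀ t : Fin n → ℝ, (∀ i, |t i| ≤ 1) → (∀ i, i ∉ S → t i = 1) →
      WithLp.toLp 2 (fun i => t i * x i) ∈ K := by
  classical
  induction S using Finset.induction_on with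
  | empty =>
    intro x hx t _ ht1
    have : WithLp.toLp 2 (fun i => t i * x i) = x := by
      ext i
      simp [ht1 i (by simp)]
    rw [this]
    exact hx
  | insert a S ha ih =>
    intro x hx t ht ht1
    set tp : Fin n → ℝ := Function.update t a 1 with htp
    have htpa : tp a = 1 := by simp [htp]
    have htpne : ∀ i, i ≠ a → tp i = t i := fun i hi => by simp [htp, hi]
    have htpabs : ∀ i, |tp i| ≤ 1 := by
      intro i
      by_cases hi : i = a
      · rw [hi, htpa]
        simp
      · rw [htpne i hi]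
        exact ht i
    have htp1 : ∀ i, i ∉ S → tp i = 1 := by
      intro i hi
      by_cases hia : i = a
      · rw [hia, htpa]
      · rw [htpne i hia]
        exact ht1 i (by simp [hi, hia])
    set x' : EuclideanSpace ℝ (Fin n) :=
      WithLp.toLp 2 (fun i => (if i = a then (-1 : ℝ) else 1) * x i) with hx'
    have hx'K : x' ∈ K := hu x hx _ (fun i => by
      by_cases hi : i = a
      · right
        simp [hi]
      · left
        simp [hi])
    have h1 := ih x hx tp htpabs htp1
    have h2 := ih x' hx'K tp htpabs htp1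
    have hta := abs_le.mp (ht a)
    have hp : 0 ≤ (1 + t a) / 2 := by linarith [hta.1]
    have hq : 0 ≤ (1 - t a) / 2 := by linarith [hta.2]
    have hpq : (1 + t a) / 2 + (1 - t a) / 2 = 1 := by ring
    have h3 := hc h1 h2 hp hq hpq
    convert h3 using 1
    ext i
    simp only [PiLp.add_apply, PiLp.smul_apply, smul_eq_mul, PiLp.toLp_apply, hx']
    by_cases hi : i = a
    · subst hi
      rw [htpa]
      simp only [if_true]
      ring
    · rw [htpne i hi]
      simp only [hi, if_false]
      ring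

theorem uncond_mul {K : Set (EuclideanSpace ℝ (Fin n))} (hc : Convex ℝ K)
    (hu : IsUnconditional K) {x : EuclideanSpace ℝ (Fin n)} (hx : x ∈ K) (t : Fin n → ℝ)
    (ht : ∀ i, |t i| ≤ 1) : WithLp.toLp 2 (fun i => t i * x i) ∈ K :=
  uncond_mul_aux hc hu Finset.univ x hx t ht (fun i hi => absurd (Finset.mem_univ i) hi)

/-- Solidity of unconditional convex sets. -/
theorem uncond_solid {K : Set (EuclideanSpace ℝ (Fin n))} (hc : Convex ℝ K)
    (hu : IsUnconditional K) {x : EuclideanSpace ℝ (Fin n)} (hx : x ∈ K) (z : Fin n → ℝ)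
    (hz : ∀ i, |z i| ≤ |x i|) : WithLp.toLp 2 z ∈ K := by
  classical
  have h := uncond_mul hc hu hx (fun i => z i / x i) (by
    intro i
    by_cases hi : x i = 0
    · simp [hi]
    · rw [abs_div, div_le_one (abs_pos.mpr hi)]
      exact hz i)
  convert h using 2
  funext i
  by_cases hi : x i = 0
  · have h0 := hz i
    rw [hi, abs_zero] at h0
    have : z i = 0 := abs_eq_zero.mp (le_antisymm h0 (abs_nonneg _))
    simp [hi, this]
  · field_simp

theorem uncond_polar {K : Set (EuclideanSpace ℝ (Fin n))} (hu : IsUnconditional K) :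
    IsUnconditional (polarBody K) := by
  intro y hy s hs x hx
  have h1 := hy _ (hu x hx s hs)
  rw [inner_eq_sum] at h1 ⊢
  refine le_trans (le_of_eq ?_) h1
  apply Finset.sum_congr rfl
  intro i _
  ring

theorem uncond_smul {K : Set (EuclideanSpace ℝ (Fin n))} (hu : IsUnconditional K) (c : ℝ) :
    IsUnconditional (c • K) := by
  rintro _ ⟨x, hx, rfl⟩ s hs
  refine ⟨_, hu x hx s hs, ?_⟩
  ext i
  simp only [PiLp.smul_apply, smul_eq_mul]
  ring

theorem posBody_posPart {K : Set (EuclideanSpace ℝ (Fin n))} (hK : IsSymBody K)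
    (hu : IsUnconditional K) : PosBody (posPart K) := by
  obtain ⟨hKcomp, hKc, hKi, hKs⟩ := hK
  have h0 : (0 : EuclideanSpace ℝ (Fin n)) ∈ interior K := zero_mem_interior_of_sym hKc hKi hKs
  refine ⟨?_, ?_, fun y hy => hy.1, ?_, ?_⟩
  · have h1 : posPart K = (fun x : EuclideanSpace ℝ (Fin n) => x.ofLp) '' K ∩
        {f | ∀ i, 0 ≤ f i} := by
      ext f
      constructor
      · rintro ⟨h0, h1⟩
        exact ⟨⟨_, h1, rfl⟩, h0⟩
      · rintro ⟨⟨x, hx, rfl⟩, h0⟩
        exact ⟨h0, by simpa using hx⟩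
    rw [h1]
    apply (hKcomp.image (PiLp.continuous_ofLp 2 _)).inter_right
    have h2 : {f : Fin n → ℝ | ∀ i, 0 ≤ f i} = ⋂ i, {f | 0 ≤ f i} := by
      ext f
      simp
    rw [h2]
    exact isClosed_iInter (fun i => isClosed_le continuous_const (continuous_apply i))
  · intro f hf g hg a b ha hb hab
    refine ⟨fun i => ?_, ?_⟩
    · simp only [Pi.add_apply, Pi.smul_apply, smul_eq_mul]
      have h1 := hf.1 i
      have h2 := hg.1 i
      positivity
    · have h3 := hKc hf.2 hg.2 ha hb hab
      convert h3 using 1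
      ext i
      simp
  · intro y hy z hz0 hzy
    refine ⟨hz0, uncond_solid hKc hu hy.2 z (fun i => ?_)⟩
    rw [abs_of_nonneg (hz0 i), abs_of_nonneg (hy.1 i)]
    exact hzy i
  · have hcont : Continuous (fun κ : ℝ => WithLp.toLp 2 (fun _ : Fin n => κ)) :=
      (PiLp.continuous_toLp 2 _).comp (continuous_pi (fun _ => continuous_id))
    have hnhds : (fun κ : ℝ => WithLp.toLp 2 (fun _ : Fin n => κ)) ⁻¹' (interior K) ∈ nhds (0 : ℝ) := by
      apply hcont.continuousAt.preimage_mem_nhds
      have : WithLp.toLp 2 (fun _ : Fin n => (0 : ℝ)) = (0 : EuclideanSpace ℝ (Fin n)) := rfl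
      rw [this]
      exact isOpen_interior.mem_nhds h0
    obtain ⟨r, hr, hball⟩ := Metric.mem_nhds_iff.mp hnhds
    have hmem : r / 2 ∈ Metric.ball (0 : ℝ) r := by
      rw [Metric.mem_ball, dist_zero_right, Real.norm_eq_abs, abs_of_pos (by positivity)]
      linarith
    exact ⟨r / 2, by positivity, fun _ => by positivity, interior_subset (hball hmem)⟩

/-- The coloring from a cover by translates. -/
theorem exists_coloring {K L : Set (EuclideanSpace ℝ (Fin n))} (hK : IsSymBody K)
    (hL : IsSymBody L) (huK : IsUnconditional K) (huL : IsUnconditional L) {ε : ℝ} (hε : 0 < ε)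
    (hε2 : ε ≤ 1 / 512) :
    ∃ col : (Fin n → ℝ) → Fin (covNum (polarBody L) (ε • polarBody K)),
      Setting (posPart K) (posPart (polarBody L)) (posPart (polarBody K)) col ε := by
  classical
  have hP := isSymBody_polar hL
  have hQ := isSymBody_polar hK
  have huQ := uncond_polar huK
  have hεQ := isSymBody_smul hQ hε
  set P := polarBody L with hPdef
  set Q := polarBody K with hQdef
  set M := covNum P (ε • Q) with hMdef
  have h0εQ : (0 : EuclideanSpace ℝ (Fin n)) ∈ interior (ε • Q) :=
    zero_mem_interior_of_sym hεQ.2.1 hεQ.2.2.1 hεQ.2.2.2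
  obtain ⟨tc, htc, hcov⟩ := exists_cover_card_eq hP.1 h0εQ
  have hMpos : 1 ≤ M := one_le_covNum hP hεQ
  let e : tc ≃ Fin M := Finset.equivFinOfCardEq htc
  have hex : ∀ f : Fin n → ℝ, ∃ m : Fin M, WithLp.toLp 2 f ∈ P →
      WithLp.toLp 2 f ∈ (fun b => ((e.symm m : tc) : EuclideanSpace ℝ (Fin n)) + b) '' (ε • Q) := by
    intro f
    by_cases hf : WithLp.toLp 2 f ∈ P
    · have h1 := hcov hf
      simp only [Set.mem_iUnion] at h1
      obtain ⟨u, hu, hfu⟩ := h1
      refine ⟨e ⟨u, hu⟩, fun _ => ?_⟩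
      simpa using hfu
    · exact ⟨⟨0, hMpos⟩, fun h => absurd h hf⟩
  choose col hcol using hex
  refine ⟨col, posBody_posPart hK huK, posBody_posPart hP (uncond_polar huL),
    posBody_posPart hQ huQ, ?_, ?_, hε, hε2⟩
  · intro x hx g hg
    have h1 := hg.2 _ hx.2
    rw [inner_eq_sum] at h1
    simpa using h1
  · intro y hy y' hy' hc
    obtain ⟨_, ⟨a, ha, rfl⟩, hya⟩ := hcol y hy.2
    obtain ⟨_, ⟨a', ha', rfl⟩, hya'⟩ := hcol y' hy'.2
    rw [← hc] at hya'
    have hdiff : ∀ i, y i - y' i = ε * (a i - a' i) := by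
      intro i
      have h1 := congrArg (fun z : EuclideanSpace ℝ (Fin n) => z i) hya
      have h2 := congrArg (fun z : EuclideanSpace ℝ (Fin n) => z i) hya'
      simp only [PiLp.add_apply, PiLp.smul_apply, smul_eq_mul] at h1 h2
      rw [← h1, ← h2]
      ring
    refine ⟨fun i => by positivity, ?_⟩
    have hcQ : (1 / 2 : ℝ) • a + (1 / 2 : ℝ) • (-a') ∈ Q :=
      hQ.2.1 ha (hQ.2.2.2 a' ha') (by norm_num) (by norm_num) (by norm_num)
    apply uncond_solid hQ.2.1 huQ hcQ
    intro i
    simp only [PiLp.add_apply, PiLp.smul_apply, smul_eq_mul, PiLp.neg_apply]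
    have h2 : (1 / 2 : ℝ) * a i + (1 / 2 : ℝ) * (-a' i) = (a i - a' i) / 2 := by ring
    have h3 : |(|y i - y' i| / (2 * ε))| = |a i - a' i| / 2 := by
      rw [abs_of_nonneg (by positivity), hdiff i, abs_mul, abs_of_pos hε]
      field_simp
    rw [h3, h2, abs_div, abs_of_pos (show (0 : ℝ) < 2 by norm_num)]

/-- The one-sided inequality for unconditional pairs. -/
theorem uncond_second {K L : Set (EuclideanSpace ℝ (Fin n))} (hK : IsSymBody K) (hL : IsSymBody L)
    (huK : IsUnconditional K) (huL : IsUnconditional L) :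
    Real.log (covNum K L) ≤
      10000 * Real.log (covNum (polarBody L) ((512 : ℝ)⁻¹ • polarBody K)) := by
  classical
  have hε : (0 : ℝ) < (512 : ℝ)⁻¹ := by norm_num
  have hε2 : (512 : ℝ)⁻¹ ≤ 1 / 512 := by norm_num
  have hP := isSymBody_polar hL
  have hQ := isSymBody_polar hK
  have huP := uncond_polar huL
  have huQ := uncond_polar huK
  have hεQ := isSymBody_smul hQ hε
  set P := polarBody L with hPdef
  set Q := polarBody K with hQdef
  set M := covNum P ((512 : ℝ)⁻¹ • Q) with hMdef
  have hMpos : 1 ≤ M := one_le_covNum hP hεQ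
  have h0L : (0 : EuclideanSpace ℝ (Fin n)) ∈ L :=
    interior_subset (zero_mem_interior_of_sym hL.2.1 hL.2.2.1 hL.2.2.2)
  have h0K : (0 : EuclideanSpace ℝ (Fin n)) ∈ K :=
    interior_subset (zero_mem_interior_of_sym hK.2.1 hK.2.2.1 hK.2.2.2)
  have hbip : polarBody P = L := bipolar hL.1.isClosed hL.2.1 h0L
  have hcovK : 1 ≤ covNum K L := one_le_covNum hK hL
  have hcovKR : (1 : ℝ) ≤ (covNum K L : ℝ) := by exact_mod_cast hcovK
  have hHnn : 0 ≤ Real.log M := Real.log_nonneg (by exact_mod_cast hMpos)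
  -- the case of one translate
  by_cases hM1 : M = 1
  · have h0εQ : (0 : EuclideanSpace ℝ (Fin n)) ∈ interior ((512 : ℝ)⁻¹ • Q) :=
      zero_mem_interior_of_sym hεQ.2.1 hεQ.2.2.1 hεQ.2.2.2
    obtain ⟨tc, htc, hcov⟩ := exists_cover_card_eq hP.1 h0εQ
    rw [← hMdef, hM1] at htc
    obtain ⟨u, rfl⟩ := Finset.card_eq_one.mp htc
    have hPsub : ∀ w ∈ P, w ∈ (512 : ℝ)⁻¹ • Q := by
      intro w hw
      have h1 := hcov hw
      have h2 := hcov (hP.2.2.2 w hw)
      simp only [Finset.mem_singleton, Set.iUnion_iUnion_eq_left, Set.mem_image] at h1 h2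
      obtain ⟨b₁, hb₁, hb₁u⟩ := h1
      obtain ⟨b₂, hb₂, hb₂u⟩ := h2
      have h3 := hεQ.2.2.2 b₂ hb₂
      have h4 := hεQ.2.1 hb₁ h3 (show (0 : ℝ) ≤ 1 / 2 by norm_num)
        (show (0 : ℝ) ≤ 1 / 2 by norm_num) (by norm_num)
      convert h4 using 1
      have h5 : b₁ = w - u := by
        rw [← hb₁u]
        abel
      have h6 : b₂ = -w - u := by
        rw [← hb₂u]
        abel
      rw [h5, h6]
      ext i
      simp
      ring
    have hsub : K ⊆ L := by
      intro z hz
      rw [← hbip]
      intro w hw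
      obtain ⟨a, ha, rfl⟩ := hPsub w hw
      show inner ℝ ((512 : ℝ)⁻¹ • a) z ≤ 1
      rw [real_inner_smul_left, real_inner_comm]
      have h1 := ha z hz
      norm_num at h1 ⊢
      linarith
    have hle : covNum K L ≤ 1 := by
      apply Nat.sInf_le
      refine ⟨{0}, rfl, ?_⟩
      intro z hz
      simp only [Finset.mem_singleton, Set.iUnion_iUnion_eq_left]
      exact ⟨z, hsub hz, by simp⟩
    have h1 : covNum K L = 1 := le_antisymm hle hcovK
    rw [h1]
    simp only [Nat.cast_one, Real.log_one]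
    positivity
  -- the main case
  have hM2 : 2 ≤ M := by omega
  have hHlow : Real.log 2 ≤ Real.log M :=
    Real.log_le_log (by norm_num) (by exact_mod_cast hM2)
  obtain ⟨col, hS⟩ := exists_coloring hK hL huK huL hε hε2
  obtain ⟨t, htlog, htcov⟩ := hS.positive_cover
  rw [← hQdef, ← hPdef, ← hMdef] at htlog
  have hsplit : ∀ z ∈ K, ∃ d ∈ t, ∃ d' ∈ t,
      z - WithLp.toLp 2 (fun i => d i - d' i) ∈ L := by
    intro z hz
    set zp : Fin n → ℝ := fun i => max (z i) 0 with hzp
    set zm : Fin n → ℝ := fun i => max (-z i) 0 with hzm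
    have hzpK : zp ∈ posPart K := by
      refine ⟨fun i => le_max_right _ _, uncond_solid hK.2.1 huK hz zp (fun i => ?_)⟩
      simp only [hzp]
      rw [abs_of_nonneg (le_max_right _ _)]
      exact max_le (le_abs_self _) (abs_nonneg _)
    have hzmK : zm ∈ posPart K := by
      refine ⟨fun i => le_max_right _ _, uncond_solid hK.2.1 huK hz zm (fun i => ?_)⟩
      simp only [hzm]
      rw [abs_of_nonneg (le_max_right _ _)]
      exact max_le (neg_le_abs _) (abs_nonneg _)
    obtain ⟨d, hd, hdw⟩ := htcov zp hzpK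
    obtain ⟨d', hd', hdw'⟩ := htcov zm hzmK
    refine ⟨d, hd, d', hd', ?_⟩
    rw [← hbip]
    intro w hw
    have hwabs : (fun i => |w i|) ∈ posPart P := by
      refine ⟨fun i => abs_nonneg _, uncond_solid hP.2.1 huP hw _ (fun i => ?_)⟩
      simp
    have h1 := hdw _ hwabs
    have h2 := hdw' _ hwabs
    rw [inner_eq_sum]
    have hpoint : ∀ i, w i * (z - WithLp.toLp 2 (fun i => d i - d' i)) i ≤
        |zp i - d i| * |w i| + |zm i - d' i| * |w i| := by
      intro i
      have hzi : z i = zp i - zm i := by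
        simp only [hzp, hzm]
        rcases le_total (z i) 0 with h | h
        · rw [max_eq_right h, max_eq_left (by linarith)]
          ring
        · rw [max_eq_left h, max_eq_right (by linarith)]
          ring
      have h3 : (z - WithLp.toLp 2 (fun i => d i - d' i)) i = (zp i - d i) - (zm i - d' i) := by
        simp only [PiLp.sub_apply]
        rw [hzi]
        ring
      rw [h3, ← add_mul, mul_comm]
      refine le_trans (le_abs_self _) ?_
      rw [abs_mul]
      apply mul_le_mul_of_nonneg_right _ (abs_nonneg _)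
      exact abs_sub _ _
    calc ∑ i, w i * (z - WithLp.toLp 2 (fun i => d i - d' i)) i
        ≤ ∑ i, (|zp i - d i| * |w i| + |zm i - d' i| * |w i|) :=
          Finset.sum_le_sum (fun i _ => hpoint i)
      _ = ∑ i, |zp i - d i| * |w i| + ∑ i, |zm i - d' i| * |w i| := Finset.sum_add_distrib
      _ ≤ 1 := by linarith
  have htne : t.Nonempty := by
    obtain ⟨d, hd, _⟩ := hsplit 0 h0K
    exact ⟨d, hd⟩
  have htpos : (0 : ℝ) < t.card := by exact_mod_cast Finset.card_pos.mpr htne
  set C : Finset (EuclideanSpace ℝ (Fin n)) :=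
    (t ×ˢ t).image (fun p => WithLp.toLp 2 (fun i => p.1 i - p.2 i)) with hC
  have hcov : K ⊆ ⋃ c ∈ C, (fun b => c + b) '' L := by
    intro z hz
    obtain ⟨d, hd, d', hd', hzL⟩ := hsplit z hz
    simp only [Set.mem_iUnion]
    refine ⟨WithLp.toLp 2 (fun i => d i - d' i), ?_, _, hzL, add_sub_cancel _ _⟩
    exact Finset.mem_image.mpr ⟨(d, d'), Finset.mem_product.mpr ⟨hd, hd'⟩, rfl⟩
  have hcovle : covNum K L ≤ C.card := Nat.sInf_le ⟨C, rfl, hcov⟩
  have hCle : C.card ≤ t.card * t.card := by
    calc C.card ≤ (t ×ˢ t).card := Finset.card_image_le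
      _ = t.card * t.card := Finset.card_product _ _
  have hfinal : Real.log (covNum K L) ≤ 2 * Real.log (t.card : ℝ) := by
    have h1 : (covNum K L : ℝ) ≤ (t.card : ℝ) * (t.card : ℝ) := by
      exact_mod_cast hcovle.trans hCle
    have h2 := Real.log_le_log (by linarith) h1
    rw [Real.log_mul htpos.ne' htpos.ne'] at h2
    linarith
  have hl := Real.log_two_gt_d9
  norm_num at hl
  nlinarith

/-- The two inequalities of the duality conjecture for unconditional pairs. -/
theorem uncond_two_sided {K L : Set (EuclideanSpace ℝ (Fin n))} (hK : IsSymBody K)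
    (hL : IsSymBody L) (huK : IsUnconditional K) (huL : IsUnconditional L) :
    (1 / 10000 : ℝ) * Real.log (covNum (polarBody L) ((512 : ℝ) • polarBody K)) ≤
        Real.log (covNum K L) ∧
      Real.log (covNum K L) ≤
        10000 * Real.log (covNum (polarBody L) ((512 : ℝ)⁻¹ • polarBody K)) := by
  refine ⟨?_, uncond_second hK hL huK huL⟩
  have hP := isSymBody_polar hL
  have hQ := isSymBody_polar hK
  have ha : (0 : ℝ) < 512 := by norm_num
  have hεQ := isSymBody_smul hQ ha
  have h1 := uncond_second hP hεQ (uncond_polar huL) (uncond_smul (uncond_polar huK) 512)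
  have h0L : (0 : EuclideanSpace ℝ (Fin n)) ∈ L :=
    interior_subset (zero_mem_interior_of_sym hL.2.1 hL.2.2.1 hL.2.2.2)
  have h0K : (0 : EuclideanSpace ℝ (Fin n)) ∈ K :=
    interior_subset (zero_mem_interior_of_sym hK.2.1 hK.2.2.1 hK.2.2.2)
  have hbipL : polarBody (polarBody L) = L := bipolar hL.1.isClosed hL.2.1 h0L
  have hbipK : polarBody (polarBody K) = K := bipolar hK.1.isClosed hK.2.1 h0K
  rw [polar_smul _ ha, hbipK, hbipL, covNum_smul _ _ (by norm_num)] at h1
  linarith

end Vale.Agent.Lib.P126
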